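import Vale.Agent.P367M.MB1

/-! Existence of the model with data. -/

set_option linter.all false

namespace Vale.Agent.P367

open MeasureTheory ProbabilityTheory Filter Topology Finset Vale.Agent.P146 Matrix
open scoped InnerProductSpace

noncomputable section

/-- every separable complex Hilbert space embeds isometrically in `ℓ²(ℕ)`: a Hilbert basis is
indexed by a countable set, send it to an orthonormal family `lp.single 2 (e i) 1` -/
theorem exists_iso (E : Type) [NormedAddCommGroup E] [InnerProductSpace ℂ E] [CompleteSpace E]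
    [TopologicalSpace.SeparableSpace E] :
    Nonempty (E →ₗᵢ[ℂ] lp (fun _ : ℕ => ℂ) 2) := by
  classical
  obtain ⟨w, b, -⟩ := exists_hilbertBasis ℂ E
  have hb := b.orthonormal
  have hc : Countable w := by
    refine Pairwise.countable_of_isOpen_disjoint (s := fun i : w => Metric.ball (b i) (1 / 2))
      (fun i j hij => Metric.ball_disjoint_ball ?_) (fun _ => Metric.isOpen_ball)
      fun i => ⟨b i, Metric.mem_ball_self (by norm_num)⟩
    have h1 : ⟪b i, b i - b j⟫_ℂ = 1 := by
      rw [inner_sub_right, hb.2 hij, sub_zero, inner_self_eq_norm_sq_to_K, hb.1 i]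
      simp
    have h2 := norm_inner_le_norm (𝕜 := ℂ) (b i) (b i - b j)
    rw [h1, hb.1 i, norm_one, one_mul] at h2
    rw [dist_eq_norm]
    linarith
  obtain ⟨e, he⟩ := exists_injective_nat w
  have hv : Orthonormal ℂ fun i : w =>
      (lp.single 2 (e i) (1 : ℂ) : lp (fun _ : ℕ => ℂ) 2) := by
    rw [orthonormal_iff_ite]
    intro i j
    rw [lp.inner_single_left, lp.single_apply, Pi.single_apply]
    by_cases h : i = j
    · simp [h]
    · simp [h, he.ne h]
  exact ⟨hv.orthogonalFamily.linearIsometry.comp b.repr.toLinearIsometry⟩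

/-- `J ψ = ι (toLp (coe ∘ ψ))` with `ι` from `exists_iso` for
`E = Lp (UniformSpace.Completion K) 2 P` (`Lp.SecondCountableTopology`, `L2.inner_def`,
`UniformSpace.Completion.inner_coe`) -/
theorem exists_J {Ω : Type} [MeasurableSpace Ω] [MeasurableSpace.CountablyGenerated Ω]
    (P : Measure Ω) [IsProbabilityMeasure P] (K : Type) [SeminormedAddCommGroup K]
    [InnerProductSpace ℂ K] [TopologicalSpace.SeparableSpace K] :
    ∃ J : (Ω → K) → lp (fun _ : ℕ => ℂ) 2, ∀ ψ φ, L2 P ψ → L2 P φ →
      ⟪J ψ, J φ⟫_ℂ = ∫ ω, ⟪ψ ω, φ ω⟫_ℂ ∂P := by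
  classical
  haveI : Fact ((2 : ENNReal) ≠ ⊤) := ⟨by simp⟩
  obtain ⟨ι⟩ := exists_iso (Lp (UniformSpace.Completion K) 2 P)
  have hm : ∀ ψ : Ω → K, L2 P ψ →
      MemLp (fun ω => (ψ ω : UniformSpace.Completion K)) 2 P := fun ψ h => by
    refine h.2.of_le ((UniformSpace.Completion.continuous_coe K).comp_aestronglyMeasurable h.1)
      (Eventually.of_forall fun ω => ?_)
    rw [UniformSpace.Completion.norm_coe, norm_norm]
  refine ⟨fun ψ => if h : L2 P ψ then ι ((hm ψ h).toLp _) else 0, fun ψ φ h1 h2 => ?_⟩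
  simp only [dif_pos h1, dif_pos h2]
  rw [ι.inner_map_map, MeasureTheory.L2.inner_def]
  refine integral_congr_ae ?_
  filter_upwards [(hm ψ h1).coeFn_toLp, (hm φ h2).coeFn_toLp] with ω k1 k2
  rw [k1, k2, UniformSpace.Completion.inner_coe]

end

end Vale.Agent.P367
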