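import Vale.Agent.P367.PS
import Vale.Agent.P367G.Defs
import Vale.Agent.P367S.Mdl

/-! The limit model with data fields: one qubit, coherent states, and Gaussian data. -/

set_option linter.all false

namespace Vale.Agent.P367

open MeasureTheory ProbabilityTheory Filter Topology Finset Vale.Agent.P146 Matrix
open scoped InnerProductSpace

noncomputable section

section

variable {H K : Type} [NormedAddCommGroup H] [InnerProductSpace ℂ H]
  [SeminormedAddCommGroup K] [InnerProductSpace ℂ K] (M : P367S.Mdl H K)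

/-- projector on the basis state `b` -/
def Pb (b : Bool) : M2 := Matrix.diagonal fun a => if a = b then 1 else 0

/-- `exp (-i g φ(f))` without `Z` -/
def dis (g : ℝ) (f : H) : K →ₗ[ℂ] K :=
  M.mat (Pb true) ∘ₗ (M.cw ((g : ℂ) • f)).toLinearEquiv.toLinearMap +
    M.mat (Pb false) ∘ₗ (M.cw (((-g : ℝ) : ℂ) • f)).toLinearEquiv.toLinearMap

/-- `exp (-i g Z (x + φ(f)))` -/
def cg (g x : ℝ) (f : H) : K →ₗ[ℂ] K :=
  M.mat (RZ (g * x)) ∘ₗ (M.cw ((g : ℂ) • f)).toLinearEquiv.toLinearMap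

/-- action of a letter; `x j` is the classical part and `f j` the quantum part of the mode `j` -/
def act (x : ℕ → ℝ) (f : ℕ → H) : Lt → K →ₗ[ℂ] K
  | .m A => M.mat A
  | .w j g => cg M g (x j) (f j)

/-- action of a word; the head is applied first -/
def actW (x : ℕ → ℝ) (f : ℕ → H) : List Lt → K →ₗ[ℂ] K
  | [] => LinearMap.id
  | y :: r => actW x f r ∘ₗ act M x f y

/-- derivation on words: each letter `w j g` gives the factor `-i g (c j) Z` -/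
def dW (x : ℕ → ℝ) (f : ℕ → H) (c : ℕ → ℂ) : List Lt → K →ₗ[ℂ] K
  | [] => 0
  | .m A :: r => dW x f c r ∘ₗ M.mat A
  | .w j g :: r => dW x f c r ∘ₗ cg M g (x j) (f j) +
      (-(Complex.I * g * c j)) • (actW M x f r ∘ₗ cg M g (x j) (f j) ∘ₗ M.mat PZ)

end

/-- all matrices of the word are unitary -/
def Lt.U : Lt → Prop
  | .m A => Uni A
  | .w _ _ => True

/-- all modes of the word have index below `N` -/
def Lt.lt (N : ℕ) : Lt → Prop
  | .m _ => True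
  | .w j _ => j < N

/-- letters with label dependent matrices -/
inductive LL (Λ : Type) : Type
  | m (A : Λ → M2) : LL Λ
  | w (j : ℕ) (g : ℝ) : LL Λ

def LL.ev {Λ : Type} (l : Λ) : LL Λ → Lt
  | .m A => .m (A l)
  | .w j g => .w j g

def LL.OK {Λ : Type} [MeasurableSpace Λ] (N : ℕ) : LL Λ → Prop
  | .m A => GOK A
  | .w j _ => j < N

variable {Ω : Type} [MeasurableSpace Ω] {Λ : Type} [MeasurableSpace Λ]

/-- square integrable fields of vectors -/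
def L2 {K : Type} [SeminormedAddCommGroup K] (P : Measure Ω) (ψ : Ω → K) : Prop :=
  AEStronglyMeasurable ψ P ∧ MemLp (fun ω => ‖ψ ω‖) 2 P

/-- the model with data -/
structure DM (ν : Measure Λ) (P : Measure Ω) (H K : Type) [NormedAddCommGroup H]
    [InnerProductSpace ℂ H] [SeminormedAddCommGroup K] [InnerProductSpace ℂ K] where
  M : P367S.Mdl H K
  X : Data ν P
  J : (Ω → K) → H
  hJ : ∀ ψ φ, L2 P ψ → L2 P φ → ⟪J ψ, J φ⟫_ℂ = ∫ ω, ⟪ψ ω, φ ω⟫_ℂ ∂P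

namespace DM

variable {ν : Measure Λ} {P : Measure Ω} {H K : Type} [NormedAddCommGroup H]
  [InnerProductSpace ℂ H] [SeminormedAddCommGroup K] [InnerProductSpace ℂ K] (D : DM ν P H K)

/-- the classical parts of the modes -/
def xs (m : ℕ → Lp ℝ 2 P) (ω : Ω) : ℕ → ℝ := fun j => D.X.S (m j) ω

/-- the gates at `ω` -/
def gt (V : ℕ → Λ → M2) (ω : Ω) : ℕ → M2 := fun i => V i (D.X.lab ω)

/-- the state after `j` layers -/
def st (γ : ℕ → ℝ) (V : ℕ → Λ → M2) (m : ℕ → Lp ℝ 2 P) (f : ℕ → H) (j : ℕ) (ω : Ω) : K :=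
  actW D.M (D.xs m ω) f (fw γ (D.gt V ω) j) D.M.vac

/-- the vector `U_j⁻¹ Z U_j vac` -/
def zv (γ : ℕ → ℝ) (V : ℕ → Λ → M2) (m : ℕ → Lp ℝ 2 P) (f : ℕ → H) (j : ℕ) (ω : Ω) : K :=
  actW D.M (D.xs m ω) f (zw γ (D.gt V ω) j) D.M.vac

/-- the component along the vacuum -/
def mg (ψ : Ω → K) (ω : Ω) : ℝ := (⟪D.M.vac, ψ ω⟫_ℂ).re

/-- the component orthogonal to the vacuum (when `⟪vac, ψ ω⟫` is real) -/
def pp (ψ : Ω → K) (ω : Ω) : K := ψ ω - (D.mg ψ ω : ℂ) • D.M.vac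

/-- consistent modes -/
structure Cons (γ : ℕ → ℝ) (V : ℕ → Λ → M2) (m : ℕ → Lp ℝ 2 P) (f : ℕ → H) : Prop where
  ok : ∀ j, GOK (V j)
  hm : ∀ j, m j = toL P (D.mg (D.zv γ V m f j))
  hf : ∀ j, f j = D.J (D.pp (D.zv γ V m f j))

/-- Gram matrix of the modes -/
def gram (m : ℕ → Lp ℝ 2 P) (f : ℕ → H) (j k : ℕ) : ℂ :=
  ((⟪m j, m k⟫_ℝ : ℝ) : ℂ) + ⟪f j, f k⟫_ℂ

/-- squared distance of the state to the kernel of `Q` -/
def err (Q : Ω → M2) (ψ : Ω → K) : ℝ := ∫ ω, ‖D.M.mat (Q ω) (ψ ω)‖ ^ 2 ∂P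

def Reach (Q : Ω → M2) : Prop :=
  ∀ ε > 0, ∃ γ V m f p, D.Cons γ V m f ∧ D.err Q (D.st γ V m f p) ≤ ε

/-- `⟨φ(x) vac, Φ⟩` for the mode `x = (a, b)` -/
def Lam (a : Lp ℝ 2 P) (b : H) (Φ : Ω → K) : ℂ :=
  ∫ ω, (((D.X.S a ω : ℝ) : ℂ) * ⟪D.M.vac, Φ ω⟫_ℂ + ⟪D.M.vac, D.M.ann b (Φ ω)⟫_ℂ) ∂P

open Classical in
/-- restriction to the labels in `A` -/
def rs {E : Type} [Zero E] (A : Set Λ) (ψ : Ω → E) (ω : Ω) : E :=
  if D.X.lab ω ∈ A then ψ ω else 0

/-- classical part of the mode sent by the class `A` -/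
def mA (A : Set Λ) (z : Ω → K) : Lp ℝ 2 P := toL P (D.rs A (D.mg z))

/-- quantum part of the mode sent by the class `A` -/
def fA (A : Set Λ) (z : Ω → K) : H := D.J (D.rs A (D.pp z))

end DM

/-- part M: circuits with labels play the game -/
def PartM : Prop :=
  ∀ (Λ : Type) [MeasurableSpace Λ] [MeasurableSpace.CountablyGenerated Λ] (ν : Measure Λ)
    [IsProbabilityMeasure ν], ∃ (Ω : Type) (_ : MeasurableSpace Ω) (P : Measure Ω)
    (_ : IsProbabilityMeasure P) (X : Data ν P) (Reach : (Ω → M2) → Prop), Rules X Reach ∧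
      ∀ F : Ω → Bool, Measurable F → Reach (fun ω => Qb (F ω)) → ∀ ε > 0,
        ∃ v ∈ Q3 ν, X.en F - ε ≤ v

theorem partMG_of (hR : PartR) (hG : PartG) (hM : PartM) : PartMG := by
  intro k Pr hP ε hε
  obtain ⟨P', B, hN, h1⟩ := hR k Pr hP (ε / 3) (by positivity)
  obtain ⟨Λ, i1, i2, ν, i3, h2⟩ := hG k P' B hN (ε / 3) (by positivity)
  obtain ⟨Ω, j1, P, j2, X, Reach, hru, h3⟩ := hM Λ ν
  obtain ⟨F, hF, hre, h4⟩ := h2 Ω P X Reach hru
  obtain ⟨v, hv, h5⟩ := h3 F hF hre (ε / 3) (by positivity)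
  exact ⟨Λ, i1, ν, i3, v, hv, by linarith⟩

end

end Vale.Agent.P367
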