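import Vale.Agent.P367M.Defs

/-! One qubit matrices acting on the coherent state model. -/

set_option linter.all false

namespace Vale.Agent.P367

open MeasureTheory ProbabilityTheory Filter Topology Finset Vale.Agent.P146 Matrix
open scoped InnerProductSpace

noncomputable section

variable {H K : Type} [NormedAddCommGroup H] [InnerProductSpace ℂ H]
  [SeminormedAddCommGroup K] [InnerProductSpace ℂ K] (M : P367S.Mdl H K)

/-- use `M.span_co` and `LinearMap.ext_on_range` -/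
theorem ext_co {E : Type} [AddCommGroup E] [Module ℂ E] {S T : K →ₗ[ℂ] E}
    (h : ∀ a x, S (M.co a x) = T (M.co a x)) : S = T := 
  LinearMap.ext_on_range (v := fun p : Bool × H => M.co p.1 p.2) M.span_co fun p => h p.1 p.2

theorem mat_one : M.mat 1 = LinearMap.id := by
  refine ext_co M fun a x => ?_
  cases a <;> simp [M.mat_co, Matrix.one_apply]

theorem mat_mul (A B : M2) : M.mat (A * B) = M.mat A ∘ₗ M.mat B := by
  refine ext_co M fun a x => ?_
  simp only [LinearMap.comp_apply, M.mat_co, Fintype.sum_bool, map_add, map_smul, Matrix.mul_apply]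
  module

theorem mat_add (A B : M2) : M.mat (A + B) = M.mat A + M.mat B := by
  refine ext_co M fun a x => ?_
  simp only [LinearMap.add_apply, M.mat_co, Fintype.sum_bool, Matrix.add_apply]
  module

theorem mat_smul (c : ℂ) (A : M2) : M.mat (c • A) = c • M.mat A := by
  refine ext_co M fun a x => ?_
  simp only [LinearMap.smul_apply, M.mat_co, Fintype.sum_bool, Matrix.smul_apply, smul_eq_mul]
  module

theorem mat_sub (A B : M2) : M.mat (A - B) = M.mat A - M.mat B := by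
  refine ext_co M fun a x => ?_
  simp only [LinearMap.sub_apply, M.mat_co, Fintype.sum_bool, Matrix.sub_apply]
  module

theorem mat_diag_co (d : Bool → ℂ) (a : Bool) (h : H) :
    M.mat (Matrix.diagonal d) (M.co a h) = d a • M.co a h := by
  cases a <;> simp [M.mat_co, Matrix.diagonal_apply]

theorem MA1_ind {p : K → Prop} (h1 : ∀ a h, p (M.co a h)) (h0 : p 0)
    (h2 : ∀ u v, p u → p v → p (u + v)) (h3 : ∀ (c : ℂ) u, p u → p (c • u)) (x : K) : p x := by
  have hx : x ∈ Submodule.span ℂ (Set.range fun q : Bool × H => M.co q.1 q.2) := by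
    rw [M.span_co]; trivial
  induction hx using Submodule.span_induction with
  | mem u hu =>
    obtain ⟨q, rfl⟩ := hu
    exact h1 _ _
  | zero => exact h0
  | add u v _ _ hu hv => exact h2 u v hu hv
  | smul c u _ hu => exact h3 c u hu

/-- span induction in both arguments -/
theorem inner_mat (A : M2) (x y : K) : ⟪x, M.mat A y⟫_ℂ = ⟪M.mat Aᴴ x, y⟫_ℂ := by
  refine MA1_ind M (p := fun x => ⟪x, M.mat A y⟫_ℂ = ⟪M.mat Aᴴ x, y⟫_ℂ) (fun a h => ?_)
    (by simp) (fun u v hu hv => by simp only [map_add, inner_add_left, hu, hv])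
    (fun c u hu => by simp only [map_smul, inner_smul_left, hu]) x
  refine MA1_ind M (p := fun y => ⟪M.co a h, M.mat A y⟫_ℂ = ⟪M.mat Aᴴ (M.co a h), y⟫_ℂ)
    (fun b k => ?_) (by simp) (fun u v hu hv => by simp only [map_add, inner_add_right, hu, hv])
    (fun c u hu => by simp only [map_smul, inner_smul_right, hu]) y
  cases a <;> cases b <;>
    simp [M.mat_co, inner_add_left, inner_add_right, inner_smul_left, inner_smul_right, M.inner_co]

theorem MA1_sq (A : M2) (x : K) : ‖M.mat A x‖ ^ 2 = (⟪M.mat (Aᴴ * A) x, x⟫_ℂ).re := by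
  rw [mat_mul, LinearMap.comp_apply, ← inner_mat, ← inner_self_eq_norm_sq (𝕜 := ℂ)]
  rfl

theorem MA1_eq {A B : M2} (h : Aᴴ * A = Bᴴ * B) (x : K) : ‖M.mat A x‖ = ‖M.mat B x‖ := by
  rw [← sq_eq_sq₀ (norm_nonneg _) (norm_nonneg _), MA1_sq, MA1_sq, h]

theorem MA1_Pb (b : Bool) : (Pb b)ᴴ * Pb b = Pb b := by
  ext i j
  cases b <;> cases i <;> cases j <;> simp [Pb, Matrix.mul_apply, Matrix.diagonal_apply]

theorem MA1_diag (d : Bool → ℂ) (x : K) : ‖M.mat (Matrix.diagonal d) x‖ ^ 2 =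
    ‖d true‖ ^ 2 * ‖M.mat (Pb true) x‖ ^ 2 + ‖d false‖ ^ 2 * ‖M.mat (Pb false) x‖ ^ 2 := by
  have e : (Matrix.diagonal d)ᴴ * Matrix.diagonal d =
      ((‖d true‖ ^ 2 : ℝ) : ℂ) • Pb true + ((‖d false‖ ^ 2 : ℝ) : ℂ) • Pb false := by
    ext i j
    cases i <;> cases j <;>
      simp [Pb, Matrix.mul_apply, Matrix.diagonal_apply, Complex.conj_mul']
  rw [MA1_sq, MA1_sq M (Pb true), MA1_sq M (Pb false), MA1_Pb, MA1_Pb, e, mat_add, mat_smul,
    mat_smul]
  simp only [LinearMap.add_apply, LinearMap.smul_apply, inner_add_left, inner_smul_left,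
    Complex.conj_ofReal, Complex.add_re, Complex.re_ofReal_mul]

theorem MA1_pyth (x : K) :
    ‖x‖ ^ 2 = ‖M.mat (Pb true) x‖ ^ 2 + ‖M.mat (Pb false) x‖ ^ 2 := by
  have h := MA1_diag M (fun _ => 1) x
  rw [Matrix.diagonal_one, mat_one] at h
  simpa using h

theorem MA1_le {d : Bool → ℂ} {c : ℝ} (h : ∀ a, ‖d a‖ ≤ c) (x : K) :
    ‖M.mat (Matrix.diagonal d) x‖ ≤ c * ‖x‖ := by
  have hc : 0 ≤ c := (norm_nonneg _).trans (h true)
  refine le_of_pow_le_pow_left₀ two_ne_zero (by positivity) ?_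
  rw [MA1_diag, mul_pow, MA1_pyth M x, mul_add]
  gcongr <;> exact h _

theorem norm_mat_uni {A : M2} (hA : Uni A) (x : K) : ‖M.mat A x‖ = ‖x‖ := by
  refine MA1_eq M (B := 1) ?_ x |>.trans (by rw [mat_one]; rfl)
  rw [Matrix.conjTranspose_one, mul_one]
  exact Matrix.mem_unitaryGroup_iff'.1 hA

/-- `A = ∑ a b, A a b • single a b 1` and `‖mat (single a b 1) x‖ ≤ ‖x‖` -/
theorem norm_mat_le (A : M2) (x : K) : ‖M.mat A x‖ ≤ (∑ a, ∑ b, ‖A a b‖) * ‖x‖ := by
  have h : ∀ a b : Bool, ‖M.mat (Matrix.single a b 1) x‖ ≤ ‖x‖ := fun a b => by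
    have e : (Matrix.single a b (1 : ℂ))ᴴ * Matrix.single a b 1 = (Pb b)ᴴ * Pb b := by
      ext i j
      cases a <;> cases b <;> cases i <;> cases j <;>
        simp [Pb, Matrix.mul_apply, Matrix.diagonal_apply, Matrix.single_apply]
    rw [MA1_eq M e]
    exact (MA1_le M (c := 1) (fun i => by split_ifs <;> simp) x).trans_eq (one_mul _)
  have e : A = (A true true • Matrix.single true true 1 + A true false • Matrix.single true false 1) +
      (A false true • Matrix.single false true 1 + A false false • Matrix.single false false 1) := by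
    ext i j
    cases i <;> cases j <;> simp [Matrix.single_apply]
  have k : ∀ a b : Bool, ‖A a b • M.mat (Matrix.single a b 1) x‖ ≤ ‖A a b‖ * ‖x‖ := fun a b => by
    rw [norm_smul]
    exact mul_le_mul_of_nonneg_left (h a b) (norm_nonneg _)
  conv_lhs => rw [e]
  simp only [mat_add, mat_smul, LinearMap.add_apply, LinearMap.smul_apply, Fintype.sum_bool, add_mul]
  exact norm_add_le_of_le (norm_add_le_of_le (k _ _) (k _ _)) (norm_add_le_of_le (k _ _) (k _ _))

theorem norm_mat_sq_le (A : M2) (x : K) : ‖M.mat A x‖ ^ 2 ≤ 4 * fro A * ‖x‖ ^ 2 := by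
  refine (pow_le_pow_left₀ (norm_nonneg _) (norm_mat_le M A x) 2).trans ?_
  rw [mul_pow]
  refine mul_le_mul_of_nonneg_right ?_ (sq_nonneg _)
  simp only [fro, Fintype.sum_bool]
  nlinarith [sq_nonneg (‖A true true‖ - ‖A true false‖), sq_nonneg (‖A true true‖ - ‖A false true‖),
    sq_nonneg (‖A true true‖ - ‖A false false‖), sq_nonneg (‖A true false‖ - ‖A false true‖),
    sq_nonneg (‖A true false‖ - ‖A false false‖), sq_nonneg (‖A false true‖ - ‖A false false‖)]

/-- Pythagoras -/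
theorem norm_sq_Pb (x : K) :
    ‖x‖ ^ 2 = ‖M.mat (Pb true) x‖ ^ 2 + ‖M.mat (Pb false) x‖ ^ 2 := 
  MA1_pyth M x

theorem norm_Pj_le {Q : M2} (hQ : Pj Q) (x : K) : ‖M.mat Q x‖ ≤ ‖x‖ := by
  obtain ⟨W, hW, rfl⟩ := hQ
  have hW' : Uni Wᴴ := Unitary.star_mem hW
  rw [cj, mat_mul, mat_mul, LinearMap.comp_apply, LinearMap.comp_apply, norm_mat_uni M hW,
    ← norm_mat_uni M hW' x]
  exact (MA1_le M (c := 1) (fun i => by split_ifs <;> simp) _).trans_eq (one_mul _)

/-- `PZ - spin b = ∓ 2 Qb b` -/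
theorem norm_PZ_sub (b : Bool) (x : K) :
    ‖M.mat PZ x - (spin b : ℂ) • x‖ = 2 * ‖M.mat (Qb b) x‖ := by
  have e : PZ = (spin b : ℂ) • (1 : M2) + (-2 * spin b : ℂ) • Qb b := by
    ext i j
    cases b <;> cases i <;> cases j <;> simp [PZ, Qb, spin, Matrix.diagonal_apply] <;> norm_num
  have h : ‖(-2 * spin b : ℂ)‖ = 2 := by cases b <;> simp [spin]
  conv_lhs => rw [e]
  rw [mat_add, mat_smul, mat_smul, mat_one, LinearMap.add_apply, LinearMap.smul_apply,
    LinearMap.smul_apply, LinearMap.id_apply, add_sub_cancel_left, norm_smul, h]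

theorem inner_vac_co (a : Bool) (h : H) :
    ⟪M.vac, M.co a h⟫_ℂ = ((1 / √2 : ℝ) : ℂ) * Complex.exp (-((‖h‖ ^ 2 : ℝ) : ℂ) / 2) := by
  cases a <;>
    simp [P367S.Mdl.vac, inner_add_left, inner_smul_left, M.inner_co, neg_div]

theorem vac_eq : M.vac = ∑ a, ((1 / √2 : ℝ) : ℂ) • M.co a 0 := by
  simp [P367S.Mdl.vac]

theorem inner_vac_vac : ⟪M.vac, M.vac⟫_ℂ = 1 := by
  conv_lhs => rw [vac_eq M]; arg 2; rw [← vac_eq M]
  simp only [Fintype.sum_bool, inner_add_right, inner_smul_right, inner_vac_co, norm_zero]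
  have h : ((1 / √2 : ℝ) : ℂ) * ((1 / √2 : ℝ) : ℂ) = 1 / 2 := by
    rw [← Complex.ofReal_mul, div_mul_div_comm, Real.mul_self_sqrt zero_le_two]
    norm_num
  simp only [ne_eq, OfNat.ofNat_ne_zero, not_false_eq_true, zero_pow, Complex.ofReal_zero, neg_zero,
    zero_div, Complex.exp_zero, mul_one, h]
  norm_num

theorem norm_vac : ‖M.vac‖ = 1 := by
  have h := inner_self_eq_norm_sq (𝕜 := ℂ) M.vac
  rw [inner_vac_vac] at h
  exact (pow_eq_one_iff_of_nonneg (norm_nonneg _) two_ne_zero).1 (by simpa using h.symm)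

theorem MA1_add (s t : ℝ) : RZ (s + t) = RZ s * RZ t := by
  rw [RZ, RZ, RZ, Matrix.diagonal_mul_diagonal]
  congr 1
  funext a
  rw [← Complex.exp_add]
  congr 1
  push_cast
  ring

theorem MA1_zero : RZ 0 = 1 := by
  simp [RZ]

theorem MA1_ct (t : ℝ) : (RZ t)ᴴ = RZ (-t) := by
  rw [RZ, RZ, Matrix.diagonal_conjTranspose]
  congr 1
  funext a
  simp [← Complex.exp_conj]

theorem uni_RZ (t : ℝ) : Uni (RZ t) := by
  refine Matrix.mem_unitaryGroup_iff'.2 ?_
  rw [Matrix.star_eq_conjTranspose, MA1_ct, ← MA1_add, neg_add_cancel, MA1_zero]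

theorem uni_PZ : Uni PZ := by
  refine Matrix.mem_unitaryGroup_iff'.2 ?_
  ext i j
  cases i <;> cases j <;> simp [PZ, spin, Matrix.mul_apply, Matrix.diagonal_apply]

theorem uni_PX : Uni PX := by
  refine Matrix.mem_unitaryGroup_iff'.2 ?_
  ext i j
  cases i <;> cases j <;> simp [PX, Matrix.mul_apply]

theorem PZ_ct : PZᴴ = PZ := by
  ext i j
  cases i <;> cases j <;> simp [PZ, spin, Matrix.diagonal_apply]

theorem PX_ct : PXᴴ = PX := by
  ext i j
  cases i <;> cases j <;> simp [PX]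

theorem PX_PZ : PX * PZ * PX = -PZ := by
  ext i j
  cases i <;> cases j <;> simp [PX, PZ, spin, Matrix.mul_apply, Matrix.diagonal_apply]

theorem RZ_add (s t : ℝ) : RZ (s + t) = RZ s * RZ t := 
  MA1_add s t

theorem RZ_zero : RZ 0 = 1 := 
  MA1_zero

theorem RZ_ct (t : ℝ) : (RZ t)ᴴ = RZ (-t) := 
  MA1_ct t

theorem norm_RZ_sub (t : ℝ) (x : K) : ‖M.mat (RZ t) x - x‖ ≤ |t| * ‖x‖ := by
  have e : M.mat (RZ t) x - x = M.mat (Matrix.diagonal fun a =>
      Complex.exp (Complex.I * ((-(t * spin a) : ℝ) : ℂ)) - 1) x := by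
    rw [← Matrix.diagonal_sub, Matrix.diagonal_one, mat_sub, mat_one]
    simp [RZ]
  rw [e]
  refine MA1_le M (fun a => Real.norm_exp_I_mul_ofReal_sub_one_le.trans_eq ?_) x
  cases a <;> simp [spin]

theorem MA1_exp (u : ℝ) : ‖Complex.exp (Complex.I * u) - 1 - Complex.I * u‖ ≤ u ^ 2 := by
  have hd : ∀ s ∈ Metric.closedBall (0 : ℝ) ‖u‖, HasDerivWithinAt
      (fun s : ℝ => Complex.exp (Complex.I * s) - 1 - Complex.I * s)
      (Complex.I * (Complex.exp (Complex.I * s) - 1)) (Metric.closedBall (0 : ℝ) ‖u‖) s := by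
    intro s _
    have h1 : HasDerivAt (fun s : ℝ => Complex.I * (s : ℂ)) Complex.I s := by
      simpa using (Complex.ofRealCLM.hasDerivAt (x := s)).const_mul Complex.I
    exact (((h1.cexp.sub_const 1).sub h1).congr_deriv (by ring)).hasDerivWithinAt
  have h := (convex_closedBall (0 : ℝ) ‖u‖).norm_image_sub_le_of_norm_hasDerivWithin_le (C := ‖u‖) hd
    (fun s hs => by
      rw [norm_mul, Complex.norm_I, one_mul]
      exact Real.norm_exp_I_mul_ofReal_sub_one_le.trans (mem_closedBall_zero_iff.1 hs))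
    (Metric.mem_closedBall_self (norm_nonneg u)) (mem_closedBall_zero_iff.2 le_rfl)
  simpa [← sq] using h

/-- diagonal matrices: use `norm_sq_Pb`; `‖exp (i u) - 1 - i u‖ ≤ u ^ 2` for real `u` -/
theorem norm_RZ_sub2 (t : ℝ) (x : K) :
    ‖M.mat (RZ t) x - x + (Complex.I * t) • M.mat PZ x‖ ≤ t ^ 2 * ‖x‖ := by
  have e : M.mat (RZ t) x - x + (Complex.I * t) • M.mat PZ x = M.mat (Matrix.diagonal fun a =>
      Complex.exp (Complex.I * ((-(t * spin a) : ℝ) : ℂ)) - 1 -
        Complex.I * ((-(t * spin a) : ℝ) : ℂ)) x := by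
    have e2 : (Matrix.diagonal fun a => Complex.exp (Complex.I * ((-(t * spin a) : ℝ) : ℂ)) - 1 -
        Complex.I * ((-(t * spin a) : ℝ) : ℂ)) = RZ t - 1 + (Complex.I * t) • PZ := by
      ext i j
      cases i <;> cases j <;> simp [RZ, PZ, spin, Matrix.diagonal_apply]
    rw [e2, mat_add, mat_sub, mat_smul, mat_one]
    rfl
  rw [e]
  refine MA1_le M (fun a => (MA1_exp _).trans_eq ?_) x
  cases a <;> simp [spin]

/-- there is a unitary matrix that maps `|+⟩` to the basis state `true` -/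
theorem exists_had : ∃ A : M2, Uni A ∧ M.mat (Qb true) (M.mat A M.vac) = 0 := by
  have h : ((√2 : ℝ) : ℂ)⁻¹ * ((√2 : ℝ) : ℂ)⁻¹ = 1 / 2 := by
    rw [← mul_inv, ← Complex.ofReal_mul, Real.mul_self_sqrt zero_le_two]
    norm_num
  refine ⟨Matrix.of fun a b => if a = false ∧ b = false then -((√2 : ℝ) : ℂ)⁻¹ else ((√2 : ℝ) : ℂ)⁻¹,
    Matrix.mem_unitaryGroup_iff'.2 ?_, ?_⟩
  · ext i j
    cases i <;> cases j <;> simp [Matrix.mul_apply, h] <;> norm_num
  · simp [P367S.Mdl.vac, M.mat_co, Qb, Matrix.diagonal_apply]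

end

end Vale.Agent.P367
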