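import Vale.Agent.P367M.MA1

/-! Weyl operators in the coherent state model. -/

set_option linter.all false

namespace Vale.Agent.P367

open MeasureTheory ProbabilityTheory Filter Topology Finset Vale.Agent.P146 Matrix
open scoped InnerProductSpace

noncomputable section

variable {H K : Type} [NormedAddCommGroup H] [InnerProductSpace ℂ H]
  [SeminormedAddCommGroup K] [InnerProductSpace ℂ K] (M : P367S.Mdl H K)

theorem ma2_im_l (g : ℝ) (f h : H) : (⟪(g : ℂ) • f, h⟫_ℂ).im = g * (⟪f, h⟫_ℂ).im := by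
  rw [inner_smul_left, Complex.conj_ofReal, Complex.im_ofReal_mul]

theorem ma2_im_r (g : ℝ) (f h k : H) :
    (⟪f, h - (g : ℂ) • k⟫_ℂ).im = (⟪f, h⟫_ℂ).im - g * (⟪f, k⟫_ℂ).im := by
  rw [inner_sub_right, inner_smul_right, Complex.sub_im, Complex.im_ofReal_mul]

theorem ma2_im_self (f : H) : (⟪f, f⟫_ℂ).im = 0 := inner_self_im (𝕜 := ℂ) f

theorem ma2_im_swap (f b : H) : (⟪f, b⟫_ℂ).im = -(⟪b, f⟫_ℂ).im := by
  rw [← inner_conj_symm, Complex.conj_im]

theorem ma2_ee (u v : ℝ) (y : K) :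
    Complex.exp (Complex.I * (u : ℂ)) • Complex.exp (Complex.I * (v : ℂ)) • y =
      Complex.exp (Complex.I * ((u + v : ℝ) : ℂ)) • y := by
  rw [smul_smul, ← Complex.exp_add, Complex.ofReal_add, mul_add]

theorem ma2_eq {u v : ℝ} {a : Bool} {h k : H} (h1 : u = v) (h2 : h = k) :
    Complex.exp (Complex.I * (u : ℂ)) • M.co a h = Complex.exp (Complex.I * (v : ℂ)) • M.co a k := by
  rw [h1, h2]

theorem ma2_RZ (t : ℝ) (a : Bool) (h : H) : M.mat (RZ t) (M.co a h) =
    Complex.exp (Complex.I * ((-(t * spin a) : ℝ) : ℂ)) • M.co a h := by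
  rw [RZ, mat_diag_co, Complex.ofReal_neg, mul_neg]

theorem ma2_cw (g : ℝ) (f : H) (a : Bool) (h : H) : M.cw ((g : ℂ) • f) (M.co a h) =
    Complex.exp (Complex.I * ((spin a * g * (⟪f, h⟫_ℂ).im : ℝ) : ℂ)) •
      M.co a (h - ((spin a * g : ℝ) : ℂ) • f) := by
  rw [M.cw_co, ma2_im_l, smul_smul, ← Complex.ofReal_mul, ← mul_assoc]
  rfl

theorem ma2_PX (a : Bool) (h : H) : M.mat PX (M.co a h) = M.co (!a) h := by
  rw [M.mat_co]
  cases a <;> simp [PX]

theorem ma2_not (a : Bool) : spin (!a) = -spin a := by cases a <;> simp [spin]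

theorem ma2_Pb (b a : Bool) (h : H) :
    M.mat (Pb b) (M.co a h) = if a = b then M.co a h else 0 := by
  rw [Pb, mat_diag_co]
  split_ifs <;> simp

theorem cg_co (g x : ℝ) (f : H) (a : Bool) (h : H) :
    cg M g x f (M.co a h) =
      Complex.exp (Complex.I * ((spin a * g * ((⟪f, h⟫_ℂ).im - x) : ℝ) : ℂ)) •
        M.co a (h - ((spin a * g : ℝ) : ℂ) • f) := by
  show M.mat (RZ (g * x)) (M.cw ((g : ℂ) • f) (M.co a h)) = _
  rw [ma2_cw, map_smul, ma2_RZ, ma2_ee]
  exact ma2_eq M (by ring) rfl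

theorem norm_cg (g x : ℝ) (f : H) (y : K) : ‖cg M g x f y‖ = ‖y‖ := by
  show ‖M.mat (RZ (g * x)) (M.cw ((g : ℂ) • f) y)‖ = _
  rw [norm_mat_uni M (uni_RZ _), LinearIsometryEquiv.norm_map]

theorem cg_zero (x : ℝ) (f : H) : cg M 0 x f = LinearMap.id := by
  refine ext_co M fun a h => ?_
  rw [cg_co]
  simp

theorem cg_zero' (g : ℝ) : cg M g 0 0 = LinearMap.id := by
  refine ext_co M fun a h => ?_
  rw [cg_co]
  simp

theorem cg_add (g g' x : ℝ) (f : H) : cg M (g + g') x f = cg M g x f ∘ₗ cg M g' x f := by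
  refine ext_co M fun a h => ?_
  rw [LinearMap.comp_apply, cg_co, cg_co, map_smul, cg_co, ma2_ee, ma2_im_r, ma2_im_self]
  refine ma2_eq M (by ring) ?_
  push_cast
  module

theorem cg_neg (g x : ℝ) (f : H) : cg M (-g) x f ∘ₗ cg M g x f = LinearMap.id := by
  rw [← cg_add, neg_add_cancel, cg_zero]

theorem inner_cg (g x : ℝ) (f : H) (y z : K) :
    ⟪cg M g x f y, z⟫_ℂ = ⟪y, cg M (-g) x f z⟫_ℂ := by
  have h1 : cg M g x f (cg M (-g) x f z) = z := by
    have := LinearMap.congr_fun (cg_neg M (-g) x f) z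
    rwa [neg_neg] at this
  conv_lhs => rw [← h1]
  exact (LinearMap.norm_map_iff_inner_map_map (cg M g x f)).1 (norm_cg M g x f) _ _

theorem cg_diag (d : Bool → ℂ) (g x : ℝ) (f : H) :
    M.mat (Matrix.diagonal d) ∘ₗ cg M g x f = cg M g x f ∘ₗ M.mat (Matrix.diagonal d) := by
  refine ext_co M fun a h => ?_
  rw [LinearMap.comp_apply, LinearMap.comp_apply, mat_diag_co, map_smul, cg_co, map_smul,
    mat_diag_co, smul_comm]

theorem cg_flip (g x : ℝ) (f : H) : M.mat PX ∘ₗ cg M g x f = cg M (-g) x f ∘ₗ M.mat PX := by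
  refine ext_co M fun a h => ?_
  rw [LinearMap.comp_apply, LinearMap.comp_apply, ma2_PX, cg_co, cg_co, map_smul, ma2_PX, ma2_not,
    neg_mul_neg]

theorem cg_scale (g x : ℝ) (f : H) : cg M g x f = cg M 1 (g * x) ((g : ℂ) • f) := by
  simp only [cg, one_mul, Complex.ofReal_one, one_smul]

theorem cg_comp (x x' : ℝ) (f f' : H) (h : (⟪f, f'⟫_ℂ).im = 0) :
    cg M 1 x f ∘ₗ cg M 1 x' f' = cg M 1 (x + x') (f + f') := by
  refine ext_co M fun a k => ?_
  rw [LinearMap.comp_apply, cg_co, cg_co, map_smul, cg_co, ma2_ee, ma2_im_r, h, inner_add_left,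
    Complex.add_im]
  refine ma2_eq M (by ring) ?_
  module

theorem cg_shift (g x x' : ℝ) (f : H) :
    cg M g (x + x') f = M.mat (RZ (g * x)) ∘ₗ cg M g x' f := by
  rw [cg, cg, mul_add, RZ_add, mat_mul, LinearMap.comp_assoc]

theorem dis_co (s : ℝ) (b : H) (a : Bool) (h : H) :
    dis M s b (M.co a h) =
      Complex.exp (Complex.I * ((s * (⟪b, h⟫_ℂ).im : ℝ) : ℂ)) • M.co a (h - (s : ℂ) • b) := by
  show M.mat (Pb true) (M.cw ((s : ℂ) • b) (M.co a h)) +
    M.mat (Pb false) (M.cw (((-s : ℝ) : ℂ) • b) (M.co a h)) = _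
  rw [ma2_cw, ma2_cw, map_smul, map_smul, ma2_Pb, ma2_Pb]
  cases a <;> simp [spin]

/-- `norm_sq_Pb`, or preservation of inner products by span induction -/
theorem norm_dis (s : ℝ) (b : H) (y : K) : ‖dis M s b y‖ = ‖y‖ := by
  have h : ∀ c : Bool, ‖M.mat (Pb c) (dis M s b y)‖ = ‖M.mat (Pb c) y‖ := fun c => by
    have h1 : M.mat (Pb c) ∘ₗ dis M s b =
        (M.cw (((spin c * s : ℝ) : ℂ) • b)).toLinearEquiv.toLinearMap ∘ₗ M.mat (Pb c) := by
      refine ext_co M fun a h => ?_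
      show M.mat (Pb c) (dis M s b (M.co a h)) = M.cw _ (M.mat (Pb c) (M.co a h))
      rw [dis_co, map_smul, ma2_Pb, ma2_Pb]
      split_ifs with e
      · rw [ma2_cw, e]
        have : spin c * (spin c * s) = s := by cases c <;> simp [spin]
        rw [this]
      · simp
    have h2 : M.mat (Pb c) (dis M s b y) = M.cw _ (M.mat (Pb c) y) := LinearMap.congr_fun h1 y
    rw [h2, LinearIsometryEquiv.norm_map]
  refine (pow_left_inj₀ (norm_nonneg _) (norm_nonneg _) two_ne_zero).1 ?_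
  rw [norm_sq_Pb M, norm_sq_Pb M y, h, h]

theorem dis_mat (s : ℝ) (b : H) (A : M2) : dis M s b ∘ₗ M.mat A = M.mat A ∘ₗ dis M s b := by
  refine ext_co M fun a h => ?_
  rw [LinearMap.comp_apply, LinearMap.comp_apply, dis_co, map_smul, M.mat_co, M.mat_co, map_sum,
    Finset.smul_sum]
  exact Finset.sum_congr rfl fun c _ => by rw [map_smul, dis_co, smul_comm]

theorem dis_cg (s : ℝ) (b : H) (g x : ℝ) (f : H) :
    dis M s b ∘ₗ cg M g x f =
      cg M g x f ∘ₗ M.mat (RZ (s * g * (2 * (⟪b, f⟫_ℂ).im))) ∘ₗ dis M s b := by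
  refine ext_co M fun a h => ?_
  simp only [LinearMap.comp_apply, cg_co, dis_co, map_smul, ma2_RZ, ma2_ee, ma2_im_r,
    ma2_im_swap f b]
  refine ma2_eq M (by ring) ?_
  module

theorem inner_vac_dis (s : ℝ) (b : H) :
    ⟪M.vac, dis M s b M.vac⟫_ℂ = ((Real.exp (-(s ^ 2 * ‖b‖ ^ 2) / 2) : ℝ) : ℂ) := by
  have h1 : ‖(0 : H) - (s : ℂ) • b‖ ^ 2 = s ^ 2 * ‖b‖ ^ 2 := by
    rw [zero_sub, norm_neg, norm_smul, mul_pow, Complex.norm_real, Real.norm_eq_abs, sq_abs]
  have h2 : ((1 / √2 : ℝ) : ℂ) * ((1 / √2 : ℝ) : ℂ) = 1 / 2 := by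
    rw [← Complex.ofReal_mul, div_mul_div_comm, Real.mul_self_sqrt zero_le_two]
    norm_num
  rw [congrArg (dis M s b) (vac_eq M)]
  simp only [map_add, map_smul, dis_co, inner_add_right, inner_smul_right, inner_vac_co, h1,
    inner_zero_right, Complex.zero_im, mul_zero, Complex.ofReal_zero, Complex.exp_zero, one_mul,
    ← mul_assoc, h2, Fintype.sum_bool]
  push_cast
  ring

/-- on the two eigenspaces of `Z` the gate `cg` is a phase times `dis (± g)`; `norm_sq_Pb` -/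
theorem norm_cg_sub_le (g x : ℝ) (f : H) (y : K) :
    ‖cg M g x f y - y‖ ^ 2 ≤
      ‖Complex.exp (-(Complex.I * ((g * x : ℝ) : ℂ))) • dis M g f y - y‖ ^ 2 +
      ‖Complex.exp (-(Complex.I * ((-g * x : ℝ) : ℂ))) • dis M (-g) f y - y‖ ^ 2 := by
  have h : ∀ c : Bool, ‖M.mat (Pb c) (cg M g x f y - y)‖ ^ 2 ≤
      ‖Complex.exp (-(Complex.I * ((spin c * g * x : ℝ) : ℂ))) • dis M (spin c * g) f y - y‖ ^ 2 :=
    fun c => by
    have h1 : M.mat (Pb c) ∘ₗ cg M g x f = M.mat (Pb c) ∘ₗ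
        (Complex.exp (-(Complex.I * ((spin c * g * x : ℝ) : ℂ))) • dis M (spin c * g) f) := by
      refine ext_co M fun a h => ?_
      rw [LinearMap.comp_apply, LinearMap.comp_apply, LinearMap.smul_apply, cg_co, dis_co,
        ← mul_neg, ← Complex.ofReal_neg, ma2_ee, map_smul, map_smul, ma2_Pb, ma2_Pb]
      split_ifs with e
      · rw [e]
        exact ma2_eq M (by ring) rfl
      · simp
    have h2 := LinearMap.congr_fun h1 y
    rw [LinearMap.comp_apply, LinearMap.comp_apply, LinearMap.smul_apply] at h2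
    rw [map_sub, h2, ← map_sub]
    conv_rhs => rw [norm_sq_Pb M]
    cases c
    · exact le_add_of_nonneg_left (sq_nonneg _)
    · exact le_add_of_nonneg_right (sq_nonneg _)
  have h1 := h true
  have h2 := h false
  simp only [spin, if_true, one_mul, Bool.false_eq_true, if_false, neg_one_mul] at h1 h2
  rw [norm_sq_Pb M]
  exact add_le_add h1 h2

theorem ann_vac (b : H) : M.ann b M.vac = 0 := by
  rw [vac_eq]
  simp [M.ann_co]

theorem ann_mat (b : H) (A : M2) : M.ann b ∘ₗ M.mat A = M.mat A ∘ₗ M.ann b := by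
  refine ext_co M fun a h => ?_
  rw [LinearMap.comp_apply, LinearMap.comp_apply, M.ann_co, map_smul, M.mat_co, map_sum,
    Finset.smul_sum]
  exact Finset.sum_congr rfl fun c _ => by rw [map_smul, M.ann_co, smul_comm]

theorem ann_cg (b : H) (g x : ℝ) (f : H) :
    M.ann b ∘ₗ cg M g x f = cg M g x f ∘ₗ M.ann b +
      (-(Complex.I * g * ⟪b, f⟫_ℂ)) • (cg M g x f ∘ₗ M.mat PZ) := by
  refine ext_co M fun a h => ?_
  simp only [LinearMap.comp_apply, LinearMap.add_apply, LinearMap.smul_apply, PZ, mat_diag_co,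
    map_smul, cg_co, M.ann_co, inner_sub_right, inner_smul_right]
  push_cast
  module

/-- With `w t = dis M t (I • b) vac`, the function `t ↦ ⟪w t, y⟫` has the derivative
`⟪vac, ann b y⟫` at `0` (span induction in `y`, `dis_co`, `inner_co`), and
`‖w t - vac‖ ^ 2 = 2 - 2 exp (-t ^ 2 ‖b‖ ^ 2 / 2) ≤ t ^ 2 ‖b‖ ^ 2` (`inner_vac_dis`). -/
theorem ann_bound (b : H) (y : K) : ‖⟪M.vac, M.ann b y⟫_ℂ‖ ≤ ‖b‖ * ‖y‖ := by
  have hd : HasDerivAt (fun t : ℝ => ⟪dis M t (Complex.I • b) M.vac, y⟫_ℂ)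
      ⟪M.vac, M.ann b y⟫_ℂ 0 := by
    have hy : y ∈ Submodule.span ℂ (Set.range fun p : Bool × H => M.co p.1 p.2) := by
      rw [M.span_co]
      trivial
    induction hy using Submodule.span_induction with
    | mem y hy =>
      obtain ⟨⟨a, h⟩, rfl⟩ := hy
      have e : ∀ t : ℝ, ⟪dis M t (Complex.I • b) M.vac, M.co a h⟫_ℂ = ((1 / √2 : ℝ) : ℂ) *
          Complex.exp (t * (Complex.I * ⟪b, h⟫_ℂ) - t ^ 2 * (‖b‖ ^ 2 / 2 : ℝ) -
            (‖h‖ ^ 2 / 2 : ℝ)) := fun t => by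
        have h1 : ‖(0 : H) - (t : ℂ) • Complex.I • b‖ ^ 2 = t ^ 2 * ‖b‖ ^ 2 := by
          rw [zero_sub, norm_neg, norm_smul, norm_smul, mul_pow, Complex.norm_real,
            Real.norm_eq_abs, sq_abs, Complex.norm_I, one_mul]
        have h2 : ⟪(0 : H) - (t : ℂ) • Complex.I • b, h⟫_ℂ = t * (Complex.I * ⟪b, h⟫_ℂ) := by
          rw [zero_sub, inner_neg_left, inner_smul_left, inner_smul_left, Complex.conj_ofReal,
            Complex.conj_I]
          ring
        rw [vac_eq]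
        simp only [map_sum, map_smul, dis_co, sum_inner, inner_smul_left, M.inner_co, h1, h2,
          inner_zero_right, Complex.zero_im, mul_zero, Complex.ofReal_zero, Complex.exp_zero,
          one_smul, Complex.conj_ofReal, mul_ite, Finset.sum_ite_eq', Finset.mem_univ, if_true]
        congr 2
        push_cast
        ring
      simp only [e]
      have h0 : HasDerivAt (fun t : ℝ => (t : ℂ)) 1 0 := Complex.ofRealCLM.hasDerivAt
      have h3 := ((((h0.mul_const (Complex.I * ⟪b, h⟫_ℂ)).sub ((h0.pow 2).mul_const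
        ((‖b‖ ^ 2 / 2 : ℝ) : ℂ))).sub_const ((‖h‖ ^ 2 / 2 : ℝ) : ℂ)).cexp).const_mul
        ((1 / √2 : ℝ) : ℂ)
      refine h3.congr_deriv ?_
      rw [M.ann_co, inner_smul_right, inner_vac_co]
      simp only [Pi.sub_apply, Pi.pow_apply, Complex.ofReal_zero]
      push_cast
      ring_nf
    | zero => simpa using hasDerivAt_const (0 : ℝ) (0 : ℂ)
    | add y z _ _ h1 h2 =>
      simp only [map_add, inner_add_right]
      exact h1.add h2
    | smul c y _ h1 =>
      simp only [map_smul, inner_smul_right]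
      exact h1.const_mul c
  have h0 : dis M 0 (Complex.I • b) M.vac = M.vac := by
    rw [vac_eq]
    simp [dis_co]
  refine hd.le_of_lip' (by positivity) (Eventually.of_forall fun t => ?_)
  have h1 : ‖dis M t (Complex.I • b) M.vac - M.vac‖ ≤ ‖b‖ * ‖t‖ := by
    refine le_of_sq_le_sq ?_ (by positivity)
    have h2 := inner_vac_dis M t (Complex.I • b)
    rw [norm_smul, Complex.norm_I, one_mul] at h2
    rw [norm_sub_rev, @norm_sub_sq ℂ, norm_dis, norm_vac, h2, mul_pow, Real.norm_eq_abs, sq_abs]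
    have h3 := Real.add_one_le_exp (-(t ^ 2 * ‖b‖ ^ 2) / 2)
    simp only [RCLike.re_to_complex, Complex.ofReal_re]
    linarith
  rw [h0, ← inner_sub_left, sub_zero]
  refine (norm_inner_le_norm _ _).trans ?_
  rw [mul_right_comm]
  exact mul_le_mul_of_nonneg_right h1 (norm_nonneg _)

end

end Vale.Agent.P367
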