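import Vale.Agent.P367M.MA1

/-! Square integrable fields, the map J, Gaussian integrals. -/

set_option linter.all false

namespace Vale.Agent.P367

open MeasureTheory ProbabilityTheory Filter Topology Finset Vale.Agent.P146 Matrix
open scoped InnerProductSpace

noncomputable section

variable {Ω : Type} [MeasurableSpace Ω] {Λ : Type} [MeasurableSpace Λ] {ν : Measure Λ}
  {P : Measure Ω} [IsProbabilityMeasure P] {H K : Type} [NormedAddCommGroup H]
  [InnerProductSpace ℂ H] [SeminormedAddCommGroup K] [InnerProductSpace ℂ K]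

theorem L2.of_le {ψ : Ω → K} (hm : AEStronglyMeasurable ψ P) {g : Ω → ℝ} (hg : MemLp g 2 P)
    (h : ∀ ω, ‖ψ ω‖ ≤ g ω) : L2 P ψ :=
  ⟨hm, hg.mono' hm.norm (ae_of_all _ fun ω => by
    rw [norm_norm]
    exact h ω)⟩

theorem L2.const (y : K) : L2 P fun _ : Ω => y := by
  exact ⟨aestronglyMeasurable_const, memLp_const _⟩

theorem L2.add {ψ φ : Ω → K} (h : L2 P ψ) (h' : L2 P φ) : L2 P fun ω => ψ ω + φ ω := by
  exact L2.of_le (h.1.add h'.1) (h.2.add h'.2) fun ω => norm_add_le _ _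

theorem L2.sub {ψ φ : Ω → K} (h : L2 P ψ) (h' : L2 P φ) : L2 P fun ω => ψ ω - φ ω := by
  exact L2.of_le (h.1.sub h'.1) (h.2.add h'.2) fun ω => norm_sub_le _ _

theorem L2.sum {ι : Type} (s : Finset ι) {ψ : ι → Ω → K} (h : ∀ i ∈ s, L2 P (ψ i)) :
    L2 P fun ω => ∑ i ∈ s, ψ i ω := by
  classical
  induction s using Finset.induction_on with
  | empty => simpa using L2.const (0 : K)
  | insert a s ha ih =>
    simp only [Finset.sum_insert ha]
    exact (h a (Finset.mem_insert_self a s)).add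
      (ih fun i hi => h i (Finset.mem_insert_of_mem hi))

theorem L2.congr {ψ φ : Ω → K} (h : L2 P ψ) (e : ψ =ᵐ[P] φ) : L2 P φ := by
  refine ⟨h.1.congr e, h.2.ae_eq ?_⟩
  filter_upwards [e] with ω h1
  rw [h1]

theorem L2.smul {ψ : Ω → K} (h : L2 P ψ) {c : Ω → ℂ} (hc : AEStronglyMeasurable c P) {C : ℝ}
    (hC : ∀ ω, ‖c ω‖ ≤ C) : L2 P fun ω => c ω • ψ ω := by
  refine L2.of_le (hc.smul h.1) (h.2.const_mul C) fun ω => ?_
  rw [norm_smul]
  exact mul_le_mul_of_nonneg_right (hC ω) (norm_nonneg _)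

theorem L2.smul_const {c : Ω → ℝ} (hc : MemLp c 2 P) (y : K) :
    L2 P fun ω => (c ω : ℂ) • y := by
  refine L2.of_le ((Complex.continuous_ofReal.comp_aestronglyMeasurable hc.1).smul_const y)
    (hc.norm.mul_const ‖y‖) fun ω => ?_
  rw [norm_smul, Complex.norm_real]

/-- a bounded linear map is continuous (`LinearMap.mkContinuous`) -/
theorem L2.lin {ψ : Ω → K} (h : L2 P ψ) (T : K →ₗ[ℂ] K) {C : ℝ} (hT : ∀ y, ‖T y‖ ≤ C * ‖y‖) :
    L2 P fun ω => T (ψ ω) := by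
  exact L2.of_le ((T.mkContinuous C hT).continuous.comp_aestronglyMeasurable h.1)
    (h.2.const_mul C) fun ω => hT _

/-- `A ω = ∑ a b, A ω a b • single a b 1` -/
theorem L2.mat (M : P367S.Mdl H K) {ψ : Ω → K} (h : L2 P ψ) {A : Ω → M2}
    (hA : ∀ a b, AEStronglyMeasurable (fun ω => A ω a b) P) {C : ℝ}
    (hC : ∀ ω a b, ‖A ω a b‖ ≤ C) : L2 P fun ω => M.mat (A ω) (ψ ω) := by
  have e : ∀ (B : M2) (y : K),
      M.mat B y = ∑ a, ∑ b, B a b • M.mat (Matrix.single a b 1) y := fun B y => by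
    have e1 : B = ∑ a, ∑ b, B a b • Matrix.single a b (1 : ℂ) := by
      conv_lhs => rw [Matrix.matrix_eq_sum_single B]
      simp only [Matrix.smul_single, smul_eq_mul, mul_one]
    conv_lhs => rw [e1]
    simp only [Fintype.sum_bool, mat_add, mat_smul, LinearMap.add_apply, LinearMap.smul_apply]
  have e2 : (fun ω => M.mat (A ω) (ψ ω)) =
      fun ω => ∑ a, ∑ b, A ω a b • M.mat (Matrix.single a b 1) (ψ ω) := funext fun ω => e _ _
  rw [e2]
  exact L2.sum _ fun a _ => L2.sum _ fun b _ =>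
    (h.lin _ (norm_mat_le M _)).smul (hA a b) fun ω => hC ω a b

theorem Uni.entry_le {A : M2} (hA : Uni A) (a b : Bool) : ‖A a b‖ ≤ 1 := by
  exact entry_norm_bound_of_unitary hA a b

theorem Pj.entry_le {A : M2} (hA : Pj A) (a b : Bool) : ‖A a b‖ ≤ 1 := by
  obtain ⟨W, hW, rfl⟩ := hA
  have e : cj W (Qb true) a b = W a false * star (W b false) := by
    simp [cj, Qb, Matrix.mul_apply]
  rw [e, norm_mul, norm_star]
  exact mul_le_one₀ (hW.entry_le _ _) (norm_nonneg _) (hW.entry_le _ _)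

theorem L2.integrable_sq {ψ : Ω → K} (h : L2 P ψ) : Integrable (fun ω => ‖ψ ω‖ ^ 2) P := by
  exact h.2.integrable_sq

theorem L2.integrable_inner {ψ φ : Ω → K} (h : L2 P ψ) (h' : L2 P φ) :
    Integrable (fun ω => ⟪ψ ω, φ ω⟫_ℂ) P := by
  exact (h.2.integrable_mul h'.2).mono'
    (continuous_inner.comp_aestronglyMeasurable (h.1.prodMk h'.1))
    (ae_of_all _ fun ω => norm_inner_le_norm _ _)

theorem L2.memLp_inner {ψ : Ω → K} (h : L2 P ψ) (y : K) :
    MemLp (fun ω => ⟪y, ψ ω⟫_ℂ) 2 P := by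
  exact (h.2.const_mul ‖y‖).mono'
    (continuous_inner.comp_aestronglyMeasurable (aestronglyMeasurable_const.prodMk h.1))
    (ae_of_all _ fun ω => norm_inner_le_norm _ _)

theorem toL_ae {F : Ω → ℝ} (h : MemLp F 2 P) : (toL P F : Ω → ℝ) =ᵐ[P] F := by
  rw [toL, dif_pos h]
  exact h.coeFn_toLp

theorem inner_toL {F G : Ω → ℝ} (h : MemLp F 2 P) (h' : MemLp G 2 P) :
    ⟪toL P F, toL P G⟫_ℝ = ∫ ω, F ω * G ω ∂P := by
  rw [MeasureTheory.L2.inner_def]
  refine integral_congr_ae ?_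
  filter_upwards [toL_ae h, toL_ae h'] with ω e1 e2
  rw [e1, e2, RCLike.inner_apply, conj_trivial, mul_comm]

variable (D : DM ν P H K)

theorem DM.rs_eq {E : Type} [Zero E] (A : Set Λ) (ψ : Ω → E) :
    D.rs A ψ = (D.X.lab ⁻¹' A).indicator ψ := by
  funext ω
  by_cases h : D.X.lab ω ∈ A
  · rw [Set.indicator_of_mem (s := D.X.lab ⁻¹' A) h, DM.rs, if_pos h]
  · rw [Set.indicator_of_notMem (s := D.X.lab ⁻¹' A) h, DM.rs, if_neg h]

theorem DM.L2_rs {ψ : Ω → K} (h : L2 P ψ) {A : Set Λ} (hA : MeasurableSet A) :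
    L2 P (D.rs A ψ) := by
  refine L2.of_le ?_ h.2 fun ω => ?_
  · rw [D.rs_eq]
    exact h.1.indicator (D.X.mlab hA)
  · unfold DM.rs
    split_ifs
    · exact le_rfl
    · rw [norm_zero]
      exact norm_nonneg _

theorem DM.memLp_rs {F : Ω → ℝ} (h : MemLp F 2 P) {A : Set Λ} (hA : MeasurableSet A) :
    MemLp (D.rs A F) 2 P := by
  rw [D.rs_eq]
  exact h.indicator (D.X.mlab hA)

theorem DM.memLp_mg {ψ : Ω → K} (h : L2 P ψ) : MemLp (D.mg ψ) 2 P := by
  exact (h.memLp_inner D.M.vac).re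

theorem DM.L2_pp {ψ : Ω → K} (h : L2 P ψ) : L2 P (D.pp ψ) := by
  exact h.sub (L2.smul_const (D.memLp_mg h) _)

theorem DM.norm_J_sq {ψ : Ω → K} (h : L2 P ψ) : ‖D.J ψ‖ ^ 2 = ∫ ω, ‖ψ ω‖ ^ 2 ∂P := by
  refine Complex.ofReal_injective ?_
  have e := D.hJ ψ ψ h h
  simp only [inner_self_eq_norm_sq_to_K] at e
  rw [← integral_complex_ofReal]
  push_cast
  exact e

/-- expand `‖J ψ - J φ‖ ^ 2` with `hJ` -/
theorem DM.J_congr {ψ φ : Ω → K} (h : L2 P ψ) (e : ψ =ᵐ[P] φ) : D.J ψ = D.J φ := by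
  have h' := h.congr e
  have k : ∀ χ, L2 P χ → ⟪D.J χ, D.J ψ - D.J φ⟫_ℂ = 0 := fun χ hχ => by
    rw [inner_sub_right, D.hJ _ _ hχ h, D.hJ _ _ hχ h', sub_eq_zero]
    refine integral_congr_ae ?_
    filter_upwards [e] with ω h1
    rw [h1]
  rw [← sub_eq_zero, ← inner_self_eq_zero (𝕜 := ℂ), inner_sub_left, k _ h, k _ h', sub_zero]

theorem DM.J_add {ψ φ : Ω → K} (h : L2 P ψ) (h' : L2 P φ) :
    D.J (fun ω => ψ ω + φ ω) = D.J ψ + D.J φ := by
  have k : ∀ χ, L2 P χ → ⟪D.J χ, D.J (fun ω => ψ ω + φ ω) - (D.J ψ + D.J φ)⟫_ℂ = 0 :=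
    fun χ hχ => by
      rw [inner_sub_right, inner_add_right, D.hJ _ _ hχ h, D.hJ _ _ hχ h', D.hJ _ _ hχ (h.add h'),
        sub_eq_zero, ← integral_add (hχ.integrable_inner h) (hχ.integrable_inner h')]
      simp only [inner_add_right]
  rw [← sub_eq_zero, ← inner_self_eq_zero (𝕜 := ℂ), inner_sub_left, inner_add_left, k _ h, k _ h',
    k _ (h.add h'), add_zero, sub_zero]

theorem DM.J_smul {ψ : Ω → K} (h : L2 P ψ) (c : ℂ) :
    D.J (fun ω => c • ψ ω) = c • D.J ψ := by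
  have h' : L2 P fun ω => c • ψ ω :=
    h.smul (c := fun _ => c) aestronglyMeasurable_const fun _ => le_rfl
  have k : ∀ χ, L2 P χ → ⟪D.J χ, D.J (fun ω => c • ψ ω) - c • D.J ψ⟫_ℂ = 0 := fun χ hχ => by
    rw [inner_sub_right, inner_smul_right, D.hJ _ _ hχ h, D.hJ _ _ hχ h', sub_eq_zero,
      ← integral_const_mul]
    simp only [inner_smul_right]
  rw [← sub_eq_zero, ← inner_self_eq_zero (𝕜 := ℂ), inner_sub_left, inner_smul_left, k _ h, k _ h',
    mul_zero, sub_zero]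

theorem DM.J_sum {ι : Type} (s : Finset ι) {ψ : ι → Ω → K} (h : ∀ i ∈ s, L2 P (ψ i)) :
    D.J (fun ω => ∑ i ∈ s, ψ i ω) = ∑ i ∈ s, D.J (ψ i) := by
  classical
  induction s using Finset.induction_on with
  | empty =>
    have e := D.J_smul (L2.const (P := P) (0 : K)) 0
    simpa using e
  | insert a s ha ih =>
    have h1 : ∀ i ∈ s, L2 P (ψ i) := fun i hi => h i (Finset.mem_insert_of_mem hi)
    simp only [Finset.sum_insert ha]
    rw [D.J_add (h a (Finset.mem_insert_self a s)) (L2.sum s h1), ih h1]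

end

end Vale.Agent.P367
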