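import Vale.Agent.P367M.Defs

/-! Gaussian integrals on the data space. -/

set_option linter.all false

namespace Vale.Agent.P367

open MeasureTheory ProbabilityTheory Filter Topology Finset Vale.Agent.P146 Matrix
open scoped InnerProductSpace

noncomputable section

variable {Ω : Type} [MeasurableSpace Ω] {Λ : Type} [MeasurableSpace Λ] {ν : Measure Λ}
  {P : Measure Ω} [IsProbabilityMeasure P] (X : Data ν P)

theorem Data.S_sum (s : Finset ℕ) (h : ℕ → ℝ) (m : ℕ → Lp ℝ 2 P) :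
    (X.S (∑ i ∈ s, h i • m i) : Ω → ℝ) =ᵐ[P] fun ω => ∑ i ∈ s, h i * X.S (m i) ω := by
  classical
  induction s using Finset.induction_on with
  | empty =>
    simp only [Finset.sum_empty, map_zero]
    exact Lp.coeFn_zero ℝ 2 P
  | insert j s hj ih =>
    simp only [Finset.sum_insert hj, map_add, map_smul]
    filter_upwards [Lp.coeFn_add (h j • X.S (m j)) (X.S (∑ i ∈ s, h i • m i)),
      Lp.coeFn_smul (h j) (X.S (m j)), ih] with ω h1 h2 h3
    rw [h1, Pi.add_apply, h2, h3, Pi.smul_apply, smul_eq_mul]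

theorem Data.integral_lab {ψ : Λ → ℂ} (hψ : Measurable ψ) :
    ∫ ω, ψ (X.lab ω) ∂P = ∫ l, ψ l ∂ν := by
  rw [← integral_map X.mlab.aemeasurable hψ.aestronglyMeasurable, X.law]

/-- independence (`IndepFun.comp`, integral of a product) and `charFun_gaussianReal` -/
theorem Data.char {ψ : Λ → ℂ} (hψ : Measurable ψ) {C : ℝ} (hC : ∀ l, ‖ψ l‖ ≤ C) (g : Lp ℝ 2 P) :
    ∫ ω, ψ (X.lab ω) * Complex.exp (Complex.I * ((X.S g ω : ℝ) : ℂ)) ∂P =
      (∫ l, ψ l ∂ν) * Complex.exp (-((‖g‖ ^ 2 : ℝ) : ℂ) / 2) := by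
  have hS : AEMeasurable (X.S g : Ω → ℝ) P := (Lp.aestronglyMeasurable _).aemeasurable
  have hm : Measurable fun x : ℝ => Complex.exp (Complex.I * (x : ℂ)) := by fun_prop
  have h1 := (X.ind g).integral_fun_comp_mul_comp (f := ψ)
    (g := fun x : ℝ => Complex.exp (Complex.I * (x : ℂ))) X.mlab.aemeasurable hS
    hψ.aestronglyMeasurable hm.aestronglyMeasurable
  rw [h1, X.integral_lab hψ, ← integral_map hS hm.aestronglyMeasurable, X.gauss]
  congr 1
  have h2 := charFun_gaussianReal (μ := 0) (v := ‖g‖₊ ^ 2) 1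
  rw [charFun_apply_real] at h2
  simp only [Complex.ofReal_one, one_mul, one_pow, mul_one, Complex.ofReal_zero, zero_mul,
    zero_sub, NNReal.coe_pow, coe_nnnorm] at h2
  simp only [mul_comm Complex.I]
  rw [h2, neg_div]

/-- derivative at `t = 0` of `Data.char` for `g + t • a`
(`hasDerivAt_integral_of_dominated_loc_of_deriv_le`, bound `C * |S a|`) -/
theorem Data.ibp {ψ : Λ → ℂ} (hψ : Measurable ψ) {C : ℝ} (hC : ∀ l, ‖ψ l‖ ≤ C) (a g : Lp ℝ 2 P) :
    ∫ ω, ψ (X.lab ω) * ((X.S a ω : ℝ) : ℂ) * Complex.exp (Complex.I * ((X.S g ω : ℝ) : ℂ)) ∂P =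
      Complex.I * ((⟪a, g⟫_ℝ : ℝ) : ℂ) *
        ((∫ l, ψ l ∂ν) * Complex.exp (-((‖g‖ ^ 2 : ℝ) : ℂ) / 2)) := by
  have hl : AEStronglyMeasurable (fun ω => ψ (X.lab ω)) P :=
    (hψ.comp X.mlab).aestronglyMeasurable
  have ha : AEMeasurable (X.S a : Ω → ℝ) P := (Lp.aestronglyMeasurable _).aemeasurable
  have hg : AEMeasurable (X.S g : Ω → ℝ) P := (Lp.aestronglyMeasurable _).aemeasurable
  have hE : ∀ t : ℝ, AEStronglyMeasurable
      (fun ω => Complex.exp (Complex.I * ((X.S g ω + t * X.S a ω : ℝ) : ℂ))) P := fun t =>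
    AEMeasurable.aestronglyMeasurable (by fun_prop)
  have hn : ∀ x : ℝ, ‖Complex.exp (Complex.I * (x : ℂ))‖ = 1 := fun x => by
    rw [mul_comm, Complex.norm_exp_ofReal_mul_I]
  have h1 := hasDerivAt_integral_of_dominated_loc_of_deriv_le (μ := P) (x₀ := (0 : ℝ))
    (s := Set.univ)
    (F := fun (t : ℝ) ω =>
      ψ (X.lab ω) * Complex.exp (Complex.I * ((X.S g ω + t * X.S a ω : ℝ) : ℂ)))
    (F' := fun (t : ℝ) ω => Complex.I * (ψ (X.lab ω) * ((X.S a ω : ℝ) : ℂ) *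
      Complex.exp (Complex.I * ((X.S g ω + t * X.S a ω : ℝ) : ℂ))))
    (bound := fun ω => C * ‖X.S a ω‖) univ_mem
    (Eventually.of_forall fun t => hl.mul (hE t)) ?_ ?_ ?_ ?_ ?_
  · have h2 : (fun t : ℝ => ∫ ω, ψ (X.lab ω) *
        Complex.exp (Complex.I * ((X.S g ω + t * X.S a ω : ℝ) : ℂ)) ∂P) = fun t : ℝ =>
        (∫ l, ψ l ∂ν) * Complex.exp (-(((‖g‖ ^ 2 : ℝ) : ℂ) + 2 * (t * ((⟪a, g⟫_ℝ : ℝ) : ℂ)) +
          t * t * ((‖a‖ ^ 2 : ℝ) : ℂ)) / 2) := by
      funext t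
      have h3 := X.char hψ hC (g + t • a)
      rw [norm_add_sq_real, inner_smul_right, real_inner_comm, norm_smul, mul_pow,
        Real.norm_eq_abs, sq_abs] at h3
      rw [show ((‖g‖ ^ 2 : ℝ) : ℂ) + 2 * (t * ((⟪a, g⟫_ℝ : ℝ) : ℂ)) +
        t * t * ((‖a‖ ^ 2 : ℝ) : ℂ) = ((‖g‖ ^ 2 + 2 * (t * ⟪a, g⟫_ℝ) + t ^ 2 * ‖a‖ ^ 2 : ℝ) : ℂ) by
          push_cast; ring, ← h3]
      refine integral_congr_ae ?_
      rw [map_add, map_smul]
      filter_upwards [Lp.coeFn_add (X.S g) (t • X.S a), Lp.coeFn_smul t (X.S a)] with ω h4 h5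
      rw [h4, Pi.add_apply, h5, Pi.smul_apply, smul_eq_mul]
    have h3 : HasDerivAt (fun t : ℝ => (t : ℂ)) 1 0 := Complex.ofRealCLM.hasDerivAt
    have h4 := ((((((h3.mul_const ((⟪a, g⟫_ℝ : ℝ) : ℂ)).const_mul 2).const_add
      ((‖g‖ ^ 2 : ℝ) : ℂ)).fun_add ((h3.fun_mul h3).mul_const
        ((‖a‖ ^ 2 : ℝ) : ℂ))).fun_neg.div_const 2).cexp).const_mul (∫ l, ψ l ∂ν)
    have h5 := h1.2
    rw [h2] at h5
    have h6 := h5.unique h4
    rw [integral_const_mul] at h6
    simp only [zero_mul, add_zero, Complex.ofReal_zero, mul_zero, one_mul] at h6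
    refine mul_left_cancel₀ Complex.I_ne_zero ?_
    rw [h6, ← mul_assoc Complex.I, ← mul_assoc Complex.I, Complex.I_mul_I]
    ring
  · refine Integrable.of_bound (hl.mul (hE 0)) C (Eventually.of_forall fun ω => ?_)
    rw [norm_mul, hn, mul_one]
    exact hC _
  · refine ((hl.mul (AEMeasurable.aestronglyMeasurable ?_)).mul (hE 0)).const_mul _
    fun_prop
  · refine Eventually.of_forall fun ω t _ => ?_
    rw [norm_mul, norm_mul, norm_mul, hn, mul_one, Complex.norm_I, one_mul, Complex.norm_real]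
    exact mul_le_mul_of_nonneg_right (hC _) (norm_nonneg _)
  · exact ((Lp.memLp (X.S a)).integrable one_le_two).norm.const_mul C
  · refine Eventually.of_forall fun ω t _ => ?_
    have h3 : HasDerivAt (fun t : ℝ => X.S g ω + t * X.S a ω) (X.S a ω) t := by
      simpa using ((hasDerivAt_id t).mul_const (X.S a ω)).const_add (X.S g ω)
    have h4 := ((h3.ofReal_comp.const_mul Complex.I).cexp).const_mul (ψ (X.lab ω))
    refine h4.congr_deriv ?_
    ring

theorem Data.memLp_msg {A : Set Λ} (hA : MeasurableSet A) {F : Ω → Bool} (hF : Measurable F) :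
    MemLp (fun ω => by classical exact if X.lab ω ∈ A then spin (F ω) else 0) 2 P := by
  classical
  have h1 : Measurable fun ω => if X.lab ω ∈ A then spin (F ω) else 0 :=
    Measurable.ite (X.mlab hA) ((measurable_of_countable spin).comp hF) measurable_const
  refine MemLp.of_bound (by convert h1.aestronglyMeasurable) 1 (Eventually.of_forall fun ω => ?_)
  split_ifs
  · unfold spin
    split_ifs <;> simp
  · simp

end

end Vale.Agent.P367
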