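import Vale.Agent.P367M.MA2

/-! Words acting on the coherent state model. -/

set_option linter.all false

namespace Vale.Agent.P367

open MeasureTheory ProbabilityTheory Filter Topology Finset Vale.Agent.P146 Matrix
open scoped InnerProductSpace

noncomputable section

variable {H K : Type} [NormedAddCommGroup H] [InnerProductSpace ℂ H]
  [SeminormedAddCommGroup K] [InnerProductSpace ℂ K] (M : P367S.Mdl H K)

/-- the inverse word -/
def winv (r : List Lt) : List Lt := (r.map Lt.inv).reverse

/-- insertion of the rotations `RZ (s * g * c j)` before the letters `w j g` -/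
def tw (c : ℕ → ℝ) (s : ℝ) : List Lt → List Lt
  | [] => []
  | .m A :: r => .m A :: tw c s r
  | .w j g :: r => .m (RZ (s * g * c j)) :: .w j g :: tw c s r

/-- total angle of a word -/
def bd (c : ℕ → ℝ) : List Lt → ℝ
  | [] => 0
  | .m _ :: r => bd c r
  | .w j g :: r => |g * c j| + bd c r

variable (x : ℕ → ℝ) (f : ℕ → H)

theorem zw_eq (γ : ℕ → ℝ) (A : ℕ → M2) (j : ℕ) :
    zw γ A j = fw γ A j ++ .m PZ :: winv (fw γ A j) := rfl

theorem actW_append (r r' : List Lt) :
    actW M x f (r ++ r') = actW M x f r' ∘ₗ actW M x f r := by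
  induction r with
  | nil => rfl
  | cons y r ih => simp only [List.cons_append, actW, ih, LinearMap.comp_assoc]

theorem mc1_cons (y : Lt) (r : List Lt) : winv (y :: r) = winv r ++ [y.inv] := by
  simp only [winv, List.map_cons, List.reverse_cons]

theorem mc1_append (r r' : List Lt) : winv (r ++ r') = winv r' ++ winv r := by
  simp only [winv, List.map_append, List.reverse_append]

theorem mc1_inv_inv (y : Lt) : y.inv.inv = y := by
  cases y <;> simp [Lt.inv]

theorem mc1_winv_winv (r : List Lt) : winv (winv r) = r := by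
  induction r with
  | nil => rfl
  | cons y r ih => rw [mc1_cons, mc1_append, ih, mc1_cons, mc1_inv_inv]; rfl

theorem mc1_mem {r : List Lt} {y : Lt} (h : y ∈ winv r) : ∃ y' ∈ r, y'.inv = y :=
  List.mem_map.1 (List.mem_reverse.1 h)

theorem mc1_act (y : Lt) (r : List Lt) (z : K) :
    actW M x f (winv (y :: r)) z = act M x f y.inv (actW M x f (winv r) z) := by
  rw [mc1_cons, actW_append]
  rfl

theorem mc1_norm {y : Lt} (h : y.U) (z : K) : ‖act M x f y z‖ = ‖z‖ := by
  cases y with
  | m A => exact norm_mat_uni M h z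
  | w j g => exact norm_cg M g _ _ z

theorem mc1_left {y : Lt} (h : y.U) (z : K) : act M x f y.inv (act M x f y z) = z := by
  cases y with
  | m A =>
    have e : Aᴴ * A = 1 := (Matrix.mem_unitaryGroup_iff'.1 h)
    have e' := LinearMap.congr_fun (mat_mul M Aᴴ A) z
    rw [e, mat_one] at e'
    exact e'.symm
  | w j g => exact LinearMap.congr_fun (cg_neg M g (x j) (f j)) z

theorem mc1_inner (y : Lt) (u z : K) : ⟪act M x f y u, z⟫_ℂ = ⟪u, act M x f y.inv z⟫_ℂ := by
  cases y with
  | m A =>
    have e := inner_mat M Aᴴ u z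
    rw [Matrix.conjTranspose_conjTranspose] at e
    exact e.symm
  | w j g => exact inner_cg M g _ _ u z

theorem norm_actW {r : List Lt} (h : ∀ y ∈ r, y.U) (z : K) : ‖actW M x f r z‖ = ‖z‖ := by
  induction r generalizing z with
  | nil => rfl
  | cons y r ih =>
    exact (ih (fun y' hy => h y' (List.mem_cons_of_mem _ hy)) _).trans
      (mc1_norm M x f (h y List.mem_cons_self) z)

theorem winv_U {r : List Lt} (h : ∀ y ∈ r, y.U) : ∀ y ∈ winv r, y.U := by
  intro y hy
  obtain ⟨y', h1, rfl⟩ := mc1_mem hy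
  have h2 := h y' h1
  cases y' with
  | m A => exact Unitary.star_mem h2
  | w j g => trivial

theorem actW_winv {r : List Lt} (h : ∀ y ∈ r, y.U) (z : K) :
    actW M x f (winv r) (actW M x f r z) = z := by
  induction r generalizing z with
  | nil => rfl
  | cons y r ih =>
    rw [mc1_act]
    change act M x f y.inv (actW M x f (winv r) (actW M x f r (act M x f y z))) = z
    rw [ih fun y' hy => h y' (List.mem_cons_of_mem _ hy), mc1_left M x f (h y List.mem_cons_self)]

theorem actW_winv' {r : List Lt} (h : ∀ y ∈ r, y.U) (z : K) :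
    actW M x f r (actW M x f (winv r) z) = z := by
  have e := actW_winv M x f (winv_U h) z
  rwa [mc1_winv_winv] at e

theorem inner_actW (r : List Lt) (y z : K) :
    ⟪actW M x f r y, z⟫_ℂ = ⟪y, actW M x f (winv r) z⟫_ℂ := by
  induction r generalizing y with
  | nil => rfl
  | cons a r ih =>
    rw [mc1_act, ← mc1_inner, ← ih]
    rfl

theorem actW_congr {x' : ℕ → ℝ} {f' : ℕ → H} {N : ℕ} (h : ∀ j < N, x j = x' j ∧ f j = f' j)
    {r : List Lt} (hr : ∀ y ∈ r, y.lt N) : actW M x f r = actW M x' f' r := by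
  induction r with
  | nil => rfl
  | cons y r ih =>
    have h1 := hr y List.mem_cons_self
    have h2 : act M x f y = act M x' f' y := by
      cases y with
      | m A => rfl
      | w j g => simp only [act, (h j h1).1, (h j h1).2]
    rw [actW, actW, h2, ih fun y' hy => hr y' (List.mem_cons_of_mem _ hy)]

theorem fw_U (γ : ℕ → ℝ) {A : ℕ → M2} (hA : ∀ j, Uni (A j)) (p : ℕ) : ∀ y ∈ fw γ A p, y.U := by
  induction p with
  | zero => exact fun y hy => absurd hy List.not_mem_nil
  | succ p ih =>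
    intro y hy
    simp only [fw, List.mem_append, List.mem_cons, List.not_mem_nil, or_false] at hy
    rcases hy with hy | rfl | rfl
    · exact ih y hy
    · trivial
    · exact hA p

theorem zw_U (γ : ℕ → ℝ) {A : ℕ → M2} (hA : ∀ j, Uni (A j)) (p : ℕ) : ∀ y ∈ zw γ A p, y.U := by
  intro y hy
  rw [zw_eq, List.mem_append, List.mem_cons] at hy
  rcases hy with hy | rfl | hy
  · exact fw_U γ hA p y hy
  · exact uni_PZ
  · exact winv_U (fw_U γ hA p) y hy

theorem fw_lt (γ : ℕ → ℝ) (A : ℕ → M2) (p : ℕ) : ∀ y ∈ fw γ A p, y.lt p := by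
  induction p with
  | zero => exact fun y hy => absurd hy List.not_mem_nil
  | succ p ih =>
    intro y hy
    simp only [fw, List.mem_append, List.mem_cons, List.not_mem_nil, or_false] at hy
    rcases hy with hy | rfl | rfl
    · have h := ih y hy
      cases y with
      | m A => trivial
      | w j g => exact Nat.lt_succ_of_lt h
    · exact Nat.lt_succ_self p
    · trivial

theorem zw_lt (γ : ℕ → ℝ) (A : ℕ → M2) (p : ℕ) : ∀ y ∈ zw γ A p, y.lt p := by
  intro y hy
  rw [zw_eq, List.mem_append, List.mem_cons] at hy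
  rcases hy with hy | rfl | hy
  · exact fw_lt γ A p y hy
  · trivial
  · obtain ⟨y', h1, rfl⟩ := mc1_mem hy
    have h2 := fw_lt γ A p y' h1
    cases y' with
    | m A => trivial
    | w j g => exact h2

theorem fw_congr {γ γ' : ℕ → ℝ} {A A' : ℕ → M2} {p : ℕ} (h : ∀ j < p, γ j = γ' j ∧ A j = A' j) :
    fw γ A p = fw γ' A' p := by
  induction p with
  | zero => rfl
  | succ p ih =>
    rw [fw, fw, ih fun j hj => h j (Nat.lt_succ_of_lt hj), (h p (Nat.lt_succ_self p)).1,
      (h p (Nat.lt_succ_self p)).2]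

theorem actW_fw_succ (γ : ℕ → ℝ) (A : ℕ → M2) (p : ℕ) (z : K) :
    actW M x f (fw γ A (p + 1)) z =
      M.mat (A p) (cg M (γ p) (x p) (f p) (actW M x f (fw γ A p) z)) := by
  rw [fw, actW_append]
  rfl

theorem actW_zw (γ : ℕ → ℝ) (A : ℕ → M2) (p : ℕ) (z : K) :
    actW M x f (zw γ A p) z =
      actW M x f (winv (fw γ A p)) (M.mat PZ (actW M x f (fw γ A p) z)) := by
  rw [zw_eq, actW_append]
  rfl

/-- `U⁻¹ Z U` is self adjoint -/
theorem inner_zw (γ : ℕ → ℝ) (A : ℕ → M2) (p : ℕ) (y z : K) :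
    ⟪actW M x f (zw γ A p) y, z⟫_ℂ = ⟪y, actW M x f (zw γ A p) z⟫_ℂ := by
  rw [actW_zw, actW_zw, inner_actW, mc1_winv_winv, ← inner_actW, inner_mat, PZ_ct]

theorem fw_lab {Λ : Type} [MeasurableSpace Λ] (γ : ℕ → ℝ) {V : ℕ → Λ → M2} (hV : ∀ j, GOK (V j))
    {p N : ℕ} (hp : p ≤ N) : ∃ r : List (LL Λ), (∀ y ∈ r, y.OK N) ∧
      ∀ l, fw γ (fun i => V i l) p = r.map (LL.ev l) := by
  induction p with
  | zero => exact ⟨[], fun y hy => absurd hy List.not_mem_nil, fun _ => rfl⟩
  | succ p ih =>
    obtain ⟨r, h1, h2⟩ := ih (Nat.le_of_succ_le hp)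
    refine ⟨r ++ [.w p (γ p), .m (V p)], fun y hy => ?_, fun l => ?_⟩
    · simp only [List.mem_append, List.mem_cons, List.not_mem_nil, or_false] at hy
      rcases hy with hy | rfl | rfl
      · exact h1 y hy
      · exact hp
      · exact hV p
    · rw [fw, h2, List.map_append]
      rfl

/-- inverse of a letter with labels -/
def mc1Inv {Λ : Type} : LL Λ → LL Λ
  | .m A => .m fun l => (A l)ᴴ
  | .w j g => .w j (-g)

theorem mc1Inv_ev {Λ : Type} (l : Λ) (y : LL Λ) : (mc1Inv y).ev l = (y.ev l).inv := by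
  cases y <;> rfl

theorem mc1Inv_ok {Λ : Type} [MeasurableSpace Λ] {N : ℕ} {y : LL Λ} (h : y.OK N) :
    (mc1Inv y).OK N := by
  cases y with
  | m A =>
    exact ⟨fun b c => Complex.continuous_conj.measurable.comp (h.1 c b),
      fun l => Unitary.star_mem (h.2 l)⟩
  | w j g => exact h

theorem zw_lab {Λ : Type} [MeasurableSpace Λ] (γ : ℕ → ℝ) {V : ℕ → Λ → M2} (hV : ∀ j, GOK (V j))
    {p N : ℕ} (hp : p ≤ N) : ∃ r : List (LL Λ), (∀ y ∈ r, y.OK N) ∧
      ∀ l, zw γ (fun i => V i l) p = r.map (LL.ev l) := by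
  obtain ⟨r, h1, h2⟩ := fw_lab γ hV hp
  refine ⟨r ++ .m (fun _ => PZ) :: (r.map mc1Inv).reverse, fun y hy => ?_, fun l => ?_⟩
  · rw [List.mem_append, List.mem_cons, List.mem_reverse, List.mem_map] at hy
    rcases hy with hy | rfl | ⟨y', hy, rfl⟩
    · exact h1 y hy
    · exact ⟨fun _ _ => measurable_const, fun _ => uni_PZ⟩
    · exact mc1Inv_ok (h1 y' hy)
  · rw [zw, h2, List.map_append, List.map_cons, List.map_reverse, List.map_map, List.map_map]
    congr 3
    exact List.map_congr_left fun y _ => (mc1Inv_ev l y).symm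

end

end Vale.Agent.P367
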