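import Vale.Agent.P367M.MC1

/-! The derivation on words. -/

set_option linter.all false

namespace Vale.Agent.P367

open MeasureTheory ProbabilityTheory Filter Topology Finset Vale.Agent.P146 Matrix
open scoped InnerProductSpace

noncomputable section

variable {H K : Type} [NormedAddCommGroup H] [InnerProductSpace ℂ H]
  [SeminormedAddCommGroup K] [InnerProductSpace ℂ K] (M : P367S.Mdl H K)

variable (x : ℕ → ℝ) (f : ℕ → H)

theorem dW_append (c : ℕ → ℂ) (r r' : List Lt) :
    dW M x f c (r ++ r') = dW M x f c r' ∘ₗ actW M x f r + actW M x f r' ∘ₗ dW M x f c r := by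
  induction r with
  | nil => simp [dW, actW]
  | cons y r ih =>
    cases y with
    | m A =>
      simp only [List.cons_append, dW, actW, act, ih]
      ext z
      simp
    | w j g =>
      simp only [List.cons_append, dW, actW, act, ih, actW_append]
      ext z
      simp only [LinearMap.add_apply, LinearMap.comp_apply, LinearMap.smul_apply, map_add, map_smul]
      abel

/-- induction on `p`; `Z` commutes with `cg` (`cg_diag`), `actW_winv'` -/
theorem dW_fw (c : ℕ → ℂ) (γ : ℕ → ℝ) {A : ℕ → M2} (hA : ∀ j, Uni (A j)) (p : ℕ) (z : K) :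
    dW M x f c (fw γ A p) z = ∑ j ∈ range p, (-(Complex.I * γ j * c j)) •
      actW M x f (fw γ A p) (actW M x f (zw γ A j) z) := by
  induction p with
  | zero => simp [fw, dW]
  | succ p ih =>
    rw [sum_range_succ, actW_fw_succ, actW_zw M x f γ A p, actW_winv' M x f (fw_U γ hA p), fw,
      dW_append]
    simp only [LinearMap.add_apply, LinearMap.comp_apply, ih, map_sum, map_smul, dW, actW, act,
      actW_append, LinearMap.smul_apply, LinearMap.zero_apply, LinearMap.id_apply, zero_add]
    rw [add_comm]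

theorem dW_winv_fw (c : ℕ → ℂ) (γ : ℕ → ℝ) {A : ℕ → M2} (hA : ∀ j, Uni (A j)) (p : ℕ) (z : K) :
    dW M x f c (winv (fw γ A p)) z = ∑ j ∈ range p, (Complex.I * γ j * c j) •
      actW M x f (zw γ A j) (actW M x f (winv (fw γ A p)) z) := by
  induction p generalizing z with
  | zero => simp [fw, dW, winv]
  | succ p ih =>
    have e : winv (fw γ A (p + 1)) = [.m (A p)ᴴ, .w p (-γ p)] ++ winv (fw γ A p) := by
      simp [winv, fw, Lt.inv]
    have e2 := LinearMap.congr_fun (cg_diag M (fun a => (spin a : ℂ)) (-γ p) (x p) (f p))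
      (M.mat (A p)ᴴ z)
    rw [sum_range_succ, e, dW_append, actW_append, LinearMap.comp_apply, actW_zw M x f γ A p,
      actW_winv' M x f (fw_U γ hA p)]
    simp only [LinearMap.add_apply, LinearMap.comp_apply, ih, map_smul, dW, actW, act,
      LinearMap.smul_apply, LinearMap.zero_apply, LinearMap.id_apply, zero_add] at e2 ⊢
    rw [PZ, e2]
    congr 2
    push_cast
    ring

/-- `dW (zw p) = ∑ -i γ c [Z(p), Z(j)]`, and `inner_zw` -/
theorem inner_dW_zw (c : ℕ → ℂ) (γ : ℕ → ℝ) {A : ℕ → M2} (hA : ∀ j, Uni (A j)) (p : ℕ) :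
    ⟪M.vac, dW M x f c (zw γ A p) M.vac⟫_ℂ = ∑ j ∈ range p, 2 * γ j * c j *
      ((⟪actW M x f (zw γ A p) M.vac, actW M x f (zw γ A j) M.vac⟫_ℂ).im : ℂ) := by
  have e : dW M x f c (zw γ A p) M.vac = ∑ j ∈ range p, (Complex.I * γ j * c j) •
      (actW M x f (zw γ A j) (actW M x f (zw γ A p) M.vac) -
        actW M x f (zw γ A p) (actW M x f (zw γ A j) M.vac)) := by
    rw [zw_eq γ A p, dW_append]
    simp only [LinearMap.add_apply, LinearMap.comp_apply, dW, actW, act, dW_fw M x f c γ hA,
      dW_winv_fw M x f c γ hA, map_sum, map_smul, actW_append, ← sum_add_distrib, smul_sub,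
      neg_smul, map_neg, sub_eq_add_neg, smul_add, smul_neg]
  rw [e, inner_sum]
  refine sum_congr rfl fun j _ => ?_
  rw [inner_smul_right, inner_sub_right, ← inner_zw M x f γ A j M.vac, ← inner_zw M x f γ A p M.vac,
    ← inner_conj_symm (actW M x f (zw γ A j) M.vac)]
  generalize ⟪actW M x f (zw γ A p) M.vac, actW M x f (zw γ A j) M.vac⟫_ℂ = w
  have h := Complex.sub_conj w
  push_cast at h
  linear_combination (-(Complex.I * γ j * c j)) * h - 2 * γ j * c j * w.im * Complex.I_mul_I

theorem dis_actW (s : ℝ) (b : H) (r : List Lt) :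
    dis M s b ∘ₗ actW M x f r =
      actW M x f (tw (fun j => 2 * (⟪b, f j⟫_ℂ).im) s r) ∘ₗ dis M s b := by
  induction r with
  | nil => simp [tw, actW]
  | cons y r ih =>
    cases y with
    | m A =>
      simp only [tw, actW, act]
      rw [← LinearMap.comp_assoc, ih, LinearMap.comp_assoc, dis_mat, LinearMap.comp_assoc]
    | w j g =>
      simp only [tw, actW, act]
      rw [← LinearMap.comp_assoc, ih, LinearMap.comp_assoc, dis_cg]
      simp only [LinearMap.comp_assoc]

theorem tw_U (c : ℕ → ℝ) (s : ℝ) {r : List Lt} (h : ∀ y ∈ r, y.U) : ∀ y ∈ tw c s r, y.U := by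
  induction r with
  | nil => simp [tw]
  | cons y r ih =>
    have h2 := ih fun y hy => h y (List.mem_cons_of_mem _ hy)
    cases y with
    | m A => exact List.forall_mem_cons.2 ⟨h _ List.mem_cons_self, h2⟩
    | w j g => exact List.forall_mem_cons.2 ⟨uni_RZ _, List.forall_mem_cons.2 ⟨trivial, h2⟩⟩

theorem bd_nonneg (c : ℕ → ℝ) (r : List Lt) : 0 ≤ bd c r := by
  induction r with
  | nil => exact le_rfl
  | cons y r ih =>
    cases y with
    | m A => exact ih
    | w j g => exact add_nonneg (abs_nonneg _) ih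

theorem bd_fw (c : ℕ → ℝ) (γ : ℕ → ℝ) (A : ℕ → M2) (p : ℕ) :
    bd c (fw γ A p) = ∑ j ∈ range p, |γ j * c j| := by
  have h : ∀ r r' : List Lt, bd c (r ++ r') = bd c r + bd c r' := by
    intro r r'
    induction r with
    | nil => simp [bd]
    | cons y r ih => cases y <;> simp [bd, ih, add_assoc]
  induction p with
  | zero => simp [fw, bd]
  | succ p ih => rw [fw, h, ih, sum_range_succ]; simp [bd]

theorem norm_dW_le (c : ℕ → ℝ) {r : List Lt} (h : ∀ y ∈ r, y.U) (z : K) :
    ‖dW M x f (fun j => (c j : ℂ)) r z‖ ≤ bd c r * ‖z‖ := by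
  induction r generalizing z with
  | nil => simp [dW, bd]
  | cons y r ih =>
    have h2 : ∀ y ∈ r, y.U := fun y hy => h y (List.mem_cons_of_mem _ hy)
    cases y with
    | m A =>
      have := ih h2 (M.mat A z)
      rwa [norm_mat_uni M (h _ List.mem_cons_self)] at this
    | w j g =>
      have h3 := ih h2 (cg M g (x j) (f j) z)
      rw [norm_cg] at h3
      simp only [dW, bd, LinearMap.add_apply, LinearMap.comp_apply, LinearMap.smul_apply]
      refine (norm_add_le _ _).trans ?_
      rw [norm_smul, norm_actW M x f h2, norm_cg, norm_mat_uni M uni_PZ, norm_neg, mul_assoc,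
        norm_mul, Complex.norm_I, one_mul, ← Complex.ofReal_mul, Complex.norm_real,
        Real.norm_eq_abs]
      linarith

/-- induction; with `R = RZ (s g c)`: `W' cg R - A' cg - s (d' cg - i g c A' cg Z) =
(W' - A' - s d') cg R + A' cg (R - 1 + i s g c Z) + s d' cg (R - 1)`;
`norm_RZ_sub`, `norm_RZ_sub2` -/
theorem norm_tw_sub (c : ℕ → ℝ) (s : ℝ) {r : List Lt} (h : ∀ y ∈ r, y.U) (z : K) :
    ‖actW M x f (tw c s r) z - actW M x f r z - (s : ℂ) • dW M x f (fun j => (c j : ℂ)) r z‖ ≤
      s ^ 2 * bd c r ^ 2 * ‖z‖ := by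
  induction r generalizing z with
  | nil => simp [tw, dW, bd]
  | cons y r ih =>
    have h2 : ∀ y ∈ r, y.U := fun y hy => h y (List.mem_cons_of_mem _ hy)
    cases y with
    | m A =>
      have := ih h2 (M.mat A z)
      rwa [norm_mat_uni M (h _ List.mem_cons_self)] at this
    | w j g =>
      have k1 := ih h2 (cg M g (x j) (f j) (M.mat (RZ (s * g * c j)) z))
      rw [norm_cg, norm_mat_uni M (uni_RZ _)] at k1
      have k2 := norm_RZ_sub2 M (s * g * c j) z
      rw [← norm_cg M g (x j) (f j), ← norm_actW M x f h2] at k2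
      have k3 := norm_dW_le M x f c h2 (cg M g (x j) (f j) (M.mat (RZ (s * g * c j)) z - z))
      rw [norm_cg] at k3
      have k4 := mul_le_mul_of_nonneg_left (k3.trans (mul_le_mul_of_nonneg_left
        (norm_RZ_sub M (s * g * c j) z) (bd_nonneg c r))) (abs_nonneg s)
      rw [← Real.norm_eq_abs s, ← Complex.norm_real, ← norm_smul, Complex.norm_real,
        Real.norm_eq_abs] at k4
      have k5 := (norm_add₃_le.trans (add_le_add (add_le_add k1 k2) k4))
      refine le_trans (le_of_eq ?_) (k5.trans ?_)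
      · congr 1
        simp only [tw, dW, actW, act, LinearMap.add_apply, LinearMap.comp_apply,
          LinearMap.smul_apply, map_add, map_sub, map_smul]
        push_cast
        module
      · have e : |s * g * c j| = |s| * |g * c j| := by rw [mul_assoc, abs_mul]
        have e2 : (s * g * c j) ^ 2 = |s| ^ 2 * |g * c j| ^ 2 := by rw [← mul_pow, ← e, sq_abs]
        have h3 : 0 ≤ |s| ^ 2 * |g * c j| * bd c r * ‖z‖ := by
          have := bd_nonneg c r
          positivity
        rw [e, e2, ← sq_abs s, bd]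
        linarith

end

end Vale.Agent.P367
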