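import Vale.Agent.P367M.MC1
import Vale.Agent.P367M.MB1

/-! Consistent modes. -/

set_option linter.all false

namespace Vale.Agent.P367

open MeasureTheory ProbabilityTheory Filter Topology Finset Vale.Agent.P146 Matrix
open scoped InnerProductSpace

noncomputable section

variable {Ω : Type} [MeasurableSpace Ω] {Λ : Type} [MeasurableSpace Λ] {ν : Measure Λ}
  {P : Measure Ω} [IsProbabilityMeasure P] {H K : Type} [NormedAddCommGroup H]
  [InnerProductSpace ℂ H] [SeminormedAddCommGroup K] [InnerProductSpace ℂ K] (D : DM ν P H K)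
  {γ : ℕ → ℝ} {V : ℕ → Λ → M2} {m : ℕ → Lp ℝ 2 P} {f : ℕ → H}

theorem DM.mc3_mat {A : Λ → M2} (hA : GOK A) {ψ : Ω → K} (h : L2 P ψ) :
    L2 P fun ω => D.M.mat (A (D.X.lab ω)) (ψ ω) :=
  h.mat D.M (A := fun ω => A (D.X.lab ω))
    (fun a b => ((hA.1 a b).comp D.X.mlab).aestronglyMeasurable)
    fun ω a b => Uni.entry_le (hA.2 _) a b

theorem DM.mc3_cg (m : ℕ → Lp ℝ 2 P) (f : ℕ → H) (j : ℕ) (g : ℝ) {ψ : Ω → K} (h : L2 P ψ) :
    L2 P fun ω => cg D.M g (D.xs m ω j) (f j) (ψ ω) := by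
  have h1 := h.lin (D.M.cw ((g : ℂ) • f j)).toLinearEquiv.toLinearMap (C := 1) fun y => by
    rw [one_mul]
    exact ((D.M.cw ((g : ℂ) • f j)).norm_map y).le
  have h2 : AEMeasurable (fun ω => D.xs m ω j) P :=
    (Lp.aestronglyMeasurable (D.X.S (m j))).aemeasurable
  refine h1.mat D.M (A := fun ω => RZ (g * D.xs m ω j)) (fun a b => ?_)
    fun ω a b => Uni.entry_le (uni_RZ _) a b
  refine AEMeasurable.aestronglyMeasurable ?_
  simp only [RZ, Matrix.diagonal_apply]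
  split_ifs
  · fun_prop
  · fun_prop

/-- induction on `r` generalizing `ψ`; `L2.mat`, `L2.lin` -/
theorem DM.L2_word (m : ℕ → Lp ℝ 2 P) (f : ℕ → H) {N : ℕ} {r : List (LL Λ)}
    (hr : ∀ y ∈ r, y.OK N) {ψ : Ω → K} (h : L2 P ψ) :
    L2 P fun ω => actW D.M (D.xs m ω) f (r.map (LL.ev (D.X.lab ω))) (ψ ω) := by
  induction r generalizing ψ with
  | nil => exact h
  | cons y r ih =>
    have ih' := @ih fun y hy => hr y (List.mem_cons_of_mem _ hy)
    have hy := hr y List.mem_cons_self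
    cases y with
    | m A => exact ih' (D.mc3_mat hy h)
    | w j g => exact ih' (D.mc3_cg m f j g h)

theorem DM.L2_dW (m : ℕ → Lp ℝ 2 P) (f : ℕ → H) (c : ℕ → ℂ) {N : ℕ} {r : List (LL Λ)}
    (hr : ∀ y ∈ r, y.OK N) {ψ : Ω → K} (h : L2 P ψ) :
    L2 P fun ω => dW D.M (D.xs m ω) f c (r.map (LL.ev (D.X.lab ω))) (ψ ω) := by
  induction r generalizing ψ with
  | nil => exact L2.const 0
  | cons y r ih =>
    have hr' : ∀ y ∈ r, y.OK N := fun y hy => hr y (List.mem_cons_of_mem _ hy)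
    have ih' := @ih hr'
    have hy := hr y List.mem_cons_self
    cases y with
    | m A => exact ih' (D.mc3_mat hy h)
    | w j g =>
      have h1 := h.lin (D.M.mat PZ) (C := 1) fun y => by
        rw [one_mul, norm_mat_uni D.M uni_PZ]
      have h2 := (D.L2_word m f hr' (D.mc3_cg m f j g h1)).smul
        (c := fun _ => -(Complex.I * g * c j)) aestronglyMeasurable_const fun _ => le_rfl
      exact (ih' (D.mc3_cg m f j g h)).add h2

theorem DM.uni_gt (hV : ∀ j, GOK (V j)) (ω : Ω) (j : ℕ) : Uni (D.gt V ω j) := by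
  exact (hV j).2 _

theorem DM.L2_st (hV : ∀ j, GOK (V j)) (p : ℕ) : L2 P (D.st γ V m f p) := by
  obtain ⟨r, hr, e⟩ := fw_lab γ hV (le_refl p)
  have h1 := D.L2_word m f hr (L2.const D.M.vac)
  simp only [← e] at h1
  exact h1

theorem DM.L2_zv (hV : ∀ j, GOK (V j)) (p : ℕ) : L2 P (D.zv γ V m f p) := by
  obtain ⟨r, hr, e⟩ := zw_lab γ hV (le_refl p)
  have h1 := D.L2_word m f hr (L2.const D.M.vac)
  simp only [← e] at h1
  exact h1

theorem DM.norm_st (hV : ∀ j, GOK (V j)) (p : ℕ) (ω : Ω) : ‖D.st γ V m f p ω‖ = 1 := by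
  rw [DM.st, norm_actW D.M _ _ (fw_U γ (D.uni_gt hV ω) p), norm_vac]

theorem DM.norm_zv (hV : ∀ j, GOK (V j)) (p : ℕ) (ω : Ω) : ‖D.zv γ V m f p ω‖ = 1 := by
  rw [DM.zv, norm_actW D.M _ _ (zw_U γ (D.uni_gt hV ω) p), norm_vac]

/-- `inner_zw` -/
theorem DM.inner_vac_zv (p : ℕ) (ω : Ω) :
    ⟪D.M.vac, D.zv γ V m f p ω⟫_ℂ = (D.mg (D.zv γ V m f p) ω : ℂ) := by
  have h1 := inner_zw D.M (D.xs m ω) f γ (D.gt V ω) p D.M.vac D.M.vac
  rw [← inner_conj_symm] at h1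
  exact (Complex.conj_eq_iff_re.1 h1).symm

/-- `zv - spin b • vac = U⁻¹ (Z - spin b) st`, `norm_PZ_sub` -/
theorem DM.norm_zv_sub (hV : ∀ j, GOK (V j)) (p : ℕ) (ω : Ω) (b : Bool) :
    ‖D.zv γ V m f p ω - (spin b : ℂ) • D.M.vac‖ = 2 * ‖D.M.mat (Qb b) (D.st γ V m f p ω)‖ := by
  have hU := fw_U γ (D.uni_gt hV ω) p
  rw [← norm_PZ_sub, ← norm_actW D.M (D.xs m ω) f (winv_U hU) (D.M.mat PZ _ - _), map_sub,
    map_smul, DM.st, actW_winv D.M _ _ hU, DM.zv, actW_zw]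

theorem DM.st_congr {γ' : ℕ → ℝ} {V' : ℕ → Λ → M2} {m' : ℕ → Lp ℝ 2 P} {f' : ℕ → H} {p : ℕ}
    (h : ∀ j < p, γ' j = γ j ∧ V' j = V j) (h' : ∀ j < p, m' j = m j ∧ f' j = f j) :
    D.st γ' V' m' f' p = D.st γ V m f p := by
  funext ω
  have h1 : fw γ' (D.gt V' ω) p = fw γ (D.gt V ω) p :=
    fw_congr fun j hj => ⟨(h j hj).1, congrFun (h j hj).2 _⟩
  rw [DM.st, DM.st, h1, actW_congr D.M (D.xs m' ω) f' (x' := D.xs m ω) (f' := f) (N := p)
    (fun j hj => ⟨by rw [DM.xs, DM.xs, (h' j hj).1], (h' j hj).2⟩) (fw_lt _ _ _)]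

theorem DM.zv_congr {γ' : ℕ → ℝ} {V' : ℕ → Λ → M2} {m' : ℕ → Lp ℝ 2 P} {f' : ℕ → H} {p : ℕ}
    (h : ∀ j < p, γ' j = γ j ∧ V' j = V j) (h' : ∀ j < p, m' j = m j ∧ f' j = f j) :
    D.zv γ' V' m' f' p = D.zv γ V m f p := by
  funext ω
  have h1 : fw γ' (D.gt V' ω) p = fw γ (D.gt V ω) p :=
    fw_congr fun j hj => ⟨(h j hj).1, congrFun (h j hj).2 _⟩
  have h2 : zw γ' (D.gt V' ω) p = zw γ (D.gt V ω) p := by rw [zw_eq, zw_eq, h1]
  rw [DM.zv, DM.zv, h2, actW_congr D.M (D.xs m' ω) f' (x' := D.xs m ω) (f' := f) (N := p)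
    (fun j hj => ⟨by rw [DM.xs, DM.xs, (h' j hj).1], (h' j hj).2⟩) (zw_lt _ _ _)]

/-- recursion: `u 0 = 0`, `u (N + 1) = Function.update (u N) N (new mode computed from u N)`,
the mode `j` is `u (j + 1) j`; `zv_congr` -/
theorem DM.cons_exists (γ : ℕ → ℝ) (hV : ∀ j, GOK (V j)) : ∃ m f, D.Cons γ V m f := by
  let nw : (ℕ → Lp ℝ 2 P × H) → ℕ → Lp ℝ 2 P × H := fun u N =>
    (toL P (D.mg (D.zv γ V (fun j => (u j).1) (fun j => (u j).2) N)),
      D.J (D.pp (D.zv γ V (fun j => (u j).1) (fun j => (u j).2) N)))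
  let u : ℕ → ℕ → Lp ℝ 2 P × H := fun N =>
    Nat.rec 0 (fun N v => Function.update v N (nw v N)) N
  have hu : ∀ N, u (N + 1) = Function.update (u N) N (nw (u N) N) := fun N => rfl
  have h1 : ∀ N, ∀ j < N, u N j = u (j + 1) j := by
    intro N
    induction N with
    | zero => intro j hj; omega
    | succ N ih =>
      intro j hj
      rcases Nat.lt_succ_iff_lt_or_eq.1 hj with h2 | rfl
      · rw [hu, Function.update_of_ne h2.ne, ih j h2]
      · rfl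
  have h2 : ∀ N, D.zv γ V (fun j => (u (j + 1) j).1) (fun j => (u (j + 1) j).2) N =
      D.zv γ V (fun j => (u N j).1) (fun j => (u N j).2) N := fun N =>
    D.zv_congr (fun j _ => ⟨rfl, rfl⟩) fun j hj => by simp only [h1 N j hj, and_self]
  refine ⟨fun j => (u (j + 1) j).1, fun j => (u (j + 1) j).2, hV, fun j => ?_, fun j => ?_⟩
  · rw [h2, hu, Function.update_self]
  · rw [h2, hu, Function.update_self]

/-- strong induction with `zv_congr` -/
theorem DM.cons_ext (h : D.Cons γ V m f) {γ' : ℕ → ℝ} {V' : ℕ → Λ → M2} (hV : ∀ j, GOK (V' j))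
    {p : ℕ} (e : ∀ j < p, γ' j = γ j ∧ V' j = V j) :
    ∃ m' f', D.Cons γ' V' m' f' ∧ ∀ j ≤ p, m' j = m j ∧ f' j = f j := by
  obtain ⟨m', f', h'⟩ := D.cons_exists γ' hV
  refine ⟨m', f', h', fun j => ?_⟩
  induction j using Nat.strong_induction_on with
  | _ j ih =>
    intro hj
    have h1 : D.zv γ' V' m' f' j = D.zv γ V m f j :=
      D.zv_congr (fun i hi => e i (by omega)) fun i hi => ih i hi (by omega)
    rw [h'.hm j, h'.hf j, h.hm j, h.hf j, h1]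
    exact ⟨rfl, rfl⟩

end

end Vale.Agent.P367
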