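import Vale.Agent.P367M.MC3

/-! Decomposition along the vacuum. -/

set_option linter.all false

namespace Vale.Agent.P367

open MeasureTheory ProbabilityTheory Filter Topology Finset Vale.Agent.P146 Matrix
open scoped InnerProductSpace

noncomputable section

variable {Ω : Type} [MeasurableSpace Ω] {Λ : Type} [MeasurableSpace Λ] {ν : Measure Λ}
  {P : Measure Ω} [IsProbabilityMeasure P] {H K : Type} [NormedAddCommGroup H]
  [InnerProductSpace ℂ H] [SeminormedAddCommGroup K] [InnerProductSpace ℂ K] (D : DM ν P H K)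
  {γ : ℕ → ℝ} {V : ℕ → Λ → M2} {m : ℕ → Lp ℝ 2 P} {f : ℕ → H}

theorem MC4_pt (M : P367S.Mdl H K) {x y : K} {a b : ℝ} (e : ⟪M.vac, x⟫_ℂ = (a : ℂ))
    (e' : ⟪M.vac, y⟫_ℂ = (b : ℂ)) :
    ⟪x, y⟫_ℂ = ((a * b : ℝ) : ℂ) + ⟪x - (a : ℂ) • M.vac, y - (b : ℂ) • M.vac⟫_ℂ := by
  have e2 : ⟪x, M.vac⟫_ℂ = (a : ℂ) := by
    rw [← inner_conj_symm, e, Complex.conj_ofReal]
  rw [inner_sub_left, inner_sub_right, inner_sub_right, inner_smul_left, inner_smul_left,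
    inner_smul_right, inner_smul_right, e2, e', inner_vac_vac, Complex.conj_ofReal]
  push_cast
  ring

theorem MC4_toL_sub {F G : Ω → ℝ} (h : MemLp F 2 P) (h' : MemLp G 2 P) :
    toL P (fun ω => F ω - G ω) = toL P F - toL P G := by
  have h2 : MemLp (fun ω => F ω - G ω) 2 P := h.sub h'
  refine Lp.ext ?_
  filter_upwards [toL_ae h2, toL_ae h, toL_ae h', Lp.coeFn_sub (toL P F) (toL P G)]
    with ω e1 e2 e3 e4
  rw [e1, e4, Pi.sub_apply, e2, e3]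

theorem MC4_spin {F : Ω → Bool} (hF : Measurable F) : MemLp (fun ω => spin (F ω)) 2 P := by
  refine MemLp.of_bound ((measurable_of_countable spin).comp hF).aestronglyMeasurable 1
    (ae_of_all _ fun ω => ?_)
  cases F ω <;> simp [spin]

theorem DM.MC4_mg_rs (A : Set Λ) (ψ : Ω → K) : D.mg (D.rs A ψ) = D.rs A (D.mg ψ) := by
  funext ω
  by_cases h : D.X.lab ω ∈ A <;> simp [DM.mg, DM.rs, h]

theorem DM.MC4_pp_rs (A : Set Λ) (ψ : Ω → K) : D.pp (D.rs A ψ) = D.rs A (D.pp ψ) := by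
  funext ω
  by_cases h : D.X.lab ω ∈ A <;> simp [DM.mg, DM.pp, DM.rs, h]

theorem DM.MC4_real_rs (A : Set Λ) {ψ : Ω → K}
    (e : ∀ ω, ⟪D.M.vac, ψ ω⟫_ℂ = (D.mg ψ ω : ℂ)) (ω : Ω) :
    ⟪D.M.vac, D.rs A ψ ω⟫_ℂ = (D.mg (D.rs A ψ) ω : ℂ) := by
  rw [D.MC4_mg_rs]
  by_cases h : D.X.lab ω ∈ A
  · simp only [DM.rs, if_pos h]
    exact e ω
  · simp [DM.rs, h]

theorem DM.MC4_rs_univ {E : Type} [Zero E] (ψ : Ω → E) : D.rs Set.univ ψ = ψ := by
  funext ω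
  simp [DM.rs]

/-- decomposition along the vacuum for fields with a real vacuum component -/
theorem DM.inner_split {ψ φ : Ω → K} (h : L2 P ψ) (h' : L2 P φ)
    (e : ∀ ω, ⟪D.M.vac, ψ ω⟫_ℂ = (D.mg ψ ω : ℂ)) (e' : ∀ ω, ⟪D.M.vac, φ ω⟫_ℂ = (D.mg φ ω : ℂ)) :
    ∫ ω, ⟪ψ ω, φ ω⟫_ℂ ∂P =
      ((⟪toL P (D.mg ψ), toL P (D.mg φ)⟫_ℝ : ℝ) : ℂ) + ⟪D.J (D.pp ψ), D.J (D.pp φ)⟫_ℂ := by
  have i : Integrable (fun ω => ((D.mg ψ ω * D.mg φ ω : ℝ) : ℂ)) P :=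
    ((D.memLp_mg h).integrable_mul (D.memLp_mg h')).ofReal
  rw [inner_toL (D.memLp_mg h) (D.memLp_mg h'), D.hJ _ _ (D.L2_pp h) (D.L2_pp h'),
    ← integral_complex_ofReal, ← integral_add i ((D.L2_pp h).integrable_inner (D.L2_pp h'))]
  exact integral_congr_ae (ae_of_all _ fun ω => MC4_pt D.M (e ω) (e' ω))

theorem DM.gram_eq (h : D.Cons γ V m f) (j k : ℕ) :
    DM.gram m f j k = ∫ ω, ⟪D.zv γ V m f j ω, D.zv γ V m f k ω⟫_ℂ ∂P := by
  rw [D.inner_split (D.L2_zv h.ok j) (D.L2_zv h.ok k) (D.inner_vac_zv j) (D.inner_vac_zv k),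
    ← h.hm j, ← h.hm k, ← h.hf j, ← h.hf k]
  rfl

theorem DM.norm_mode (h : D.Cons γ V m f) (j : ℕ) : ‖m j‖ ^ 2 + ‖f j‖ ^ 2 = 1 := by
  have e := D.gram_eq h j j
  simp only [DM.gram, inner_self_eq_norm_sq_to_K, D.norm_zv h.ok] at e
  refine Complex.ofReal_injective ?_
  push_cast
  simpa using e

theorem DM.mA_univ (h : D.Cons γ V m f) (p : ℕ) : D.mA Set.univ (D.zv γ V m f p) = m p := by
  rw [DM.mA, D.MC4_rs_univ, ← h.hm p]

theorem DM.fA_univ (h : D.Cons γ V m f) (p : ℕ) : D.fA Set.univ (D.zv γ V m f p) = f p := by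
  rw [DM.fA, D.MC4_rs_univ, ← h.hf p]

/-- `inner_split` for `ψ = φ = rs A (zv - spin F • vac)` -/
theorem DM.dist_split (h : D.Cons γ V m f) (p : ℕ) {A : Set Λ} (hA : MeasurableSet A)
    {F : Ω → Bool} (hF : Measurable F) :
    ‖D.mA A (D.zv γ V m f p) - D.X.msg A F‖ ^ 2 + ‖D.fA A (D.zv γ V m f p)‖ ^ 2 =
      4 * ∫ ω, D.rs A (fun ω => ‖D.M.mat (Qb (F ω)) (D.st γ V m f p ω)‖ ^ 2) ω ∂P := by
  have hz := D.L2_zv (m := m) (f := f) (γ := γ) h.ok p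
  have hs : MemLp (fun ω => spin (F ω)) 2 P := MC4_spin hF
  have hw : L2 P fun ω => D.zv γ V m f p ω - (spin (F ω) : ℂ) • D.M.vac :=
    hz.sub (L2.smul_const hs _)
  have i1 : ∀ ω, ⟪D.M.vac, D.zv γ V m f p ω - (spin (F ω) : ℂ) • D.M.vac⟫_ℂ =
      ((D.mg (D.zv γ V m f p) ω - spin (F ω) : ℝ) : ℂ) := fun ω => by
    rw [inner_sub_right, inner_smul_right, inner_vac_vac, D.inner_vac_zv, mul_one,
      Complex.ofReal_sub]
  have i2 : D.mg (fun ω => D.zv γ V m f p ω - (spin (F ω) : ℂ) • D.M.vac) =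
      fun ω => D.mg (D.zv γ V m f p) ω - spin (F ω) := funext fun ω => by
    rw [DM.mg, i1, Complex.ofReal_re]
  have i3 : D.pp (fun ω => D.zv γ V m f p ω - (spin (F ω) : ℂ) • D.M.vac) =
      D.pp (D.zv γ V m f p) := funext fun ω => by
    rw [DM.pp, i2, DM.pp, Complex.ofReal_sub, sub_smul]
    abel
  have i4 : ∀ ω, ⟪D.M.vac, D.zv γ V m f p ω - (spin (F ω) : ℂ) • D.M.vac⟫_ℂ =
      (D.mg (fun ω => D.zv γ V m f p ω - (spin (F ω) : ℂ) • D.M.vac) ω : ℂ) := fun ω => by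
    rw [i1, i2]
  have i5 : toL P (D.rs A fun ω => D.mg (D.zv γ V m f p) ω - spin (F ω)) =
      D.mA A (D.zv γ V m f p) - D.X.msg A F := by
    have e1 : D.X.msg A F = toL P (D.rs A fun ω => spin (F ω)) := rfl
    rw [e1, DM.mA, ← MC4_toL_sub (D.memLp_rs (D.memLp_mg hz) hA) (D.memLp_rs hs hA)]
    refine congrArg _ (funext fun ω => ?_)
    by_cases hω : D.X.lab ω ∈ A <;> simp [DM.rs, hω]
  have e := D.inner_split (D.L2_rs hw hA) (D.L2_rs hw hA) (D.MC4_real_rs A i4)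
    (D.MC4_real_rs A i4)
  rw [D.MC4_mg_rs, D.MC4_pp_rs, i2, i3, i5, real_inner_self_eq_norm_sq] at e
  simp only [inner_self_eq_norm_sq_to_K] at e
  refine Complex.ofReal_injective ?_
  rw [← integral_const_mul, ← integral_complex_ofReal, Complex.ofReal_add]
  refine Eq.trans ?_ (e.symm.trans (integral_congr_ae (ae_of_all _ fun ω => ?_)))
  · simp [DM.fA]
  · by_cases hω : D.X.lab ω ∈ A
    · simp only [DM.rs, if_pos hω]
      rw [D.norm_zv_sub h.ok]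
      simp only [Complex.coe_algebraMap]
      push_cast
      ring
    · simp [DM.rs, hω]

theorem DM.im_fA (h : D.Cons γ V m f) (p j : ℕ) {A : Set Λ} (hA : MeasurableSet A) :
    (⟪D.fA A (D.zv γ V m f p), f j⟫_ℂ).im =
      ∫ ω, D.rs A (fun ω => (⟪D.zv γ V m f p ω, D.zv γ V m f j ω⟫_ℂ).im) ω ∂P := by
  have hz := D.L2_zv (m := m) (f := f) (γ := γ) h.ok p
  have hj := D.L2_zv (m := m) (f := f) (γ := γ) h.ok j
  have e := D.inner_split (D.L2_rs hz hA) hj (D.MC4_real_rs A (D.inner_vac_zv p))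
    (D.inner_vac_zv j)
  rw [D.MC4_pp_rs, ← h.hf j] at e
  have e2 := congrArg Complex.im e
  rw [Complex.add_im, Complex.ofReal_im, zero_add] at e2
  refine e2.symm.trans ((integral_im ((D.L2_rs hz hA).integrable_inner hj)).symm.trans ?_)
  refine integral_congr_ae (ae_of_all _ fun ω => ?_)
  by_cases hω : D.X.lab ω ∈ A <;> simp [DM.rs, hω]

end

end Vale.Agent.P367
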