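import Vale.Agent.P367M.MC4
import Vale.Agent.P367M.MB2

/-! The model with data realises the path sums. -/

set_option linter.all false

namespace Vale.Agent.P367

open MeasureTheory ProbabilityTheory Filter Topology Finset Vale.Agent.P146 Matrix
open scoped InnerProductSpace

noncomputable section

variable {Ω : Type} [MeasurableSpace Ω] {Λ : Type} [MeasurableSpace Λ] {ν : Measure Λ}
  {P : Measure Ω} [IsProbabilityMeasure P] {H K : Type} [NormedAddCommGroup H]
  [InnerProductSpace ℂ H] [SeminormedAddCommGroup K] [InnerProductSpace ℂ K] (D : DM ν P H K)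
  {γ : ℕ → ℝ} {V : ℕ → Λ → M2} {m : ℕ → Lp ℝ 2 P} {f : ℕ → H}

theorem MD_Bf (m : ℕ → Lp ℝ 2 P) (f : ℕ → H) (N : ℕ) (h k : ℕ → ℝ) :
    Bf N (DM.gram m f) h k =
      ((⟪∑ i ∈ range N, h i • m i, ∑ i ∈ range N, k i • m i⟫_ℝ : ℝ) : ℂ) +
        ⟪∑ i ∈ range N, (h i : ℂ) • f i, ∑ i ∈ range N, (k i : ℂ) • f i⟫_ℂ := by
  simp only [Bf, DM.gram, sum_inner, inner_sum, real_inner_smul_left, real_inner_smul_right,
    inner_smul_left, inner_smul_right, Complex.conj_ofReal, Complex.ofReal_sum,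
    conj_trivial, Finset.mul_sum, ← Finset.sum_add_distrib]
  rw [Finset.sum_comm]
  refine Finset.sum_congr rfl fun i _ => Finset.sum_congr rfl fun j _ => ?_
  push_cast
  ring

theorem MD_single {E : Type} [AddCommGroup E] [Module ℂ E] (f : ℕ → E) {N j : ℕ} (hj : j < N)
    (c : ℝ) : ∑ i ∈ range N, (((Pi.single j c : ℕ → ℝ) i : ℝ) : ℂ) • f i = (c : ℂ) • f j := by
  rw [Finset.sum_eq_single j]
  · rw [Pi.single_eq_same]
  · intro i _ hi
    rw [Pi.single_eq_of_ne hi, Complex.ofReal_zero, zero_smul]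
  · intro h
    exact absurd (Finset.mem_range.2 hj) h

theorem MD_sub {E : Type} [AddCommGroup E] [Module ℂ E] (f : ℕ → E) {N j : ℕ} (hj : j < N)
    (h : ℕ → ℝ) (c : ℝ) :
    ∑ i ∈ range N, (((h - Pi.single j c : ℕ → ℝ) i : ℝ) : ℂ) • f i =
      ∑ i ∈ range N, (h i : ℂ) • f i - (c : ℂ) • f j := by
  rw [← MD_single f hj c, ← Finset.sum_sub_distrib]
  refine Finset.sum_congr rfl fun i _ => ?_
  rw [Pi.sub_apply, Complex.ofReal_sub, sub_smul]

theorem MD_subR (x : ℕ → ℝ) {N j : ℕ} (hj : j < N) (h : ℕ → ℝ) (c : ℝ) :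
    ∑ i ∈ range N, (h - Pi.single j c : ℕ → ℝ) i * x i =
      ∑ i ∈ range N, h i * x i - c * x j := by
  have e := MD_sub (fun i => (x i : ℂ)) hj h c
  simp only [smul_eq_mul] at e
  exact_mod_cast e

theorem MD_im (m : ℕ → Lp ℝ 2 P) (f : ℕ → H) {N j : ℕ} (hj : j < N) (h : ℕ → ℝ) :
    (Bf N (DM.gram m f) (Pi.single j 1) h).im = (⟪f j, ∑ i ∈ range N, (h i : ℂ) • f i⟫_ℂ).im := by
  rw [MD_Bf, Complex.add_im, Complex.ofReal_im, zero_add, MD_single f hj, Complex.ofReal_one,
    one_smul]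

theorem MD_ampl (G : ℕ → ℕ → ℂ) {N : ℕ} {r : List (LL Λ)} (hr : ∀ y ∈ r, y.OK N) (a : Bool)
    (h : ℕ → ℝ) : Measurable (fun l => ampl N G (r.map (LL.ev l)) a h) ∧
      ∃ C : ℝ, ∀ l, ‖ampl N G (r.map (LL.ev l)) a h‖ ≤ C := by
  induction r generalizing a h with
  | nil => exact ⟨measurable_const, ‖ampl N G [] a h‖, fun l => le_rfl⟩
  | cons y r ih =>
    have hr' : ∀ y ∈ r, y.OK N := fun z hz => hr z (List.mem_cons_of_mem _ hz)
    have hy := hr y List.mem_cons_self
    cases y with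
    | m A =>
      obtain ⟨m1, C1, b1⟩ := ih hr' true h
      obtain ⟨m2, C2, b2⟩ := ih hr' false h
      simp only [List.map_cons, LL.ev, ampl, Fintype.sum_bool]
      refine ⟨((hy.1 _ _).mul m1).add ((hy.1 _ _).mul m2), C1 + C2, fun l => ?_⟩
      refine norm_add_le_of_le ?_ ?_
      · rw [norm_mul]
        exact (mul_le_of_le_one_left (norm_nonneg _) ((hy.2 l).entry_le _ _)).trans (b1 l)
      · rw [norm_mul]
        exact (mul_le_of_le_one_left (norm_nonneg _) ((hy.2 l).entry_le _ _)).trans (b2 l)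
    | w j g =>
      obtain ⟨m1, C1, b1⟩ := ih hr' a (h - Pi.single j (spin a * g))
      simp only [List.map_cons, LL.ev, ampl]
      refine ⟨m1.const_mul _, C1, fun l => ?_⟩
      rw [norm_mul, mul_comm Complex.I, Complex.norm_exp_ofReal_mul_I, one_mul]
      exact b1 l

theorem MD_intR {N : ℕ} (G : ℕ → ℕ → ℂ) {r : List (LL Λ)} (hr : ∀ y ∈ r, y.OK N) (a : Bool)
    (h : ℕ → ℝ) {ψ : Λ → ℂ} (hψ : Measurable ψ) {C : ℝ} (hC : ∀ l, ‖ψ l‖ ≤ C) (D : DM ν P H K) :
    Integrable (fun l => ψ l * ampl N G (r.map (LL.ev l)) a h) ν := by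
  haveI : IsProbabilityMeasure ν := by
    rw [← D.X.law]
    exact Measure.isProbabilityMeasure_map D.X.mlab.aemeasurable
  obtain ⟨m1, C1, b1⟩ := MD_ampl G hr a h
  refine Integrable.of_bound (hψ.mul m1).aestronglyMeasurable (C * C1) (ae_of_all _ fun l => ?_)
  rw [norm_mul]
  exact mul_le_mul (hC l) (b1 l) (norm_nonneg _) ((norm_nonneg _).trans (hC l))

theorem MD_intL (m : ℕ → Lp ℝ 2 P) (f : ℕ → H) {N : ℕ} {r : List (LL Λ)}
    (hr : ∀ y ∈ r, y.OK N) (h : ℕ → ℝ) {ψ : Λ → ℂ} (hψ : Measurable ψ) {C : ℝ}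
    (hC : ∀ l, ‖ψ l‖ ≤ C) (z : K) :
    Integrable (fun ω => ψ (D.X.lab ω) *
        Complex.exp (Complex.I * ((∑ i ∈ range N, h i * D.xs m ω i : ℝ) : ℂ)) *
        ⟪D.M.vac, actW D.M (D.xs m ω) f (r.map (LL.ev (D.X.lab ω))) z⟫_ℂ) P := by
  have h1 := ((D.L2_word m f hr (L2.const (P := P) z)).memLp_inner D.M.vac).integrable one_le_two
  have h2 : AEMeasurable (fun ω => ∑ i ∈ range N, h i * D.xs m ω i) P :=
    Finset.aemeasurable_fun_sum _ fun i _ =>
      (Lp.aestronglyMeasurable (D.X.S (m i))).aemeasurable.const_mul _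
  have h3 : Measurable fun x : ℝ => Complex.exp (Complex.I * (x : ℂ)) := by fun_prop
  refine h1.bdd_mul (c := C) ((hψ.comp D.X.mlab).aestronglyMeasurable.mul
    (h3.comp_aemeasurable h2).aestronglyMeasurable) (ae_of_all _ fun ω => ?_)
  rw [norm_mul, mul_comm Complex.I, Complex.norm_exp_ofReal_mul_I, mul_one]
  exact hC _

/-- Induction on `r` generalizing `a h ψ`. Empty word: `inner_vac_co`, `Data.char` for
`g = ∑ h i • m i`, `Bf N (gram m f) h h = ‖∑ h i • m i‖ ^ 2 + ‖∑ h i • f i‖ ^ 2`. Matrix letter: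
`mat_co`, new weights `ψ l * A l b a`. Letter `w j g`: `cg_co`; the phase
`exp (-i spin a g S (m j))` changes `h` into `h - Pi.single j (spin a * g)`. It is convenient to prove
integrability of both sides in the same induction (or boundedness and measurability first). -/
theorem DM.word_amp (m : ℕ → Lp ℝ 2 P) (f : ℕ → H) {N : ℕ} {r : List (LL Λ)}
    (hr : ∀ y ∈ r, y.OK N) (a : Bool) (h : ℕ → ℝ) {ψ : Λ → ℂ} (hψ : Measurable ψ) {C : ℝ}
    (hC : ∀ l, ‖ψ l‖ ≤ C) :
    ∫ ω, ψ (D.X.lab ω) *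
        Complex.exp (Complex.I * ((∑ i ∈ range N, h i * D.xs m ω i : ℝ) : ℂ)) *
        ⟪D.M.vac, actW D.M (D.xs m ω) f (r.map (LL.ev (D.X.lab ω)))
          (D.M.co a (∑ i ∈ range N, (h i : ℂ) • f i))⟫_ℂ ∂P =
      ∫ l, ψ l * ampl N (DM.gram m f) (r.map (LL.ev l)) a h ∂ν := by
  induction r generalizing a h ψ with
  | nil =>
    simp only [List.map_nil, actW, LinearMap.id_apply, ampl, inner_vac_co]
    rw [integral_mul_const, integral_mul_const]
    have e : ∫ ω, ψ (D.X.lab ω) *
        Complex.exp (Complex.I * ((∑ i ∈ range N, h i * D.xs m ω i : ℝ) : ℂ)) ∂P =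
        ∫ ω, ψ (D.X.lab ω) *
          Complex.exp (Complex.I * ((D.X.S (∑ i ∈ range N, h i • m i) ω : ℝ) : ℂ)) ∂P := by
      refine integral_congr_ae ?_
      filter_upwards [D.X.S_sum (range N) h m] with ω h1
      rw [h1]
      rfl
    rw [e, D.X.char hψ hC, MD_Bf, real_inner_self_eq_norm_sq, inner_self_eq_norm_sq_to_K,
      neg_add, add_div, Complex.exp_add]
    push_cast
    simp only [Complex.coe_algebraMap]
    ring
  | cons y r ih =>
    have hr' : ∀ y ∈ r, y.OK N := fun z hz => hr z (List.mem_cons_of_mem _ hz)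
    have hy := hr y List.mem_cons_self
    cases y with
    | m A =>
      have hb : ∀ b l, ‖ψ l * A l b a‖ ≤ C := fun b l => by
        rw [norm_mul]
        exact (mul_le_of_le_one_right (norm_nonneg _) ((hy.2 l).entry_le _ _)).trans (hC l)
      have hm : ∀ b, Measurable fun l => ψ l * A l b a := fun b => hψ.mul (hy.1 _ _)
      have e1 := ih hr' true h (hm true) (hb true)
      have e2 := ih hr' false h (hm false) (hb false)
      have e3 := congrArg₂ (· + ·) e1 e2
      rw [← integral_add (MD_intL D m f hr' h (hm true) (hb true) _)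
        (MD_intL D m f hr' h (hm false) (hb false) _),
        ← integral_add (MD_intR _ hr' true h (hm true) (hb true) D)
        (MD_intR _ hr' false h (hm false) (hb false) D)] at e3
      refine Eq.trans ?_ (e3.trans ?_)
      · refine integral_congr_ae (ae_of_all _ fun ω => ?_)
        simp only [List.map_cons, LL.ev, actW, act, LinearMap.comp_apply, D.M.mat_co,
          Fintype.sum_bool, map_add, map_smul, inner_add_right, inner_smul_right]
        ring
      · refine integral_congr_ae (ae_of_all _ fun l => ?_)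
        simp only [List.map_cons, LL.ev, ampl, Fintype.sum_bool]
        ring
    | w j g =>
      have hj : j < N := hy
      have e1 := ih hr' a (h - Pi.single j (spin a * g)) hψ hC
      have e2 := congrArg (fun u => Complex.exp (Complex.I *
        ((spin a * g * (⟪f j, ∑ i ∈ range N, (h i : ℂ) • f i⟫_ℂ).im : ℝ) : ℂ)) * u) e1
      rw [← integral_const_mul, ← integral_const_mul] at e2
      refine Eq.trans ?_ (e2.trans ?_)
      · refine integral_congr_ae (ae_of_all _ fun ω => ?_)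
        simp only [List.map_cons, LL.ev, actW, act, LinearMap.comp_apply, cg_co, map_smul,
          inner_smul_right]
        rw [MD_sub f hj, MD_subR _ hj]
        have e : ∀ s u v w : ℝ, Complex.exp (Complex.I * (u : ℂ)) *
            Complex.exp (Complex.I * ((s * (v - w) : ℝ) : ℂ)) =
            Complex.exp (Complex.I * ((s * v : ℝ) : ℂ)) *
              Complex.exp (Complex.I * ((u - s * w : ℝ) : ℂ)) := fun s u v w => by
          rw [← Complex.exp_add, ← Complex.exp_add]
          congr 1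
          push_cast
          ring
        linear_combination (ψ (D.X.lab ω) * ⟪D.M.vac, actW D.M (D.xs m ω) f
          (r.map (LL.ev (D.X.lab ω))) (D.M.co a (∑ i ∈ range N, (h i : ℂ) • f i -
            ((spin a * g : ℝ) : ℂ) • f j))⟫_ℂ) * e (spin a * g) (∑ i ∈ range N, h i * D.xs m ω i)
          (⟪f j, ∑ i ∈ range N, (h i : ℂ) • f i⟫_ℂ).im (D.xs m ω j)
      · refine integral_congr_ae (ae_of_all _ fun l => ?_)
        simp only [List.map_cons, LL.ev, ampl]
        rw [MD_im m f hj]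
        ring

/-- `gram_eq`, `inner_zw`, `actW_append`, `zw_lab`, `vac_eq`, `word_amp` with `h = 0`, `ψ = 1` -/
theorem DM.isGram (h : D.Cons γ V m f) : IsGram ν γ V (DM.gram m f) := by
  intro j k
  obtain ⟨r1, o1, e1⟩ := zw_lab γ h.ok (le_max_right j k)
  obtain ⟨r2, o2, e2⟩ := zw_lab γ h.ok (le_max_left j k)
  have o : ∀ y ∈ r1 ++ r2, y.OK (max j k) := fun y hy =>
    (List.mem_append.1 hy).elim (o1 y) (o2 y)
  have hb : ∀ l : Λ, ‖(fun _ : Λ => ((1 / √2 : ℝ) : ℂ)) l‖ ≤ ‖((1 / √2 : ℝ) : ℂ)‖ := fun _ => le_rfl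
  have e3 := congrArg₂ (· + ·) (D.word_amp m f o true 0 measurable_const hb)
    (D.word_amp m f o false 0 measurable_const hb)
  rw [← integral_add (MD_intL D m f o 0 measurable_const hb _)
    (MD_intL D m f o 0 measurable_const hb _),
    ← integral_add (MD_intR _ o true 0 measurable_const hb D)
    (MD_intR _ o false 0 measurable_const hb D)] at e3
  rw [D.gram_eq h]
  refine Eq.trans ?_ (e3.trans ?_)
  · refine integral_congr_ae (ae_of_all _ fun ω => ?_)
    have e4 : ⟪D.zv γ V m f j ω, D.zv γ V m f k ω⟫_ℂ = ⟪D.M.vac, actW D.M (D.xs m ω) f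
        ((r1 ++ r2).map (LL.ev (D.X.lab ω))) D.M.vac⟫_ℂ := by
      rw [List.map_append, ← e1, ← e2, actW_append, DM.zv, DM.zv, inner_zw]
      rfl
    simp only [Pi.zero_apply, zero_mul, Finset.sum_const_zero, Complex.ofReal_zero, mul_zero,
      Complex.exp_zero, mul_one, zero_smul]
    rw [e4]
    conv_lhs => arg 3; rw [vac_eq D.M]
    simp only [Fintype.sum_bool, map_add, map_smul, inner_add_right, inner_smul_right]
  · refine integral_congr_ae (ae_of_all _ fun l => ?_)
    simp only [vamp, Fintype.sum_bool, List.map_append, e1, e2]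

end

end Vale.Agent.P367
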