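import Vale.Agent.P367M.MC4
import Vale.Agent.P367M.MC2
import Vale.Agent.P367M.MB2

/-! Integration by parts on words. -/

set_option linter.all false

namespace Vale.Agent.P367

open MeasureTheory ProbabilityTheory Filter Topology Finset Vale.Agent.P146 Matrix
open scoped InnerProductSpace

noncomputable section

variable {Ω : Type} [MeasurableSpace Ω] {Λ : Type} [MeasurableSpace Λ] {ν : Measure Λ}
  {P : Measure Ω} [IsProbabilityMeasure P] {H K : Type} [NormedAddCommGroup H]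
  [InnerProductSpace ℂ H] [SeminormedAddCommGroup K] [InnerProductSpace ℂ K] (D : DM ν P H K)
  {γ : ℕ → ℝ} {V : ℕ → Λ → M2} {m : ℕ → Lp ℝ 2 P} {f : ℕ → H}

theorem sum_sub_single {E : Type} [AddCommGroup E] [Module ℂ E] {N j : ℕ} (hj : j < N)
    (h : ℕ → ℝ) (t : ℝ) (v : ℕ → E) :
    ∑ i ∈ range N, (((h - Pi.single j t : ℕ → ℝ) i : ℝ) : ℂ) • v i =
      ∑ i ∈ range N, (h i : ℂ) • v i - (t : ℂ) • v j := by
  have e : ∀ i, (((h - Pi.single j t : ℕ → ℝ) i : ℝ) : ℂ) • v i =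
      (h i : ℂ) • v i - (if i = j then (t : ℂ) • v i else 0) := by
    intro i
    by_cases hij : i = j
    · subst hij; simp [sub_smul]
    · simp [hij]
  simp only [e, Finset.sum_sub_distrib, Finset.sum_ite_eq', Finset.mem_range, hj, if_true]

theorem sum_sub_single_r {N j : ℕ} (hj : j < N) (h : ℕ → ℝ) (t : ℝ) (v : ℕ → ℝ) :
    ∑ i ∈ range N, (h - Pi.single j t : ℕ → ℝ) i * v i = ∑ i ∈ range N, h i * v i - t * v j := by
  have e : ∀ i, (h - Pi.single j t : ℕ → ℝ) i * v i =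
      h i * v i - (if i = j then t * v i else 0) := by
    intro i
    by_cases hij : i = j
    · subst hij; simp [sub_mul]
    · simp [hij]
  simp only [e, Finset.sum_sub_distrib, Finset.sum_ite_eq', Finset.mem_range, hj, if_true]

theorem DM.lam_int1 (u : Lp ℝ 2 P) (b : H) {Φ : Ω → K} (h : L2 P Φ) :
    Integrable (fun ω => ((D.X.S u ω : ℝ) : ℂ) * ⟪D.M.vac, Φ ω⟫_ℂ +
      ⟪D.M.vac, D.M.ann b (Φ ω)⟫_ℂ) P := by
  refine Integrable.add ?_ ?_
  · exact MemLp.integrable_mul (Lp.memLp (D.X.S u)).ofReal (h.memLp_inner D.M.vac)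
  · let T : K →ₗ[ℂ] ℂ := (innerₛₗ ℂ D.M.vac) ∘ₗ D.M.ann b
    have hT : ∀ y, ‖T y‖ ≤ ‖b‖ * ‖y‖ := fun y => ann_bound D.M b y
    have hc : Continuous T := (T.mkContinuous _ hT).continuous
    refine Integrable.mono' ((h.2.integrable (by norm_num)).const_mul ‖b‖)
      (hc.comp_aestronglyMeasurable h.1) (Eventually.of_forall fun ω => hT _)

theorem DM.lam_add1 (u : Lp ℝ 2 P) (b : H) {Φ Ψ : Ω → K} (h : L2 P Φ) (h' : L2 P Ψ) :
    D.Lam u b (fun ω => Φ ω + Ψ ω) = D.Lam u b Φ + D.Lam u b Ψ := by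
  unfold DM.Lam
  rw [← integral_add (D.lam_int1 u b h) (D.lam_int1 u b h')]
  refine integral_congr_ae (Eventually.of_forall fun ω => ?_)
  simp only [inner_add_right, map_add]
  ring

theorem DM.meas_ph (m : ℕ → Lp ℝ 2 P) (N : ℕ) (h : ℕ → ℝ) {ψ : Λ → ℂ} (hψ : Measurable ψ) :
    AEStronglyMeasurable (fun ω => ψ (D.X.lab ω) *
      Complex.exp (Complex.I * ((∑ i ∈ range N, h i * D.xs m ω i : ℝ) : ℂ))) P := by
  refine (hψ.comp D.X.mlab).aestronglyMeasurable.mul ?_
  refine (Complex.continuous_exp.comp_aestronglyMeasurable (AEStronglyMeasurable.const_mul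
    (Complex.continuous_ofReal.comp_aestronglyMeasurable ?_) _))
  refine Finset.aestronglyMeasurable_fun_sum _ fun i _ => ?_
  exact (Lp.aestronglyMeasurable (D.X.S (m i))).const_mul _

theorem DM.norm_ph (m : ℕ → Lp ℝ 2 P) (N : ℕ) (h : ℕ → ℝ) {ψ : Λ → ℂ} {C : ℝ}
    (hC : ∀ l, ‖ψ l‖ ≤ C) (ω : Ω) : ‖ψ (D.X.lab ω) *
      Complex.exp (Complex.I * ((∑ i ∈ range N, h i * D.xs m ω i : ℝ) : ℂ))‖ ≤ C := by
  rw [norm_mul, mul_comm Complex.I, Complex.norm_exp_ofReal_mul_I, mul_one]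
  exact hC _

theorem DM.rhs_int (m : ℕ → Lp ℝ 2 P) (f : ℕ → H) (c : ℕ → ℂ) (k : ℂ) {N : ℕ}
    {r : List (LL Λ)} (hr : ∀ y ∈ r, y.OK N) (y : K) (h : ℕ → ℝ) {ψ : Λ → ℂ}
    (hψ : Measurable ψ) {C : ℝ} (hC : ∀ l, ‖ψ l‖ ≤ C) :
    Integrable (fun ω => ψ (D.X.lab ω) *
        Complex.exp (Complex.I * ((∑ i ∈ range N, h i * D.xs m ω i : ℝ) : ℂ)) *
        (k * ⟪D.M.vac, actW D.M (D.xs m ω) f (r.map (LL.ev (D.X.lab ω))) y⟫_ℂ +
        ⟪D.M.vac, dW D.M (D.xs m ω) f c (r.map (LL.ev (D.X.lab ω))) y⟫_ℂ)) P := by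
  refine Integrable.bdd_mul (c := C) ?_ (D.meas_ph m N h hψ)
    (Eventually.of_forall (D.norm_ph m N h hC))
  refine Integrable.add (Integrable.const_mul ?_ _) ?_
  · exact ((D.L2_word m f hr (L2.const y)).memLp_inner _).integrable (by norm_num)
  · exact ((D.L2_dW m f c hr (L2.const y)).memLp_inner _).integrable (by norm_num)

theorem DM.word_lam_nil (m : ℕ → Lp ℝ 2 P) (u : Lp ℝ 2 P) (N : ℕ) (h : ℕ → ℝ) {ψ : Λ → ℂ}
    (hψ : Measurable ψ) {C : ℝ} (hC : ∀ l, ‖ψ l‖ ≤ C) :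
    ∫ ω, ((D.X.S u ω : ℝ) : ℂ) * (ψ (D.X.lab ω) *
        Complex.exp (Complex.I * ((∑ i ∈ range N, h i * D.xs m ω i : ℝ) : ℂ))) ∂P =
      Complex.I * (∑ i ∈ range N, (h i : ℂ) * ((⟪u, m i⟫_ℝ : ℝ) : ℂ)) *
        ∫ ω, ψ (D.X.lab ω) *
          Complex.exp (Complex.I * ((∑ i ∈ range N, h i * D.xs m ω i : ℝ) : ℂ)) ∂P := by
  have e := D.X.S_sum (range N) h m
  have h1 := D.X.ibp hψ hC u (∑ i ∈ range N, h i • m i)
  have h2 := D.X.char hψ hC (∑ i ∈ range N, h i • m i)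
  have e1 : ∫ ω, ((D.X.S u ω : ℝ) : ℂ) * (ψ (D.X.lab ω) *
        Complex.exp (Complex.I * ((∑ i ∈ range N, h i * D.xs m ω i : ℝ) : ℂ))) ∂P =
      ∫ ω, ψ (D.X.lab ω) * ((D.X.S u ω : ℝ) : ℂ) *
        Complex.exp (Complex.I * ((D.X.S (∑ i ∈ range N, h i • m i) ω : ℝ) : ℂ)) ∂P := by
    refine integral_congr_ae ?_
    filter_upwards [e] with ω hω
    rw [hω]; simp only [DM.xs]; ring
  have e2 : ∫ ω, ψ (D.X.lab ω) *
        Complex.exp (Complex.I * ((∑ i ∈ range N, h i * D.xs m ω i : ℝ) : ℂ)) ∂P =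
      ∫ ω, ψ (D.X.lab ω) *
        Complex.exp (Complex.I * ((D.X.S (∑ i ∈ range N, h i • m i) ω : ℝ) : ℂ)) ∂P := by
    refine integral_congr_ae ?_
    filter_upwards [e] with ω hω
    rw [hω]; simp only [DM.xs]
  rw [e1, e2, h1, h2, inner_sum]
  simp only [real_inner_smul_right]
  push_cast
  ring

/-- Induction on `r` generalizing `a h ψ`, as for `word_amp`. Empty word: `inner_vac_co`,
`ann_co`, `Data.ibp`, `Data.char`. In the step `w j g` the term `∑ h i * c i` decreases by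
`spin a * g * c j`, which is compensated by the last term of `dW` (`PZ` acts on `co a` by `spin a`). -/
theorem DM.word_lam (m : ℕ → Lp ℝ 2 P) (f : ℕ → H) (u : Lp ℝ 2 P) (b : H) {N : ℕ}
    {r : List (LL Λ)} (hr : ∀ y ∈ r, y.OK N) (a : Bool) (h : ℕ → ℝ) {ψ : Λ → ℂ}
    (hψ : Measurable ψ) {C : ℝ} (hC : ∀ l, ‖ψ l‖ ≤ C) :
    D.Lam u b (fun ω => (ψ (D.X.lab ω) *
        Complex.exp (Complex.I * ((∑ i ∈ range N, h i * D.xs m ω i : ℝ) : ℂ))) •
        actW D.M (D.xs m ω) f (r.map (LL.ev (D.X.lab ω)))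
          (D.M.co a (∑ i ∈ range N, (h i : ℂ) • f i))) =
      ∫ ω, ψ (D.X.lab ω) *
        Complex.exp (Complex.I * ((∑ i ∈ range N, h i * D.xs m ω i : ℝ) : ℂ)) *
        (Complex.I * (∑ i ∈ range N, (h i : ℂ) * (((⟪u, m i⟫_ℝ : ℝ) : ℂ) + ⟪b, f i⟫_ℂ)) *
          ⟪D.M.vac, actW D.M (D.xs m ω) f (r.map (LL.ev (D.X.lab ω)))
            (D.M.co a (∑ i ∈ range N, (h i : ℂ) • f i))⟫_ℂ +
        ⟪D.M.vac, dW D.M (D.xs m ω) f (fun i => ((⟪u, m i⟫_ℝ : ℝ) : ℂ) + ⟪b, f i⟫_ℂ)
          (r.map (LL.ev (D.X.lab ω))) (D.M.co a (∑ i ∈ range N, (h i : ℂ) • f i))⟫_ℂ) ∂P := by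
  induction r generalizing a h ψ C with
  | nil =>
    simp only [List.map_nil, actW, dW, LinearMap.id_apply, LinearMap.zero_apply, inner_zero_right,
      add_zero]
    unfold DM.Lam
    set y := ∑ i ∈ range N, (h i : ℂ) • f i with hy
    set k := ⟪D.M.vac, D.M.co a y⟫_ℂ with hk
    have hb : ⟪b, y⟫_ℂ = ∑ i ∈ range N, (h i : ℂ) * ⟪b, f i⟫_ℂ := by
      rw [hy, inner_sum]; simp only [inner_smul_right]
    have i0 : Integrable (fun ω => ψ (D.X.lab ω) *
        Complex.exp (Complex.I * ((∑ i ∈ range N, h i * D.xs m ω i : ℝ) : ℂ))) P :=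
      Integrable.of_bound (D.meas_ph m N h hψ) C (Eventually.of_forall (D.norm_ph m N h hC))
    have i1 : Integrable (fun ω => ((D.X.S u ω : ℝ) : ℂ) * (ψ (D.X.lab ω) *
        Complex.exp (Complex.I * ((∑ i ∈ range N, h i * D.xs m ω i : ℝ) : ℂ)))) P :=
      Integrable.mul_bdd (c := C) ((Lp.memLp (D.X.S u)).ofReal.integrable (by norm_num))
        (D.meas_ph m N h hψ) (Eventually.of_forall (D.norm_ph m N h hC))
    have e : ∀ ω, ((D.X.S u ω : ℝ) : ℂ) * ⟪D.M.vac, (ψ (D.X.lab ω) *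
        Complex.exp (Complex.I * ((∑ i ∈ range N, h i * D.xs m ω i : ℝ) : ℂ))) • D.M.co a y⟫_ℂ +
        ⟪D.M.vac, D.M.ann b ((ψ (D.X.lab ω) *
        Complex.exp (Complex.I * ((∑ i ∈ range N, h i * D.xs m ω i : ℝ) : ℂ))) • D.M.co a y)⟫_ℂ =
        ((D.X.S u ω : ℝ) : ℂ) * (ψ (D.X.lab ω) *
        Complex.exp (Complex.I * ((∑ i ∈ range N, h i * D.xs m ω i : ℝ) : ℂ))) * k +
        (ψ (D.X.lab ω) *
        Complex.exp (Complex.I * ((∑ i ∈ range N, h i * D.xs m ω i : ℝ) : ℂ))) *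
          (Complex.I * ⟪b, y⟫_ℂ * k) := by
      intro ω
      rw [map_smul, D.M.ann_co, inner_smul_right, inner_smul_right, inner_smul_right]
      ring
    simp only [e]
    rw [integral_add (i1.mul_const _) (i0.mul_const _), integral_mul_const, integral_mul_const,
      integral_mul_const, D.word_lam_nil m u N h hψ hC, hb]
    simp only [mul_add, Finset.sum_add_distrib]
    ring
  | cons y r ih =>
    have hr' : ∀ y ∈ r, y.OK N := fun z hz => hr z (List.mem_cons_of_mem _ hz)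
    have hy := hr y List.mem_cons_self
    cases y with
    | m A =>
      have hA : GOK A := hy
      have hm : ∀ c, Measurable fun l => ψ l * A l c a := fun c => hψ.mul (hA.1 c a)
      have hb : ∀ c l, ‖ψ l * A l c a‖ ≤ C := fun c l => by
        rw [norm_mul]
        calc ‖ψ l‖ * ‖A l c a‖ ≤ ‖ψ l‖ * 1 :=
              mul_le_mul_of_nonneg_left (Uni.entry_le (hA.2 l) c a) (norm_nonneg _)
          _ ≤ C := by rw [mul_one]; exact hC l
      have l2 : ∀ c, L2 P (fun ω => (ψ (D.X.lab ω) * A (D.X.lab ω) c a *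
          Complex.exp (Complex.I * ((∑ i ∈ range N, h i * D.xs m ω i : ℝ) : ℂ))) •
          actW D.M (D.xs m ω) f (r.map (LL.ev (D.X.lab ω)))
            (D.M.co c (∑ i ∈ range N, (h i : ℂ) • f i))) := fun c =>
        (D.L2_word m f hr' (L2.const _)).smul (D.meas_ph m N h (hm c)) (D.norm_ph m N h (hb c))
      have e1 := D.lam_add1 u b (l2 true) (l2 false)
      rw [ih hr' true h (hm true) (hb true), ih hr' false h (hm false) (hb false),
        ← integral_add (D.rhs_int m f _ _ hr' _ h (hm true) (hb true))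
          (D.rhs_int m f _ _ hr' _ h (hm false) (hb false))] at e1
      refine Eq.trans (congrArg (D.Lam u b) (funext fun ω => ?_)) (e1.trans ?_)
      · simp only [List.map_cons, LL.ev, actW, act, LinearMap.comp_apply, D.M.mat_co,
          Fintype.sum_bool, map_add, map_smul, smul_add, smul_smul]
        congr 2 <;> ring
      · refine integral_congr_ae (Eventually.of_forall fun ω => ?_)
        simp only [List.map_cons, LL.ev, actW, act, dW, LinearMap.comp_apply, D.M.mat_co,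
          Fintype.sum_bool, map_add, map_smul, inner_add_right, inner_smul_right]
        ring
    | w j g =>
      have hj : j < N := hy
      set y := ∑ i ∈ range N, (h i : ℂ) • f i with hy0
      let k : ℂ := Complex.exp (Complex.I * ((spin a * g * (⟪f j, y⟫_ℂ).im : ℝ) : ℂ))
      have hm : Measurable fun l => ψ l * k := hψ.mul_const _
      have hb : ∀ l, ‖ψ l * k‖ ≤ C := fun l => by
        simp only [k]
        rw [norm_mul, mul_comm Complex.I, Complex.norm_exp_ofReal_mul_I, mul_one]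
        exact hC l
      have e1 := ih hr' a (h - Pi.single j (spin a * g)) hm hb
      rw [sum_sub_single hj, ← hy0] at e1
      have e2 := sum_sub_single (E := ℂ) hj h (spin a * g)
        fun i => ((⟪u, m i⟫_ℝ : ℝ) : ℂ) + ⟪b, f i⟫_ℂ
      simp only [smul_eq_mul] at e2
      rw [e2] at e1
      simp only [sum_sub_single_r hj] at e1
      have e3 : ∀ ω, k * Complex.exp (Complex.I * ((∑ i ∈ range N, h i * D.xs m ω i -
          spin a * g * D.xs m ω j : ℝ) : ℂ)) =
          Complex.exp (Complex.I * ((∑ i ∈ range N, h i * D.xs m ω i : ℝ) : ℂ)) *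
          Complex.exp (Complex.I * ((spin a * g * ((⟪f j, y⟫_ℂ).im - D.xs m ω j) : ℝ) : ℂ)) := by
        intro ω
        simp only [k]
        rw [← Complex.exp_add, ← Complex.exp_add]
        congr 1
        push_cast
        ring
      refine Eq.trans (congrArg (D.Lam u b) (funext fun ω => ?_)) (e1.trans ?_)
      · simp only [List.map_cons, LL.ev, actW, act, LinearMap.comp_apply, cg_co, map_smul,
          smul_smul]
        rw [mul_assoc (ψ _) k, e3, mul_assoc (ψ _)]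
      · refine integral_congr_ae (Eventually.of_forall fun ω => ?_)
        simp only [List.map_cons, LL.ev, actW, act, dW, LinearMap.comp_apply, LinearMap.add_apply,
          LinearMap.smul_apply, PZ, mat_diag_co, cg_co, map_smul, inner_add_right,
          inner_smul_right]
        rw [mul_assoc (ψ _) k, e3]
        push_cast
        ring

end

end Vale.Agent.P367
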