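import Vale.Agent.P367M.ME1

/-! The Onsager identity and the energy. -/

set_option linter.all false

namespace Vale.Agent.P367

open MeasureTheory ProbabilityTheory Filter Topology Finset Vale.Agent.P146 Matrix
open scoped InnerProductSpace

noncomputable section

variable {Ω : Type} [MeasurableSpace Ω] {Λ : Type} [MeasurableSpace Λ] {ν : Measure Λ}
  {P : Measure Ω} [IsProbabilityMeasure P] {H K : Type} [NormedAddCommGroup H]
  [InnerProductSpace ℂ H] [SeminormedAddCommGroup K] [InnerProductSpace ℂ K] (D : DM ν P H K)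
  {γ : ℕ → ℝ} {V : ℕ → Λ → M2} {m : ℕ → Lp ℝ 2 P} {f : ℕ → H}

theorem ME2_cs {F G : Ω → ℝ} (hF : MemLp F 2 P) (hG : MemLp G 2 P) :
    ∫ ω, F ω * G ω ∂P ≤ √(∫ ω, F ω ^ 2 ∂P) * √(∫ ω, G ω ^ 2 ∂P) := by
  have h := real_inner_le_norm (toL P F) (toL P G)
  rw [norm_eq_sqrt_real_inner, norm_eq_sqrt_real_inner, inner_toL hF hG, inner_toL hF hF,
    inner_toL hG hG] at h
  simpa only [sq] using h

theorem ME2_inner (v w : Lp ℝ 2 P) : ⟪v, w⟫_ℝ = ∫ ω, v ω * w ω ∂P := by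
  rw [MeasureTheory.L2.inner_def]
  refine integral_congr_ae (ae_of_all _ fun ω => ?_)
  simp [mul_comm]

theorem DM.ME2_int1 (u : Lp ℝ 2 P) {Φ : Ω → K} (h : L2 P Φ) :
    Integrable (fun ω => ((D.X.S u ω : ℝ) : ℂ) * ⟪D.M.vac, Φ ω⟫_ℂ) P := by
  refine ((L2.smul_const (Lp.memLp (D.X.S u)) D.M.vac).integrable_inner h).congr
    (ae_of_all _ fun ω => ?_)
  simp only [inner_smul_left, Complex.conj_ofReal]

theorem DM.ME2_int2 (b : H) {Φ : Ω → K} (h : L2 P Φ) :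
    Integrable (fun ω => ⟪D.M.vac, D.M.ann b (Φ ω)⟫_ℂ) P := by
  have hc : Continuous fun y => ⟪D.M.vac, D.M.ann b y⟫_ℂ :=
    AddMonoidHomClass.continuous_of_bound (innerₛₗ ℂ D.M.vac ∘ₗ D.M.ann b) ‖b‖ (ann_bound D.M b)
  exact ((h.2.integrable one_le_two).const_mul ‖b‖).mono' (hc.comp_aestronglyMeasurable h.1)
    (ae_of_all _ fun ω => ann_bound D.M b _)

theorem DM.lam_integrable (u : Lp ℝ 2 P) (b : H) {Φ : Ω → K} (h : L2 P Φ) :
    Integrable (fun ω => ((D.X.S u ω : ℝ) : ℂ) * ⟪D.M.vac, Φ ω⟫_ℂ +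
      ⟪D.M.vac, D.M.ann b (Φ ω)⟫_ℂ) P := by
  exact (D.ME2_int1 u h).add (D.ME2_int2 b h)

theorem DM.lam_add (u : Lp ℝ 2 P) (b : H) {Φ Ψ : Ω → K} (h : L2 P Φ) (h' : L2 P Ψ) :
    D.Lam u b (fun ω => Φ ω + Ψ ω) = D.Lam u b Φ + D.Lam u b Ψ := by
  rw [DM.Lam, DM.Lam, DM.Lam, ← integral_add (D.lam_integrable u b h) (D.lam_integrable u b h')]
  refine integral_congr_ae (ae_of_all _ fun ω => ?_)
  simp only [map_add, inner_add_right]
  ring

/-- Cauchy Schwarz, `ann_bound` -/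
theorem DM.lam_bound (u : Lp ℝ 2 P) (b : H) {Φ : Ω → K} (h : L2 P Φ) :
    ‖D.Lam u b Φ‖ ≤ (‖u‖ + ‖b‖) * √(∫ ω, ‖Φ ω‖ ^ 2 ∂P) := by
  have h1 : MemLp (fun ω => |D.X.S u ω|) 2 P := (Lp.memLp (D.X.S u)).abs
  have h2 := ME2_cs h1 h.2
  have h3 := ME2_cs (memLp_const (1 : ℝ)) h.2
  have h4 : √(∫ ω, |D.X.S u ω| ^ 2 ∂P) = ‖u‖ := by
    rw [← D.X.S.norm_map u, norm_eq_sqrt_real_inner, ME2_inner]
    simp only [sq_abs]
    simp only [sq]
  have i1 : Integrable (fun ω => |D.X.S u ω| * ‖Φ ω‖) P := h1.integrable_mul h.2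
  have i2 : Integrable (fun ω => ‖b‖ * ‖Φ ω‖) P := (h.2.integrable one_le_two).const_mul _
  rw [h4] at h2
  simp only [one_mul, one_pow, integral_const, probReal_univ, smul_eq_mul, mul_one,
    Real.sqrt_one] at h3
  refine (norm_integral_le_of_norm_le (i1.add i2) (ae_of_all _ fun ω => ?_)).trans ?_
  · refine (norm_add_le _ _).trans (add_le_add ?_ (ann_bound D.M b _))
    rw [norm_mul, Complex.norm_real, Real.norm_eq_abs]
    refine mul_le_mul_of_nonneg_left ?_ (abs_nonneg _)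
    have := norm_inner_le_norm (𝕜 := ℂ) D.M.vac (Φ ω)
    rwa [norm_vac, one_mul] at this
  · have h5 := mul_le_mul_of_nonneg_left h3 (norm_nonneg b)
    simp only [Pi.add_apply]
    rw [integral_add i1 i2, integral_const_mul, add_mul]
    exact add_le_add h2 h5

/-- `ann_vac` -/
theorem DM.lam_vac (u g : Lp ℝ 2 P) (b : H) :
    D.Lam u b (fun ω => ((g ω : ℝ) : ℂ) • D.M.vac) = ((⟪u, D.X.Sa g⟫_ℝ : ℝ) : ℂ) := by
  rw [DM.Lam, Data.Sa, ContinuousLinearMap.adjoint_inner_right, ME2_inner, ← integral_complex_ofReal]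
  refine integral_congr_ae (ae_of_all _ fun ω => ?_)
  simp only [map_smul, ann_vac, smul_zero, inner_zero_right, add_zero, inner_smul_right,
    inner_vac_vac, mul_one, Complex.ofReal_mul, LinearIsometry.coe_toContinuousLinearMap]

/-- `word_lam` with `h = 0`, `ψ` the indicator of `A`, `zw_lab`, `vac_eq`, `inner_dW_zw`, `im_fA` -/
theorem DM.ident (h : D.Cons γ V m f) (p : ℕ) {A : Set Λ} (hA : MeasurableSet A)
    (u : Lp ℝ 2 P) (b : H) :
    D.Lam u b (D.rs A (D.zv γ V m f p)) = ∑ j ∈ range p,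
      ((γ j * (2 * (⟪D.fA A (D.zv γ V m f p), f j⟫_ℂ).im) : ℝ) : ℂ) *
        (((⟪u, m j⟫_ℝ : ℝ) : ℂ) + ⟪b, f j⟫_ℂ) := by
  classical
  obtain ⟨r, hr, e⟩ := zw_lab γ h.ok (le_refl p)
  set c : ℕ → ℂ := fun i => ((⟪u, m i⟫_ℝ : ℝ) : ℂ) + ⟪b, f i⟫_ℂ with hc
  let ψ : Λ → ℂ := A.indicator fun _ => ((1 / √2 : ℝ) : ℂ)
  have hψ : Measurable ψ := measurable_const.indicator hA
  have hC : ∀ l, ‖ψ l‖ ≤ ‖((1 / √2 : ℝ) : ℂ)‖ := fun l => norm_indicator_le_norm_self _ _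
  have hm : AEStronglyMeasurable (fun ω => ψ (D.X.lab ω)) P :=
    (hψ.comp D.X.mlab).aestronglyMeasurable
  have h1 : ∀ a, D.Lam u b (fun ω => ψ (D.X.lab ω) •
      actW D.M (D.xs m ω) f (r.map (LL.ev (D.X.lab ω))) (D.M.co a 0)) =
      ∫ ω, ⟪D.M.vac, ψ (D.X.lab ω) •
        dW D.M (D.xs m ω) f c (r.map (LL.ev (D.X.lab ω))) (D.M.co a 0)⟫_ℂ ∂P := fun a => by
    have := D.word_lam m f u b hr a 0 hψ hC
    simpa only [Pi.zero_apply, zero_mul, Finset.sum_const_zero, Complex.ofReal_zero, mul_zero,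
      Complex.exp_zero, mul_one, zero_smul, zero_add, inner_smul_right] using this
  have l1 : ∀ a, L2 P fun ω => ψ (D.X.lab ω) •
      actW D.M (D.xs m ω) f (r.map (LL.ev (D.X.lab ω))) (D.M.co a 0) := fun a =>
    (D.L2_word m f hr (L2.const _)).smul hm fun ω => hC _
  have l2 : ∀ a, Integrable (fun ω => ⟪D.M.vac, ψ (D.X.lab ω) •
      dW D.M (D.xs m ω) f c (r.map (LL.ev (D.X.lab ω))) (D.M.co a 0)⟫_ℂ) P := fun a =>
    (L2.const _).integrable_inner ((D.L2_dW m f c hr (L2.const _)).smul hm fun ω => hC _)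
  have e' : ∀ ω, r.map (LL.ev (D.X.lab ω)) = zw γ (D.gt V ω) p := fun ω => (e _).symm
  have h2 : D.rs A (D.zv γ V m f p) = fun ω => ψ (D.X.lab ω) •
      actW D.M (D.xs m ω) f (r.map (LL.ev (D.X.lab ω))) (D.M.co true 0) + ψ (D.X.lab ω) •
      actW D.M (D.xs m ω) f (r.map (LL.ev (D.X.lab ω))) (D.M.co false 0) := by
    funext ω
    rw [e', DM.rs]
    split_ifs with hω
    · rw [show ψ (D.X.lab ω) = _ from Set.indicator_of_mem hω _, DM.zv, vac_eq,
        Fintype.sum_bool, map_add, map_smul, map_smul]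
    · rw [show ψ (D.X.lab ω) = _ from Set.indicator_of_notMem hω _, zero_smul, zero_smul, add_zero]
  have i1 : ∀ j, Integrable (D.rs A fun ω => (⟪D.zv γ V m f p ω, D.zv γ V m f j ω⟫_ℂ).im) P :=
    fun j => by
      rw [D.rs_eq]
      exact ((D.L2_zv h.ok p).integrable_inner (D.L2_zv h.ok j)).im.indicator (D.X.mlab hA)
  have h3 : ∀ j, ((γ j * (2 * (⟪D.fA A (D.zv γ V m f p), f j⟫_ℂ).im) : ℝ) : ℂ) * c j =
      ∫ ω, 2 * γ j * c j *
        ((D.rs A (fun ω => (⟪D.zv γ V m f p ω, D.zv γ V m f j ω⟫_ℂ).im) ω : ℝ) : ℂ) ∂P := fun j => by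
    rw [integral_const_mul, integral_complex_ofReal, ← D.im_fA h p j hA]
    push_cast
    ring
  rw [h2, D.lam_add u b (l1 true) (l1 false), h1, h1, ← integral_add (l2 true) (l2 false),
    Finset.sum_congr rfl fun j _ => h3 j,
    ← integral_finsetSum _ fun j _ => (i1 j).ofReal.const_mul _]
  refine integral_congr_ae (ae_of_all _ fun ω => ?_)
  simp only [e', DM.rs]
  split_ifs with hω
  · have h4 := inner_dW_zw D.M (D.xs m ω) f c γ (D.uni_gt h.ok ω) p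
    rw [show ψ (D.X.lab ω) = _ from Set.indicator_of_mem hω _, ← inner_add_right, ← map_smul,
      ← map_smul, ← map_add]
    refine Eq.trans ?_ h4
    congr 2
    rw [vac_eq, Fintype.sum_bool]
  · rw [show ψ (D.X.lab ω) = _ from Set.indicator_of_notMem hω _]
    simp

end

end Vale.Agent.P367
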