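import Vale.Agent.P367M.ME2

/-! The Onsager identity and the energy. -/

set_option linter.all false

namespace Vale.Agent.P367

open MeasureTheory ProbabilityTheory Filter Topology Finset Vale.Agent.P146 Matrix
open scoped InnerProductSpace

noncomputable section

variable {Ω : Type} [MeasurableSpace Ω] {Λ : Type} [MeasurableSpace Λ] {ν : Measure Λ}
  {P : Measure Ω} [IsProbabilityMeasure P] {H K : Type} [NormedAddCommGroup H]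
  [InnerProductSpace ℂ H] [SeminormedAddCommGroup K] [InnerProductSpace ℂ K] (D : DM ν P H K)
  {γ : ℕ → ℝ} {V : ℕ → Λ → M2} {m : ℕ → Lp ℝ 2 P} {f : ℕ → H}

theorem ME3_sum (s : Finset ℕ) (θ : ℕ → ℝ) (m : ℕ → Lp ℝ 2 P) :
    ((∑ i ∈ s, θ i • m i : Lp ℝ 2 P) : Ω → ℝ) =ᵐ[P] fun ω => ∑ i ∈ s, θ i * m i ω := by
  classical
  induction s using Finset.induction_on with
  | empty =>
    simp only [Finset.sum_empty]
    exact Lp.coeFn_zero ℝ 2 P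
  | insert j s hj ih =>
    simp only [Finset.sum_insert hj]
    filter_upwards [Lp.coeFn_add (θ j • m j) (∑ i ∈ s, θ i • m i),
      Lp.coeFn_smul (θ j) (m j), ih] with ω h1 h2 h3
    rw [h1, Pi.add_apply, h2, h3, Pi.smul_apply, smul_eq_mul]

theorem ME3_sq (u : Lp ℝ 2 P) : ‖u‖ ^ 2 = ∫ ω, u ω ^ 2 ∂P := by
  rw [← real_inner_self_eq_norm_sq, MeasureTheory.L2.inner_def]
  refine integral_congr_ae (ae_of_all _ fun ω => ?_)
  simp only [RCLike.inner_apply, conj_trivial, sq]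

theorem ME3_pyth (a : ℝ) (w : K) (hw : ⟪D.M.vac, w⟫_ℂ = 0) :
    ‖(a : ℂ) • D.M.vac + w‖ ^ 2 = a ^ 2 + ‖w‖ ^ 2 := by
  rw [norm_add_sq (𝕜 := ℂ), inner_smul_left, hw, norm_smul, norm_vac, Complex.norm_real]
  simp

theorem ME3_pp (p : ℕ) (ω : Ω) : ⟪D.M.vac, D.pp (D.zv γ V m f p) ω⟫_ℂ = 0 := by
  rw [DM.pp, inner_sub_right, inner_smul_right, inner_vac_vac, D.inner_vac_zv, mul_one, sub_self]

theorem ME3_lhs (h : D.Cons γ V m f) (p : ℕ) (θ : ℕ → ℝ) (g : Lp ℝ 2 P) :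
    ∫ ω, ‖∑ j ∈ range p, ((θ j : ℝ) : ℂ) • D.zv γ V m f j ω - ((g ω : ℝ) : ℂ) • D.M.vac‖ ^ 2 ∂P =
      ‖∑ j ∈ range p, θ j • m j - g‖ ^ 2 + ‖∑ j ∈ range p, ((θ j : ℝ) : ℂ) • f j‖ ^ 2 := by
  have hz : ∀ j, L2 P (D.zv γ V m f j) := fun j => D.L2_zv h.ok j
  have hp : ∀ j, L2 P fun ω => ((θ j : ℝ) : ℂ) • D.pp (D.zv γ V m f j) ω := fun j =>
    (D.L2_pp (hz j)).smul (c := fun _ => ((θ j : ℝ) : ℂ)) aestronglyMeasurable_const
      fun _ => le_rfl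
  have hw : L2 P fun ω => ∑ j ∈ range p, ((θ j : ℝ) : ℂ) • D.pp (D.zv γ V m f j) ω :=
    L2.sum _ fun j _ => hp j
  have e1 : ∑ j ∈ range p, ((θ j : ℝ) : ℂ) • f j =
      D.J fun ω => ∑ j ∈ range p, ((θ j : ℝ) : ℂ) • D.pp (D.zv γ V m f j) ω := by
    rw [D.J_sum _ fun j _ => hp j]
    refine Finset.sum_congr rfl fun j _ => ?_
    rw [D.J_smul (D.L2_pp (hz j)), ← h.hf j]
  have hm : ∀ᵐ ω ∂P, ∀ j, m j ω = D.mg (D.zv γ V m f j) ω := by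
    rw [ae_all_iff]
    intro j
    have e := toL_ae (D.memLp_mg (hz j))
    rw [← h.hm j] at e
    exact e
  rw [e1, D.norm_J_sq hw, ME3_sq, ← integral_add (Lp.memLp _).integrable_sq hw.integrable_sq]
  refine integral_congr_ae ?_
  filter_upwards [hm, Lp.coeFn_sub (∑ j ∈ range p, θ j • m j) g, ME3_sum (range p) θ m]
    with ω h1 h2 h3
  have e2 : ⟪D.M.vac, ∑ j ∈ range p, ((θ j : ℝ) : ℂ) • D.pp (D.zv γ V m f j) ω⟫_ℂ = 0 := by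
    rw [inner_sum]
    refine Finset.sum_eq_zero fun j _ => ?_
    rw [inner_smul_right, ME3_pp, mul_zero]
  rw [← ME3_pyth D _ _ e2, h2, Pi.sub_apply, h3]
  congr 2
  simp only [DM.pp, h1, smul_sub, Finset.sum_sub_distrib, smul_smul]
  push_cast
  rw [sub_smul, Finset.sum_smul]
  abel

theorem ME3_msg {A : Set Λ} (hA : MeasurableSet A) {F : Ω → Bool} (hF : Measurable F) :
    ∀ᵐ ω ∂P, (D.X.msg A F : Ω → ℝ) ω = D.rs A (fun ω => spin (F ω)) ω :=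
  toL_ae (D.X.memLp_msg hA hF)

theorem ME3_key (h : D.Cons γ V m f) (p : ℕ) {A : Set Λ} (hA : MeasurableSet A)
    {F : Ω → Bool} (hF : Measurable F) (u : Lp ℝ 2 P) (b : H) :
    ‖D.Lam u b (D.rs A (D.zv γ V m f p)) - ((⟪u, D.X.Sa (D.X.msg A F)⟫_ℝ : ℝ) : ℂ)‖ ≤
      (‖u‖ + ‖b‖) * (2 *
        √(∫ ω, D.rs A (fun ω => ‖D.M.mat (Qb (F ω)) (D.st γ V m f p ω)‖ ^ 2) ω ∂P)) := by
  have h1 : L2 P (D.rs A (D.zv γ V m f p)) := D.L2_rs (D.L2_zv h.ok p) hA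
  have h2 : L2 P fun ω => (((-D.X.msg A F : Lp ℝ 2 P) ω : ℝ) : ℂ) • D.M.vac :=
    L2.smul_const (Lp.memLp _) _
  have h3 := D.lam_bound u b (h1.add h2)
  rw [D.lam_add u b h1 h2, D.lam_vac, map_neg, inner_neg_right, Complex.ofReal_neg,
    ← sub_eq_add_neg] at h3
  have e : ∫ ω, ‖D.rs A (D.zv γ V m f p) ω +
      (((-D.X.msg A F : Lp ℝ 2 P) ω : ℝ) : ℂ) • D.M.vac‖ ^ 2 ∂P =
      2 ^ 2 * ∫ ω, D.rs A (fun ω => ‖D.M.mat (Qb (F ω)) (D.st γ V m f p ω)‖ ^ 2) ω ∂P := by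
    rw [← integral_const_mul]
    refine integral_congr_ae ?_
    filter_upwards [Lp.coeFn_neg (D.X.msg A F), ME3_msg D hA hF] with ω e1 e2
    rw [e1, Pi.neg_apply, e2]
    unfold DM.rs
    split_ifs
    · rw [Complex.ofReal_neg, neg_smul, ← sub_eq_add_neg, D.norm_zv_sub h.ok, mul_pow]
    · simp
  rw [e, Real.sqrt_mul (by positivity), Real.sqrt_sq (by positivity)] at h3
  exact h3

theorem ME3_fin {x y E : ℝ} (hE : 0 ≤ E) (h : x ^ 2 + y ^ 2 ≤ (x + y) * (2 * √E)) :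
    x ^ 2 + y ^ 2 ≤ 8 * E := by
  have h1 := Real.sq_sqrt hE
  generalize √E = s at h h1
  nlinarith [sq_nonneg (x - 2 * s), sq_nonneg (y - 2 * s)]

theorem ME3_norm {F : Ω → Bool} (hF : Measurable F) : ‖D.X.msg Set.univ F‖ = 1 := by
  have h : ‖D.X.msg Set.univ F‖ ^ 2 = 1 := by
    rw [ME3_sq]
    have e : ∫ ω, (D.X.msg Set.univ F : Ω → ℝ) ω ^ 2 ∂P = ∫ _ω, (1 : ℝ) ∂P := by
      refine integral_congr_ae ?_
      filter_upwards [ME3_msg D MeasurableSet.univ hF] with ω e2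
      rw [e2, DM.rs, if_pos (Set.mem_univ _)]
      cases F ω <;> simp [spin]
    rw [e]
    simp
  exact (pow_eq_one_iff_of_nonneg (norm_nonneg _) two_ne_zero).1 h

/-- With `θ j = γ j * (2 * im ⟪fA, f j⟫)`, `u = ∑ θ j • m j - Sa (msg A F)`, `b = ∑ θ j • f j`:
`Lam u b (rs A (zv - spin F • vac)) = ‖u‖ ^ 2 + ‖b‖ ^ 2` by `ident`, `lam_vac`; then `lam_bound`,
`norm_zv_sub`; the left side is `‖u‖ ^ 2 + ‖b‖ ^ 2` by `inner_split`, `J_sum`. -/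
theorem DM.onsager (h : D.Cons γ V m f) (p : ℕ) {A : Set Λ} (hA : MeasurableSet A)
    {F : Ω → Bool} (hF : Measurable F) :
    ∫ ω, ‖∑ j ∈ range p, ((γ j * (2 * (⟪D.fA A (D.zv γ V m f p), f j⟫_ℂ).im) : ℝ) : ℂ) •
        D.zv γ V m f j ω - ((D.X.Sa (D.X.msg A F) ω : ℝ) : ℂ) • D.M.vac‖ ^ 2 ∂P ≤
      8 * ∫ ω, D.rs A (fun ω => ‖D.M.mat (Qb (F ω)) (D.st γ V m f p ω)‖ ^ 2) ω ∂P := by
  rw [ME3_lhs D h p (fun j => γ j * (2 * (⟪D.fA A (D.zv γ V m f p), f j⟫_ℂ).im))]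
  have hE : 0 ≤ ∫ ω, D.rs A (fun ω => ‖D.M.mat (Qb (F ω)) (D.st γ V m f p ω)‖ ^ 2) ω ∂P := by
    refine integral_nonneg fun ω => ?_
    unfold DM.rs
    split_ifs
    · exact sq_nonneg _
    · exact le_rfl
  refine ME3_fin hE ?_
  have hid := D.ident h p hA
  have hk := ME3_key D h p hA hF
  obtain ⟨θ, hθ⟩ : ∃ θ : ℕ → ℝ, ∀ j, θ j = γ j * (2 * (⟪D.fA A (D.zv γ V m f p), f j⟫_ℂ).im) :=
    ⟨_, fun _ => rfl⟩
  simp only [← hθ] at hid ⊢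
  obtain ⟨u, hu⟩ : ∃ u, u = ∑ j ∈ range p, θ j • m j - D.X.Sa (D.X.msg A F) := ⟨_, rfl⟩
  obtain ⟨b, hb⟩ : ∃ b, b = ∑ j ∈ range p, ((θ j : ℝ) : ℂ) • f j := ⟨_, rfl⟩
  rw [← hu, ← hb]
  refine le_trans ?_ (hk u b)
  have e1 : ((‖u‖ ^ 2 : ℝ) : ℂ) = ∑ j ∈ range p, ((θ j : ℝ) : ℂ) * ((⟪u, m j⟫_ℝ : ℝ) : ℂ) -
      ((⟪u, D.X.Sa (D.X.msg A F)⟫_ℝ : ℝ) : ℂ) := by
    rw [← real_inner_self_eq_norm_sq]
    nth_rewrite 2 [hu]
    rw [inner_sub_right, inner_sum]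
    simp only [inner_smul_right]
    push_cast
    rfl
  have e2 : ((‖b‖ ^ 2 : ℝ) : ℂ) = ∑ j ∈ range p, ((θ j : ℝ) : ℂ) * ⟪b, f j⟫_ℂ := by
    have e3 : ((‖b‖ ^ 2 : ℝ) : ℂ) = ⟪b, b⟫_ℂ := by
      rw [inner_self_eq_norm_sq_to_K]
      push_cast
      rfl
    rw [e3]
    nth_rewrite 2 [hb]
    rw [inner_sum]
    simp only [inner_smul_right]
  have e : D.Lam u b (D.rs A (D.zv γ V m f p)) - ((⟪u, D.X.Sa (D.X.msg A F)⟫_ℝ : ℝ) : ℂ) =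
      ((‖u‖ ^ 2 + ‖b‖ ^ 2 : ℝ) : ℂ) := by
    rw [hid, Complex.ofReal_add, e1, e2]
    simp only [mul_add, Finset.sum_add_distrib]
    ring
  rw [e, Complex.norm_real]
  exact le_abs_self _

/-- `val3 = re (Lam (m p) (f p) (zv p))` by `ident` with `A = univ`;
`Lam (m p) (f p) (spin F • vac) = ⟪m p, Sa msg⟫`; `lam_bound`, `dist_split`, `norm_mode` -/
theorem DM.energy (h : D.Cons γ V m f) (p : ℕ) {F : Ω → Bool} (hF : Measurable F) :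
    D.X.en F - 6 * √(D.err (fun ω => Qb (F ω)) (D.st γ V m f p)) ≤
      val3 γ (DM.gram m f) p := by
  have hu : ∀ {E : Type} [Zero E] (ψ : Ω → E), D.rs Set.univ ψ = ψ := by
    intro E _ ψ
    funext ω
    rw [DM.rs, if_pos (Set.mem_univ _)]
  have hid := D.ident h p MeasurableSet.univ (m p) (f p)
  have hk := ME3_key D h p MeasurableSet.univ hF (m p) (f p)
  have hd := D.dist_split h p MeasurableSet.univ hF
  have hn := D.norm_mode h p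
  rw [D.fA_univ h] at hid
  rw [D.fA_univ h, D.mA_univ h, hu] at hd
  rw [hid, hu] at hk
  have hE : 0 ≤ D.err (fun ω => Qb (F ω)) (D.st γ V m f p) :=
    integral_nonneg fun ω => sq_nonneg _
  change _ = 4 * D.err (fun ω => Qb (F ω)) (D.st γ V m f p) at hd
  change _ ≤ _ * (2 * √(D.err (fun ω => Qb (F ω)) (D.st γ V m f p))) at hk
  have hs := Real.sq_sqrt hE
  have hs0 := Real.sqrt_nonneg (D.err (fun ω => Qb (F ω)) (D.st γ V m f p))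
  generalize √(D.err (fun ω => Qb (F ω)) (D.st γ V m f p)) = s at hk hs hs0 ⊢
  rw [← hs] at hd
  have h1 := (Complex.abs_re_le_norm _).trans hk
  have e : (∑ j ∈ range p, ((γ j * (2 * (⟪f p, f j⟫_ℂ).im) : ℝ) : ℂ) *
      (((⟪m p, m j⟫_ℝ : ℝ) : ℂ) + ⟪f p, f j⟫_ℂ)).re = val3 γ (DM.gram m f) p := by
    rw [Complex.re_sum, val3]
    refine Finset.sum_congr rfl fun j _ => ?_
    rw [Complex.re_ofReal_mul, DM.gram, sq, Complex.mul_im]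
    simp only [Complex.add_re, Complex.add_im, Complex.ofReal_re, Complex.ofReal_im]
    ring
  rw [Complex.sub_re, e, Complex.ofReal_re] at h1
  have h2 := (abs_le.1 h1).1
  have h3 : ⟪m p, D.X.Sa (D.X.msg Set.univ F)⟫_ℝ = ⟪D.X.msg Set.univ F, D.X.S (m p)⟫_ℝ := by
    rw [Data.Sa, ContinuousLinearMap.adjoint_inner_right, real_inner_comm]
    rfl
  have h4 : D.X.en F - ⟪D.X.msg Set.univ F, D.X.S (m p)⟫_ℝ ≤ ‖m p - D.X.msg Set.univ F‖ := by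
    rw [Data.en, ← inner_sub_right, ← map_sub]
    refine (real_inner_le_norm _ _).trans ?_
    rw [ME3_norm D hF, one_mul, LinearIsometry.norm_map, norm_sub_rev]
  have h5 : ‖m p - D.X.msg Set.univ F‖ ≤ 2 * s := by
    refine le_of_pow_le_pow_left₀ two_ne_zero (by positivity) ?_
    nlinarith [sq_nonneg ‖f p‖]
  have h6 : ‖m p‖ + ‖f p‖ ≤ 2 := by
    nlinarith [sq_nonneg (‖m p‖ - 1), sq_nonneg (‖f p‖ - 1)]
  have h7 : (‖m p‖ + ‖f p‖) * (2 * s) ≤ 2 * (2 * s) :=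
    mul_le_mul_of_nonneg_right h6 (by positivity)
  linarith

end

end Vale.Agent.P367
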