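import Vale.Agent.P367M.MC4
import Vale.Agent.P367M.MB2

/-! Coupling of two classes by four layers. -/

set_option linter.all false

namespace Vale.Agent.P367

open MeasureTheory ProbabilityTheory Filter Topology Finset Vale.Agent.P146 Matrix
open scoped InnerProductSpace

noncomputable section

section aux

variable {H K : Type} [NormedAddCommGroup H] [InnerProductSpace ℂ H]
  [SeminormedAddCommGroup K] [InnerProductSpace ℂ K] (M : P367S.Mdl H K)

/-- the flip attached to a sign -/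
def mfFl (b : Bool) : M2 := if b then 1 else PX

theorem mf_uni (b : Bool) : Uni (mfFl b) := by
  cases b
  · exact uni_PX
  · exact one_mem _

theorem mf_sq (b : Bool) (y : K) : M.mat (mfFl b) (M.mat (mfFl b) y) = y := by
  have h : mfFl b * mfFl b = 1 := by
    ext i j
    cases b <;> cases i <;> cases j <;> simp [mfFl, PX, Matrix.mul_apply]
  rw [← LinearMap.comp_apply, ← mat_mul, h, mat_one, LinearMap.id_apply]

theorem mf_flip (b : Bool) (g x : ℝ) (f : H) (y : K) :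
    cg M g x f (M.mat (mfFl b) y) = M.mat (mfFl b) (cg M (spin b * g) x f y) := by
  cases b
  · have h := LinearMap.congr_fun (cg_flip M (-g) x f) y
    rw [neg_neg] at h
    simpa [mfFl, spin] using h.symm
  · simp [mfFl, spin, mat_one]

theorem mf_Z (b : Bool) (y : K) :
    M.mat PZ (M.mat (mfFl b) y) = (spin b : ℂ) • M.mat (mfFl b) (M.mat PZ y) := by
  have h : PZ * mfFl b = (spin b : ℂ) • (mfFl b * PZ) := by
    ext i j
    cases b <;> cases i <;> cases j <;>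
      simp [mfFl, PX, PZ, spin, Matrix.mul_apply, Matrix.diagonal_apply]
  rw [← LinearMap.comp_apply, ← mat_mul, h, mat_smul, mat_mul]
  rfl

/-- product of the rotations -/
def mfW (c x : ℕ → ℝ) (f : ℕ → H) : ℕ → K →ₗ[ℂ] K
  | 0 => LinearMap.id
  | n + 1 => cg M (c n) (x n) (f n) ∘ₗ mfW c x f n

theorem mfW_Z (c x : ℕ → ℝ) (f : ℕ → H) (n : ℕ) (y : K) :
    mfW M c x f n (M.mat PZ y) = M.mat PZ (mfW M c x f n y) := by
  induction n with
  | zero => rfl
  | succ n ih =>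
    change cg M _ _ _ (mfW M c x f n _) = M.mat PZ (cg M _ _ _ _)
    rw [ih]
    exact (LinearMap.congr_fun (cg_diag M _ _ _ _) _).symm

theorem mf_op (x : ℕ → ℝ) (f : ℕ → H) (γ : ℕ → ℝ) {A : ℕ → M2} {p : ℕ} {e : ℕ → Bool}
    (h0 : e 0 = true) (h : ∀ n, A (p + n) = mfFl (e (n + 1)) * mfFl (e n)) (n : ℕ) (y : K) :
    actW M x f (fw γ A (p + n)) y = M.mat (mfFl (e n))
      (mfW M (fun n => spin (e n) * γ (p + n)) (fun n => x (p + n)) (fun n => f (p + n)) n
        (actW M x f (fw γ A p) y)) := by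
  induction n with
  | zero => simp [h0, mfFl, mfW, mat_one]
  | succ n ih =>
    rw [← add_assoc, actW_fw_succ, ih, h, mat_mul, LinearMap.comp_apply, mf_flip, mf_sq]
    rfl

theorem mf_zw (x : ℕ → ℝ) (f : ℕ → H) (γ : ℕ → ℝ) {A : ℕ → M2} (hA : ∀ j, Uni (A j)) {p : ℕ}
    {e : ℕ → Bool} (h0 : e 0 = true) (h : ∀ n, A (p + n) = mfFl (e (n + 1)) * mfFl (e n)) (n : ℕ)
    (y : K) : actW M x f (zw γ A (p + n)) y = (spin (e n) : ℂ) • actW M x f (zw γ A p) y := by
  have h1 : M.mat PZ (actW M x f (fw γ A (p + n)) y) =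
      actW M x f (fw γ A (p + n)) ((spin (e n) : ℂ) • actW M x f (zw γ A p) y) := by
    rw [map_smul, mf_op M x f γ h0 h, mf_op M x f γ h0 h, actW_zw,
      actW_winv' M x f (fw_U γ hA p), mfW_Z, mf_Z]
  rw [actW_zw, h1, actW_winv M x f (fw_U γ hA _)]

theorem mf_im {u v w : H} (h1 : ⟪u, v⟫_ℂ = 0) (h2 : ⟪u, w⟫_ℂ = 0) (h3 : ⟪v, w⟫_ℂ = 0)
    (a b c a' b' c' : ℝ) : (⟪(a : ℂ) • u + (b : ℂ) • v + (c : ℂ) • w,
      (a' : ℂ) • u + (b' : ℂ) • v + (c' : ℂ) • w⟫_ℂ).im = 0 := by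
  have h1' := inner_eq_zero_symm.1 h1
  have h2' := inner_eq_zero_symm.1 h2
  have h3' := inner_eq_zero_symm.1 h3
  simp only [inner_add_left, inner_add_right, inner_smul_left, inner_smul_right, h1, h2, h3, h1',
    h2', h3', Complex.conj_ofReal, mul_zero, add_zero, zero_add, Complex.add_im,
    Complex.im_ofReal_mul, ma2_im_self]

theorem mf_W {u v w : H} (h1 : ⟪u, v⟫_ℂ = 0) (h2 : ⟪u, w⟫_ℂ = 0) (h3 : ⟪v, w⟫_ℂ = 0)
    (a b d : ℝ) (c s t : ℕ → ℝ) {x : ℕ → ℝ} {f : ℕ → H} (hx : ∀ n, x n = a + s n * b + t n * d)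
    (hf : ∀ n, f n = u + (s n : ℂ) • v + (t n : ℂ) • w) (n : ℕ) :
    mfW M c x f n = cg M 1 ((∑ i ∈ range n, c i) * a + (∑ i ∈ range n, c i * s i) * b +
        (∑ i ∈ range n, c i * t i) * d)
      (((∑ i ∈ range n, c i : ℝ) : ℂ) • u + ((∑ i ∈ range n, c i * s i : ℝ) : ℂ) • v +
        ((∑ i ∈ range n, c i * t i : ℝ) : ℂ) • w) := by
  induction n with
  | zero => simp [mfW, cg_zero']
  | succ n ih =>
    have e : (c n : ℂ) • f n =
        (c n : ℂ) • u + ((c n * s n : ℝ) : ℂ) • v + ((c n * t n : ℝ) : ℂ) • w := by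
      rw [hf]
      push_cast
      module
    rw [mfW, ih, cg_scale, e, cg_comp M _ _ _ _ (mf_im h1 h2 h3 _ _ _ _ _ _), hx]
    simp only [sum_range_succ]
    congr 1
    · ring
    · push_cast
      module

end aux

variable {Ω : Type} [MeasurableSpace Ω] {Λ : Type} [MeasurableSpace Λ] {ν : Measure Λ}
  {P : Measure Ω} [IsProbabilityMeasure P] {H K : Type} [NormedAddCommGroup H]
  [InnerProductSpace ℂ H] [SeminormedAddCommGroup K] [InnerProductSpace ℂ K] (D : DM ν P H K)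
  {γ : ℕ → ℝ} {V : ℕ → Λ → M2} {m : ℕ → Lp ℝ 2 P} {f : ℕ → H}

theorem mf_toL {a b c : Ω → ℝ} (ha : MemLp a 2 P) (hb : MemLp b 2 P) (hc : MemLp c 2 P)
    (s t : ℝ) : toL P (fun ω => a ω + s * b ω + t * c ω) =
      toL P a + s • toL P b + t • toL P c := by
  have h : MemLp (fun ω => a ω + s * b ω + t * c ω) 2 P :=
    (ha.add (hb.const_mul s)).add (hc.const_mul t)
  refine Lp.ext ?_
  filter_upwards [toL_ae h, toL_ae ha, toL_ae hb, toL_ae hc,
    Lp.coeFn_add (toL P a + s • toL P b) (t • toL P c), Lp.coeFn_add (toL P a) (s • toL P b),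
    Lp.coeFn_smul s (toL P b), Lp.coeFn_smul t (toL P c)] with ω h1 h2 h3 h4 h5 h6 h7 h8
  rw [h1, h5, Pi.add_apply, h6, Pi.add_apply, h7, h8, Pi.smul_apply, Pi.smul_apply, h2, h3, h4,
    smul_eq_mul, smul_eq_mul]

theorem mf_S (X : Data ν P) (a b c : Lp ℝ 2 P) (s t : ℝ) :
    ∀ᵐ ω ∂P, X.S (a + s • b + t • c) ω = X.S a ω + s * X.S b ω + t * X.S c ω := by
  rw [map_add, map_add, map_smul, map_smul]
  filter_upwards [Lp.coeFn_add (X.S a + s • X.S b) (t • X.S c), Lp.coeFn_add (X.S a) (s • X.S b),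
    Lp.coeFn_smul s (X.S b), Lp.coeFn_smul t (X.S c)] with ω h5 h6 h7 h8
  rw [h5, Pi.add_apply, h6, Pi.add_apply, h7, h8, Pi.smul_apply, Pi.smul_apply, smul_eq_mul,
    smul_eq_mul]

theorem mf_orth {z : Ω → K} (hz : L2 P z) {A B : Set Λ} (hA : MeasurableSet A)
    (hB : MeasurableSet B) (hd : Disjoint A B) : ⟪D.fA A z, D.fA B z⟫_ℂ = 0 := by
  rw [DM.fA, DM.fA, D.hJ _ _ (D.L2_rs (D.L2_pp hz) hA) (D.L2_rs (D.L2_pp hz) hB)]
  refine integral_eq_zero_of_ae (Eventually.of_forall fun ω => ?_)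
  simp only [DM.rs, Pi.zero_apply]
  split_ifs with h1 h2
  · exact absurd h2 (Set.disjoint_left.1 hd h1)
  all_goals simp

theorem mf_mg (s : ℝ) (e : Ω → ℝ) (z : Ω → K) (ω : Ω) :
    D.mg (fun ω => (e ω : ℂ) • z ω) ω = e ω * D.mg z ω := by
  simp only [DM.mg, inner_smul_right, Complex.re_ofReal_mul]

theorem mf_pp (e : Ω → ℝ) (z : Ω → K) (ω : Ω) :
    D.pp (fun ω => (e ω : ℂ) • z ω) ω = (e ω : ℂ) • D.pp z ω := by
  rw [DM.pp, mf_mg D 0, DM.pp, smul_sub, smul_smul, Complex.ofReal_mul]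

theorem mf_ok {e e' : Λ → Bool} (h : Measurable e) (h' : Measurable e') :
    GOK fun l => mfFl (e l) * mfFl (e' l) := by
  refine ⟨fun b c => ?_, fun l => mul_mem (mf_uni _) (mf_uni _)⟩
  have h1 : Measurable fun q : Bool × Bool => (mfFl q.1 * mfFl q.2) b c :=
    measurable_of_countable _
  exact h1.comp (f := fun l => (e l, e' l)) (h.prodMk h')

open Classical in
/-- the sign patterns -/
def mfE (R A : Set Λ) (n : ℕ) (l : Λ) : Bool :=
  if l ∈ R then true else if l ∈ A then decide (n ≠ 2 ∧ n ≠ 3) else decide (n ≠ 1 ∧ n ≠ 3)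

theorem mf_rs {E : Type} [AddCommGroup E] [Module ℝ E] {R A : Set Λ} (hd : Disjoint R A) (n : ℕ)
    (ψ : Ω → E) (ω : Ω) : spin (mfE R A n (D.X.lab ω)) • ψ ω = D.rs R ψ ω +
      spin (decide (n ≠ 2 ∧ n ≠ 3)) • D.rs A ψ ω +
      spin (decide (n ≠ 1 ∧ n ≠ 3)) • D.rs (R ∪ A)ᶜ ψ ω := by
  by_cases h1 : D.X.lab ω ∈ R
  · have h2 : D.X.lab ω ∉ A := Set.disjoint_left.1 hd h1
    simp only [mfE, DM.rs, h1, h2, Set.mem_compl_iff, Set.mem_union, true_or, not_true,
      if_true, if_false, smul_zero, add_zero]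
    simp [spin]
  · by_cases h2 : D.X.lab ω ∈ A
    · simp only [mfE, DM.rs, h1, h2, Set.mem_compl_iff, Set.mem_union, or_true, not_true,
        if_true, if_false, smul_zero, add_zero, zero_add]
    · simp only [mfE, DM.rs, h1, h2, Set.mem_compl_iff, Set.mem_union, or_self, not_false_iff,
        if_true, if_false, smul_zero, add_zero, zero_add]

open Classical in
/-- Let `z = zv p`, `T` the complement of `R ∪ A`. Sign patterns on `(R, A, T)`:
`ε1 = (+,+,+)`, `ε2 = (+,+,-)`, `ε3 = (+,-,+)`, `ε4 = (+,-,-)` with angles `g/4, g/4, -g/4, -g/4`;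
`Fl ε l = if ε l = 1 then 1 else PX`; the layers `p, …, p+3` have the gates `Fl (ε1 ε2)`,
`Fl (ε2 ε3)`, `Fl (ε3 ε4)`, `Fl ε4` (`cons_ext`). Invariant before the layer with pattern `ε`: the
operator of the first `q` layers is `mat (Fl ε) ∘ cg 1 x b ∘ U_p` with `x`, `b` depending on the
class of the label, so `zv q = ε • z` (`cg_diag`, `PX_PZ`), hence
`m q = ∑ ε_c • mA c z`, `f q = ∑ ε_c • fA c z` (`J_add`, `J_smul`); `cg_flip`, `cg_scale`,
`cg_comp` (the vectors `fA R z`, `fA A z`, `fA T z` are orthogonal by `hJ`). -/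
theorem DM.couple (h : D.Cons γ V m f) (p : ℕ) {R A : Set Λ} (hR : MeasurableSet R)
    (hA : MeasurableSet A) (hd : Disjoint R A) (g : ℝ) :
    ∃ γ' V' m' f', D.Cons γ' V' m' f' ∧ ∀ᵐ ω ∂P, D.st γ' V' m' f' (p + 4) ω =
      if D.X.lab ω ∈ R then
        cg D.M g (D.X.S (D.mA A (D.zv γ V m f p)) ω) (D.fA A (D.zv γ V m f p))
          (D.st γ V m f p ω)
      else if D.X.lab ω ∈ A then
        cg D.M g (D.X.S (D.mA R (D.zv γ V m f p)) ω) (D.fA R (D.zv γ V m f p))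
          (D.st γ V m f p ω)
      else D.st γ V m f p ω := by
  have hE : ∀ n, Measurable (mfE R A n) := fun n =>
    Measurable.ite hR measurable_const (Measurable.ite hA measurable_const measurable_const)
  let a : ℕ → ℝ := fun n => if n < 2 then g / 4 else -(g / 4)
  let γ' : ℕ → ℝ := fun j => if j < p then γ j else a (j - p)
  let V' : ℕ → Λ → M2 := fun j =>
    if j < p then V j else fun l => mfFl (mfE R A (j - p + 1) l) * mfFl (mfE R A (j - p) l)
  have hV : ∀ j, GOK (V' j) := fun j => by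
    simp only [V']
    split_ifs
    · exact h.ok j
    · exact mf_ok (hE _) (hE _)
  have e1 : ∀ j < p, γ' j = γ j ∧ V' j = V j := fun j hj => ⟨if_pos hj, if_pos hj⟩
  obtain ⟨m', f', h', e2⟩ := D.cons_ext h hV e1
  have e3 : ∀ j < p, m' j = m j ∧ f' j = f j := fun j hj => e2 j hj.le
  have e0 : ∀ l, mfE R A 0 l = true := fun l => by simp [mfE]
  have eg : ∀ ω n, D.gt V' ω (p + n) = mfFl (mfE R A (n + 1) (D.X.lab ω)) *
      mfFl (mfE R A n (D.X.lab ω)) := fun ω n => by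
    simp only [DM.gt, V']
    rw [if_neg (by omega), Nat.add_sub_cancel_left]
  have eγ : ∀ n, γ' (p + n) = a n := fun n => by
    simp only [γ']
    rw [if_neg (by omega), Nat.add_sub_cancel_left]
  refine ⟨γ', V', m', f', h', ?_⟩
  have hz := D.L2_zv (γ := γ) (m := m) (f := f) h.ok p
  have hT : MeasurableSet (R ∪ A)ᶜ := (hR.union hA).compl
  set z := D.zv γ V m f p with hzd
  have ez : ∀ n, D.zv γ' V' m' f' (p + n) =
      fun ω => (spin (mfE R A n (D.X.lab ω)) : ℂ) • z ω := fun n => by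
    funext ω
    rw [hzd, ← D.zv_congr e1 e3]
    exact mf_zw D.M _ _ _ (D.uni_gt hV ω) (e := fun n => mfE R A n (D.X.lab ω)) (e0 _) (eg ω) n _
  have em : ∀ n, m' (p + n) = D.mA R z + spin (decide (n ≠ 2 ∧ n ≠ 3)) • D.mA A z +
      spin (decide (n ≠ 1 ∧ n ≠ 3)) • D.mA (R ∪ A)ᶜ z := fun n => by
    have h1 := D.memLp_mg hz
    rw [h'.hm, ez, DM.mA, DM.mA, DM.mA,
      ← mf_toL (D.memLp_rs h1 hR) (D.memLp_rs h1 hA) (D.memLp_rs h1 hT)]
    congr 1
    funext ω
    rw [mf_mg D 0]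
    exact mf_rs D hd n (D.mg z) ω
  have ef : ∀ n, f' (p + n) = D.fA R z + (spin (decide (n ≠ 2 ∧ n ≠ 3)) : ℂ) • D.fA A z +
      (spin (decide (n ≠ 1 ∧ n ≠ 3)) : ℂ) • D.fA (R ∪ A)ᶜ z := fun n => by
    have h1 := D.L2_pp hz
    have h2 : ∀ (c : ℂ) {B : Set Λ}, MeasurableSet B → L2 P fun ω => c • D.rs B (D.pp z) ω :=
      fun c B hB => (D.L2_rs h1 hB).smul aestronglyMeasurable_const fun _ => le_rfl
    rw [h'.hf, ez, DM.fA, DM.fA, DM.fA, ← D.J_smul (D.L2_rs h1 hA), ← D.J_smul (D.L2_rs h1 hT),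
      ← D.J_add (D.L2_rs h1 hR) (h2 _ hA), ← D.J_add ((D.L2_rs h1 hR).add (h2 _ hA)) (h2 _ hT)]
    congr 1
    funext ω
    rw [mf_pp]
    letI : Module ℝ K := Module.compHom K Complex.ofRealHom
    exact mf_rs D hd n (D.pp z) ω
  have ex : ∀ᵐ ω ∂P, ∀ n, D.xs m' ω (p + n) = D.X.S (D.mA R z) ω +
      spin (decide (n ≠ 2 ∧ n ≠ 3)) * D.X.S (D.mA A z) ω +
      spin (decide (n ≠ 1 ∧ n ≠ 3)) * D.X.S (D.mA (R ∪ A)ᶜ z) ω :=
    ae_all_iff.2 fun n => by
      simp only [DM.xs, em]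
      exact mf_S D.X _ _ _ _ _
  filter_upwards [ex] with ω hω
  rw [← D.st_congr e1 e3, DM.st,
    mf_op D.M _ _ _ (e := fun n => mfE R A n (D.X.lab ω)) (e0 _) (eg ω),
    mf_W D.M (mf_orth D hz hR hA hd)
      (mf_orth D hz hR hT (disjoint_compl_right.mono_left Set.subset_union_left))
      (mf_orth D hz hA hT (disjoint_compl_right.mono_left Set.subset_union_right))
      _ _ _ _ _ _ hω ef]
  have e4 : mfE R A 4 (D.X.lab ω) = true := by simp [mfE]
  rw [e4, mfFl, if_pos rfl, mat_one, LinearMap.id_apply]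
  simp only [eγ, sum_range_succ, range_zero, sum_empty]
  split_ifs with h1 h2
  · rw [cg_scale D.M g]
    simp only [mfE, if_pos h1]
    congr 2
    · simp [a, spin, -mul_eq_mul_right_iff]
      ring
    · simp [a, spin]
      module
  · rw [cg_scale D.M g]
    simp only [mfE, if_neg h1, if_pos h2]
    congr 2
    · simp [a, spin, -mul_eq_mul_right_iff]
      ring
    · simp [a, spin]
      module
  · simp only [mfE, if_neg h1, if_neg h2]
    simp [a, spin, cg_zero', DM.st]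

end

end Vale.Agent.P367
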