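import Vale.Agent.P367M.ME3

/-! The receivers see the field of the ideal message. -/

set_option linter.all false

namespace Vale.Agent.P367

open MeasureTheory ProbabilityTheory Filter Topology Finset Vale.Agent.P146 Matrix
open scoped InnerProductSpace

noncomputable section

variable {Ω : Type} [MeasurableSpace Ω] {Λ : Type} [MeasurableSpace Λ] {ν : Measure Λ}
  {P : Measure Ω} [IsProbabilityMeasure P] {H K : Type} [NormedAddCommGroup H]
  [InnerProductSpace ℂ H] [SeminormedAddCommGroup K] [InnerProductSpace ℂ K] (D : DM ν P H K)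
  {γ : ℕ → ℝ} {V : ℕ → Λ → M2} {m : ℕ → Lp ℝ 2 P} {f : ℕ → H}

theorem mg1_norm (t : ℝ) : ‖Complex.exp (-(Complex.I * (t : ℂ)))‖ = 1 := by
  rw [← mul_neg, ← Complex.ofReal_neg, mul_comm, Complex.norm_exp_ofReal_mul_I]

theorem mg1_meas (s : ℝ) (κ : Lp ℝ 2 P) :
    AEStronglyMeasurable (fun ω => Complex.exp (-(Complex.I * ((s * κ ω : ℝ) : ℂ)))) P :=
  (by fun_prop : Continuous fun t : ℝ =>
    Complex.exp (-(Complex.I * ((s * t : ℝ) : ℂ)))).comp_aestronglyMeasurable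
    (Lp.aestronglyMeasurable κ)

/-- `‖e • dis s b vac - vac‖ ^ 2 = 2 - 2 re (e * exp (-s² ‖b‖² / 2))`, `Data.char` with `ψ = 1`,
`g = -s • u`, and `1 - exp (-y) ≤ y` -/
theorem DM.dis_vac (s : ℝ) (u : Lp ℝ 2 P) (b : H) :
    ∫ ω, ‖Complex.exp (-(Complex.I * ((s * D.X.S u ω : ℝ) : ℂ))) • dis D.M s b D.M.vac -
      D.M.vac‖ ^ 2 ∂P ≤ s ^ 2 * (‖u‖ ^ 2 + ‖b‖ ^ 2) := by
  have h1 : ∀ ω, ‖Complex.exp (-(Complex.I * ((s * D.X.S u ω : ℝ) : ℂ))) • dis D.M s b D.M.vac -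
      D.M.vac‖ ^ 2 = 2 - 2 * Real.exp (-(s ^ 2 * ‖b‖ ^ 2) / 2) *
        (Complex.exp (-(Complex.I * ((s * D.X.S u ω : ℝ) : ℂ)))).re := fun ω => by
    rw [norm_sub_rev, @norm_sub_sq ℂ, norm_smul, mg1_norm, norm_dis, norm_vac, inner_smul_right,
      inner_vac_dis, RCLike.re_to_complex, Complex.re_mul_ofReal]
    ring
  have hi : Integrable (fun ω => Complex.exp (-(Complex.I * ((s * D.X.S u ω : ℝ) : ℂ)))) P :=
    .of_bound (mg1_meas s _) 1 (.of_forall fun ω => (mg1_norm _).le)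
  have h2 : ∫ ω, Complex.exp (-(Complex.I * ((s * D.X.S u ω : ℝ) : ℂ))) ∂P =
      ((Real.exp (-(s ^ 2 * ‖u‖ ^ 2) / 2) : ℝ) : ℂ) := by
    have h3 := D.X.char (ψ := fun _ => 1) measurable_const (C := 1) (fun _ => by simp) ((-s) • u)
    rw [← D.X.integral_lab measurable_const, integral_const, probReal_univ, one_smul, one_mul,
      norm_smul, Real.norm_eq_abs, mul_pow, sq_abs, neg_sq] at h3
    rw [Complex.ofReal_exp, Complex.ofReal_div, Complex.ofReal_neg, Complex.ofReal_ofNat, ← h3]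
    refine integral_congr_ae ?_
    rw [map_smul]
    filter_upwards [Lp.coeFn_smul (-s) (D.X.S u)] with ω hω
    rw [hω, one_mul]
    congr 1
    simp
  have h4 := integral_re hi
  rw [h2, RCLike.re_to_complex, Complex.ofReal_re] at h4
  have h5 := hi.re
  simp only [RCLike.re_to_complex] at h4 h5
  simp only [h1]
  rw [integral_sub (integrable_const _) (h5.const_mul _), integral_const, probReal_univ,
    one_smul, integral_const_mul, h4, mul_assoc, ← Real.exp_add]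
  linarith [Real.add_one_le_exp (-(s ^ 2 * ‖b‖ ^ 2) / 2 + -(s ^ 2 * ‖u‖ ^ 2) / 2)]

theorem mg1_sq (t : ℝ) :
    ‖1 - Complex.exp (-(Complex.I * (t : ℂ))) - Complex.I * (t : ℂ)‖ ≤ t ^ 2 := by
  have := MA1_exp (-t)
  rw [neg_sq, ← norm_neg, Complex.ofReal_neg, mul_neg] at this
  refine le_of_eq_of_le (congrArg _ ?_) this
  ring

theorem mg1_two (t : ℝ) :
    ‖1 - Complex.exp (-(Complex.I * (t : ℂ))) - Complex.I * (t : ℂ)‖ ^ 2 ≤ 4 * t ^ 2 := by
  have h1 : ‖1 - Complex.exp (-(Complex.I * (t : ℂ)))‖ ≤ |t| := by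
    have := Real.norm_exp_I_mul_ofReal_sub_one_le (x := -t)
    rwa [norm_sub_rev, Complex.ofReal_neg, mul_neg, Real.norm_eq_abs, abs_neg] at this
  have h2 : ‖Complex.I * (t : ℂ)‖ = |t| := by simp
  have h3 := (norm_sub_le _ (Complex.I * (t : ℂ))).trans (add_le_add h1 h2.le)
  refine (pow_le_pow_left₀ (norm_nonneg _) h3 2).trans_eq ?_
  rw [← sq_abs t]
  ring

theorem mg1_int (s : ℝ) (κ : Lp ℝ 2 P) :
    Integrable (fun ω => ‖1 - Complex.exp (-(Complex.I * ((s * κ ω : ℝ) : ℂ))) -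
      Complex.I * ((s * κ ω : ℝ) : ℂ)‖ ^ 2) P := by
  refine ((Lp.memLp κ).integrable_sq.const_mul (4 * s ^ 2)).mono'
    ((by fun_prop : Continuous fun t : ℝ => ‖1 - Complex.exp (-(Complex.I * ((s * t : ℝ) : ℂ))) -
      Complex.I * ((s * t : ℝ) : ℂ)‖ ^ 2).comp_aestronglyMeasurable (Lp.aestronglyMeasurable κ))
    (.of_forall fun ω => ?_)
  rw [Real.norm_of_nonneg (by positivity)]
  exact (mg1_two _).trans_eq (by ring)

/-- dominated convergence: `‖1 - exp (-i s κ) - i s κ‖ / |s| ≤ 2 |κ|` and tends to zero -/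
theorem tendsto_rem (κ : Lp ℝ 2 P) :
    Tendsto (fun s : ℝ => (∫ ω, ‖1 - Complex.exp (-(Complex.I * ((s * κ ω : ℝ) : ℂ))) -
      Complex.I * ((s * κ ω : ℝ) : ℂ)‖ ^ 2 ∂P) / s ^ 2) (𝓝[≠] 0) (𝓝 0) := by
  simp only [← integral_div]
  have := tendsto_integral_filter_of_dominated_convergence (μ := P) (l := 𝓝[≠] (0 : ℝ))
    (F := fun s ω => ‖1 - Complex.exp (-(Complex.I * ((s * κ ω : ℝ) : ℂ))) -
      Complex.I * ((s * κ ω : ℝ) : ℂ)‖ ^ 2 / s ^ 2) (f := fun _ => 0) (fun ω => 4 * κ ω ^ 2)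
    (.of_forall fun s => ((mg1_int s κ).div_const _).1) ?_
    ((Lp.memLp κ).integrable_sq.const_mul 4) (.of_forall fun ω => ?_)
  · simpa only [integral_zero] using this
  · filter_upwards [self_mem_nhdsWithin] with s hs
    refine .of_forall fun ω => ?_
    rw [Real.norm_of_nonneg (by positivity), div_le_iff₀ (pow_pos (abs_pos.2 hs) 2 |>.trans_eq
      (sq_abs s))]
    exact (mg1_two _).trans_eq (by ring)
  · refine squeeze_zero' (g := fun s => s ^ 2 * κ ω ^ 4) (.of_forall fun s => by positivity) ?_ ?_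
    · filter_upwards [self_mem_nhdsWithin] with s hs
      rw [div_le_iff₀ (pow_pos (abs_pos.2 hs) 2 |>.trans_eq (sq_abs s))]
      exact (pow_le_pow_left₀ (norm_nonneg _) (mg1_sq _) 2).trans_eq (by ring)
    · have : Tendsto (fun s : ℝ => s ^ 2 * κ ω ^ 4) (𝓝 0) (𝓝 (0 ^ 2 * κ ω ^ 4)) :=
        (by fun_prop : Continuous fun s : ℝ => s ^ 2 * κ ω ^ 4).tendsto 0
      simpa using this.mono_left nhdsWithin_le_nhds

theorem mg1_four {a b c d : K} {x y z w : ℝ} (ha : ‖a‖ ≤ x) (hb : ‖b‖ ≤ y) (hc : ‖c‖ ≤ z)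
    (hd : ‖d‖ ≤ w) : ‖a + b + c + d‖ ^ 2 ≤ 4 * (x ^ 2 + y ^ 2 + z ^ 2 + w ^ 2) := by
  have h : ‖a + b + c + d‖ ≤ x + y + z + w :=
    norm_add_le_of_le (norm_add_le_of_le (norm_add_le_of_le ha hb) hc) hd
  refine (pow_le_pow_left₀ (norm_nonneg _) h 2).trans ?_
  nlinarith [sq_nonneg (x - y), sq_nonneg (x - z), sq_nonneg (x - w), sq_nonneg (y - z),
    sq_nonneg (y - w), sq_nonneg (z - w)]

theorem mg1_pt (M : P367S.Mdl H K) (x : ℕ → ℝ) (f : ℕ → H) (γ : ℕ → ℝ) {A : ℕ → M2}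
    (hA : ∀ j, Uni (A j)) (p : ℕ) (s : ℝ) (b : H) (y κ : ℝ) :
    ‖Complex.exp (-(Complex.I * ((s * (y - κ) : ℝ) : ℂ))) •
        dis M s b (actW M x f (fw γ A p) M.vac) - actW M x f (fw γ A p) M.vac‖ ^ 2 ≤
      4 * (‖Complex.exp (-(Complex.I * ((s * y : ℝ) : ℂ))) • dis M s b M.vac - M.vac‖ ^ 2 +
        (s ^ 2 * (∑ j ∈ range p, |γ j * (2 * (⟪b, f j⟫_ℂ).im)|) ^ 2) ^ 2 +
        s ^ 2 * ‖∑ j ∈ range p, ((γ j * (2 * (⟪b, f j⟫_ℂ).im) : ℝ) : ℂ) •
          actW M x f (zw γ A j) M.vac - (κ : ℂ) • M.vac‖ ^ 2 +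
        ‖1 - Complex.exp (-(Complex.I * ((s * κ : ℝ) : ℂ))) - Complex.I * ((s * κ : ℝ) : ℂ)‖ ^ 2) := by
  have hU := fw_U γ hA p
  have h1 := (norm_actW M x f (tw_U (fun j => 2 * (⟪b, f j⟫_ℂ).im) s hU)
    (Complex.exp (-(Complex.I * ((s * y : ℝ) : ℂ))) • dis M s b M.vac - M.vac)).le
  have h2 := norm_tw_sub M x f (fun j => 2 * (⟪b, f j⟫_ℂ).im) s hU M.vac
  rw [norm_vac, mul_one, bd_fw] at h2
  have h3 : ‖(-(Complex.I * s)) • actW M x f (fw γ A p)
      (∑ j ∈ range p, ((γ j * (2 * (⟪b, f j⟫_ℂ).im) : ℝ) : ℂ) • actW M x f (zw γ A j) M.vac -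
        (κ : ℂ) • M.vac)‖ ≤ |s| * ‖∑ j ∈ range p, ((γ j * (2 * (⟪b, f j⟫_ℂ).im) : ℝ) : ℂ) •
          actW M x f (zw γ A j) M.vac - (κ : ℂ) • M.vac‖ := by
    rw [norm_smul, norm_actW M x f hU]
    simp
  have h4 : ‖(1 - Complex.exp (-(Complex.I * ((s * κ : ℝ) : ℂ))) - Complex.I * ((s * κ : ℝ) : ℂ)) •
      actW M x f (fw γ A p) M.vac‖ ≤ ‖1 - Complex.exp (-(Complex.I * ((s * κ : ℝ) : ℂ))) -
        Complex.I * ((s * κ : ℝ) : ℂ)‖ := by
    rw [norm_smul, norm_actW M x f hU, norm_vac, mul_one]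
  have h5 := mg1_four h1 h2 h3 h4
  rw [mul_pow |s|, sq_abs] at h5
  refine le_of_eq_of_le ?_ h5
  have h6 : dW M x f (fun j => ((2 * (⟪b, f j⟫_ℂ).im : ℝ) : ℂ)) (fw γ A p) M.vac =
      (-Complex.I) • actW M x f (fw γ A p) (∑ j ∈ range p,
        ((γ j * (2 * (⟪b, f j⟫_ℂ).im) : ℝ) : ℂ) • actW M x f (zw γ A j) M.vac) := by
    rw [dW_fw M x f _ γ hA, map_sum, Finset.smul_sum]
    refine Finset.sum_congr rfl fun j _ => ?_
    rw [map_smul, smul_smul, Complex.ofReal_mul (γ j)]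
    congr 1
    ring
  have h7 : Complex.exp (-(Complex.I * ((s * y : ℝ) : ℂ))) =
      Complex.exp (-(Complex.I * ((s * κ : ℝ) : ℂ))) *
        Complex.exp (-(Complex.I * ((s * (y - κ) : ℝ) : ℂ))) := by
    rw [← Complex.exp_add]
    congr 1
    push_cast
    ring
  rw [← one_mul ‖_ - _‖, ← mg1_norm (s * κ), ← norm_smul, h6, h7, map_sub, map_sub, map_smul,
    map_smul, ← LinearMap.comp_apply (dis M s b), dis_actW, LinearMap.comp_apply,
    Complex.ofReal_mul s κ]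
  congr 2
  module

/-- Put `b = fA`, `u = mA - msg`, `κ = Sa msg`, so that the phase is `exp (-i s (S u - κ))` a.e.
By `dis_actW`, `dis s b st = W (dis s b vac)` with `W = actW (tw c s (fw p))` isometric. Then
`e^{-i s (S u - κ)} W dis vac - U vac = e^{i s κ} W (e^{-i s S u} dis vac - vac) +
e^{i s κ} (W vac - U vac - s dW vac) + e^{i s κ} (s dW vac + i s κ U vac) +
e^{i s κ} (1 - e^{-i s κ} - i s κ) U vac`. The four terms are bounded by `dis_vac` and `dist_split`,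
`norm_tw_sub` and `bd_fw`, `dW_fw` and `onsager`, `tendsto_rem`; `‖a + b + c + d‖ ^ 2 ≤ 4 ∑`. -/
theorem DM.small (h : D.Cons γ V m f) (p : ℕ) {A : Set Λ} (hA : MeasurableSet A)
    {F : Ω → Bool} (hF : Measurable F) {η : ℝ} (hη : 0 < η) :
    ∀ᶠ s : ℝ in 𝓝[≠] 0,
      ∫ ω, ‖Complex.exp (-(Complex.I * ((s * (D.X.S (D.mA A (D.zv γ V m f p)) ω -
          D.X.fld A F ω) : ℝ) : ℂ))) • dis D.M s (D.fA A (D.zv γ V m f p)) (D.st γ V m f p ω) -
          D.st γ V m f p ω‖ ^ 2 ∂P ≤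
        s ^ 2 * (48 * ∫ ω, D.rs A (fun ω => ‖D.M.mat (Qb (F ω)) (D.st γ V m f p ω)‖ ^ 2) ω ∂P +
          η) := by
  set z := D.zv γ V m f p
  set b := D.fA A z
  set u := D.mA A z - D.X.msg A F with hu
  set κ := D.X.Sa (D.X.msg A F)
  set β := ∑ j ∈ range p, |γ j * (2 * (⟪b, f j⟫_ℂ).im)|
  have e1 : ∀ᶠ s : ℝ in 𝓝[≠] 0, s ^ 2 * β ^ 4 < η / 8 := by
    have : Tendsto (fun s : ℝ => s ^ 2 * β ^ 4) (𝓝 0) (𝓝 (0 ^ 2 * β ^ 4)) :=
      (by fun_prop : Continuous fun s : ℝ => s ^ 2 * β ^ 4).tendsto 0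
    exact (this.mono_left nhdsWithin_le_nhds).eventually_lt_const (by simpa using hη)
  filter_upwards [e1, (tendsto_rem κ).eventually_lt_const (by positivity : 0 < η / 8),
    self_mem_nhdsWithin] with s h1 h2 hs
  have hs2 : 0 < s ^ 2 := (pow_pos (abs_pos.2 hs) 2).trans_eq (sq_abs s)
  rw [div_lt_iff₀ hs2] at h2
  have i1 := (((L2.const (P := P) (dis D.M s b D.M.vac)).smul (mg1_meas s (D.X.S u))
    fun ω => (mg1_norm _).le).sub (L2.const D.M.vac)).integrable_sq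
  have i3 := ((L2.sum (range p) fun j _ => (D.L2_zv (γ := γ) (m := m) (f := f) h.ok j).smul
    (c := fun _ => ((γ j * (2 * (⟪b, f j⟫_ℂ).im) : ℝ) : ℂ)) aestronglyMeasurable_const
    fun _ => le_rfl).sub (L2.smul_const (Lp.memLp κ) D.M.vac)).integrable_sq
  have i4 := mg1_int s κ
  have hph : ∀ᵐ ω ∂P, D.X.S (D.mA A z) ω - D.X.fld A F ω = D.X.S u ω - κ ω := by
    rw [hu, map_sub]
    filter_upwards [Lp.coeFn_sub (D.X.S (D.mA A z)) (D.X.S (D.X.msg A F)),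
      Lp.coeFn_add (D.X.S (D.X.msg A F)) κ] with ω g1 g2
    rw [g1, Data.fld, g2, Pi.sub_apply, Pi.add_apply]
    ring
  have i := ((i1.add (integrable_const ((s ^ 2 * β ^ 2) ^ 2))).add (i3.const_mul (s ^ 2))).add i4
  refine (integral_mono_of_nonneg (.of_forall fun ω => by positivity) (i.const_mul 4) ?_).trans ?_
  · filter_upwards [hph] with ω hω
    rw [hω]
    exact mg1_pt D.M _ f γ (D.uni_gt h.ok ω) p s b _ _
  · have j1 := D.dis_vac s u b
    have j3 := mul_le_mul_of_nonneg_left (D.onsager h p hA hF) hs2.le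
    rw [D.dist_split h p hA hF] at j1
    rw [integral_const_mul, integral_add' ((i1.add (integrable_const _)).add (i3.const_mul _)) i4,
      integral_add' (i1.add (integrable_const _)) (i3.const_mul _),
      integral_add' i1 (integrable_const _), integral_const, probReal_univ, one_smul,
      integral_const_mul]
    nlinarith [mul_lt_mul_of_pos_left h1 hs2]

end

end Vale.Agent.P367
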