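import Vale.Agent.P367M.MG1

/-! The estimate for the coupling rule. -/

set_option linter.all false

namespace Vale.Agent.P367

open MeasureTheory ProbabilityTheory Filter Topology Finset Vale.Agent.P146 Matrix
open scoped InnerProductSpace

noncomputable section

variable {Ω : Type} [MeasurableSpace Ω] {Λ : Type} [MeasurableSpace Λ] {ν : Measure Λ}
  {P : Measure Ω} [IsProbabilityMeasure P] {H K : Type} [NormedAddCommGroup H]
  [InnerProductSpace ℂ H] [SeminormedAddCommGroup K] [InnerProductSpace ℂ K] (D : DM ν P H K)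
  {γ : ℕ → ℝ} {V : ℕ → Λ → M2} {m : ℕ → Lp ℝ 2 P} {f : ℕ → H}

theorem MG2_pow (M : P367S.Mdl H K) (s x : ℝ) (b : H) (y : K) (n : ℕ) :
    ‖cg M (n * s) x b y - y‖ ≤ n * ‖cg M s x b y - y‖ := by
  induction n with
  | zero => simp [cg_zero]
  | succ n ih =>
    have h1 : cg M (((n + 1 : ℕ) : ℝ) * s) x b y - y =
        cg M s x b (cg M (n * s) x b y - y) + (cg M s x b y - y) := by
      rw [Nat.cast_succ, add_mul, one_mul, add_comm, cg_add, LinearMap.comp_apply, map_sub]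
      abel
    rw [h1]
    refine (norm_add_le _ _).trans ?_
    rw [norm_cg, Nat.cast_succ, add_mul, one_mul]
    linarith

theorem MG2_int {x : Ω → ℝ} (hx : AEStronglyMeasurable x P) {y : Ω → K} (hy : L2 P y) (s : ℝ)
    (b : H) : Integrable (fun ω => ‖Complex.exp (-(Complex.I * ((s * x ω : ℝ) : ℂ))) •
      dis D.M s b (y ω) - y ω‖ ^ 2) P := by
  refine L2.integrable_sq (L2.sub (L2.smul (C := 1) (hy.lin (dis D.M s b) (C := 1) fun z => by
    rw [norm_dis, one_mul]) ?_ fun ω => ?_) hy)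
  · exact (show Continuous fun t : ℝ => Complex.exp (-(Complex.I * ((s * t : ℝ) : ℂ))) by
      fun_prop).comp_aestronglyMeasurable hx
  · rw [Complex.norm_exp]
    simp

/-- group property `cg_add` and `norm_cg`: `‖cg (n s) y - y‖ ≤ n ‖cg s y - y‖` pointwise; take
`s = g / n`, `norm_cg_sub_le`, `small` at `s` and `-s`, then `η → 0` -/
theorem DM.rule (h : D.Cons γ V m f) (p : ℕ) {A : Set Λ} (hA : MeasurableSet A)
    {F : Ω → Bool} (hF : Measurable F) (g : ℝ) :
    ∫ ω, ‖cg D.M g (D.X.S (D.mA A (D.zv γ V m f p)) ω - D.X.fld A F ω)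
        (D.fA A (D.zv γ V m f p)) (D.st γ V m f p ω) - D.st γ V m f p ω‖ ^ 2 ∂P ≤
      g ^ 2 * (96 * ∫ ω, D.rs A (fun ω => ‖D.M.mat (Qb (F ω)) (D.st γ V m f p ω)‖ ^ 2) ω ∂P) := by
  set E := ∫ ω, D.rs A (fun ω => ‖D.M.mat (Qb (F ω)) (D.st γ V m f p ω)‖ ^ 2) ω ∂P with hE
  rcases eq_or_ne g 0 with rfl | hg
  · simp [cg_zero]
  have hx : AEStronglyMeasurable
      (fun ω => D.X.S (D.mA A (D.zv γ V m f p)) ω - D.X.fld A F ω) P :=
    (Lp.aestronglyMeasurable _).sub (Lp.aestronglyMeasurable _)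
  have hy := D.L2_st (γ := γ) (m := m) (f := f) h.ok p
  refine le_of_forall_pos_le_add fun ε hε => ?_
  have hη : 0 < ε / (2 * g ^ 2) := by positivity
  have h1 := D.small h p hA hF hη
  have h2 : ∀ c : ℝ, c ≠ 0 → Tendsto (fun n : ℕ => c / ((n : ℝ) + 1)) atTop (𝓝[≠] 0) :=
    fun c hc => tendsto_nhdsWithin_iff.2 ⟨by
      simpa [div_eq_mul_inv] using tendsto_one_div_add_atTop_nhds_zero_nat.const_mul c,
      Eventually.of_forall fun n => div_ne_zero hc (by positivity)⟩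
  obtain ⟨n, h3, h4⟩ := (((h2 g hg).eventually h1).and
    ((h2 (-g) (neg_ne_zero.2 hg)).eventually h1)).exists
  rw [neg_div] at h4
  set s := g / ((n : ℝ) + 1) with hs
  have hgs : g = ((n + 1 : ℕ) : ℝ) * s := by
    rw [hs, Nat.cast_succ]
    field_simp
  have i1 := MG2_int D hx hy s (D.fA A (D.zv γ V m f p))
  have i2 := MG2_int D hx hy (-s) (D.fA A (D.zv γ V m f p))
  have h5 := integral_mono_of_nonneg (μ := P)
    (f := fun ω => ‖cg D.M g (D.X.S (D.mA A (D.zv γ V m f p)) ω - D.X.fld A F ω)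
        (D.fA A (D.zv γ V m f p)) (D.st γ V m f p ω) - D.st γ V m f p ω‖ ^ 2)
    (Eventually.of_forall fun ω => sq_nonneg _)
    ((i1.add i2).const_mul (((n + 1 : ℕ) : ℝ) ^ 2)) (Eventually.of_forall fun ω => by
      have h6 := MG2_pow D.M s (D.X.S (D.mA A (D.zv γ V m f p)) ω - D.X.fld A F ω)
        (D.fA A (D.zv γ V m f p)) (D.st γ V m f p ω) (n + 1)
      rw [← hgs] at h6
      refine (pow_le_pow_left₀ (norm_nonneg _) h6 2).trans ?_
      rw [mul_pow]
      exact mul_le_mul_of_nonneg_left (norm_cg_sub_le D.M s _ _ _) (sq_nonneg _))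
  refine h5.trans ?_
  rw [integral_const_mul, integral_add' i1 i2]
  refine (mul_le_mul_of_nonneg_left (add_le_add h3 h4) (sq_nonneg _)).trans (le_of_eq ?_)
  have h7 : ((n + 1 : ℕ) : ℝ) ^ 2 * s ^ 2 = g ^ 2 := by rw [← mul_pow, ← hgs]
  have h8 : g ^ 2 * (ε / (2 * g ^ 2)) = ε / 2 := by field_simp
  rw [neg_sq, ← hE]
  linear_combination (2 * (48 * E + ε / (2 * g ^ 2))) * h7 + 2 * h8

end

end Vale.Agent.P367
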