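import Vale.Agent.P367M.MG2
import Vale.Agent.P367M.MF
import Vale.Agent.P367M.MD

/-! The rules of the game. -/

set_option linter.all false

namespace Vale.Agent.P367

open MeasureTheory ProbabilityTheory Filter Topology Finset Vale.Agent.P146 Matrix
open scoped InnerProductSpace

noncomputable section

variable {Ω : Type} [MeasurableSpace Ω] {Λ : Type} [MeasurableSpace Λ] {ν : Measure Λ}
  {P : Measure Ω} [IsProbabilityMeasure P] {H K : Type} [NormedAddCommGroup H]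
  [InnerProductSpace ℂ H] [SeminormedAddCommGroup K] [InnerProductSpace ℂ K] (D : DM ν P H K)
  {γ : ℕ → ℝ} {V : ℕ → Λ → M2} {m : ℕ → Lp ℝ 2 P} {f : ℕ → H}

theorem DM.integrable_err {Q : Ω → M2} (hQ : MQ Q) {ψ : Ω → K} (h : L2 P ψ) :
    Integrable (fun ω => ‖D.M.mat (Q ω) (ψ ω)‖ ^ 2) P :=
  (h.mat D.M (fun a b => (hQ.1 a b).aestronglyMeasurable)
    fun ω => (hQ.2 ω).entry_le).integrable_sq

theorem mh_cj (M : P367S.Mdl H K) {W : M2} (hW : Uni W) (Q : M2) (y : K) :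
    ‖M.mat (cj W Q) (M.mat W y)‖ = ‖M.mat Q y‖ := by
  have e : cj W Q * W = W * Q := by
    rw [cj, mul_assoc, ← star_eq_conjTranspose, mem_unitaryGroup_iff'.1 hW, mul_one]
  rw [← LinearMap.comp_apply, ← mat_mul, e, mat_mul, LinearMap.comp_apply, norm_mat_uni M hW]

theorem DM.mh_step (h : D.Cons γ V m f) (p : ℕ) {W : Λ → M2} (hW : GOK W) :
    ∃ γ' V' m' f', D.Cons γ' V' m' f' ∧
      ∀ ω, D.st γ' V' m' f' (p + 1) ω = D.M.mat (W (D.X.lab ω)) (D.st γ V m f p ω) := by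
  have e : ∀ j < p, Function.update γ p 0 j = γ j ∧ Function.update V p W j = V j :=
    fun j hj => ⟨Function.update_of_ne hj.ne _ _, Function.update_of_ne hj.ne _ _⟩
  obtain ⟨m', f', h1, h2⟩ := D.cons_ext h (γ' := Function.update γ p 0)
    (V' := Function.update V p W) (fun j => by
      rcases eq_or_ne j p with rfl | hj
      · rwa [Function.update_self]
      · rw [Function.update_of_ne hj]
        exact h.ok j) e
  refine ⟨_, _, m', f', h1, fun ω => ?_⟩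
  rw [← D.st_congr e fun j hj => h2 j hj.le, DM.st, actW_fw_succ, Function.update_self, cg_zero]
  simp only [DM.gt, Function.update_self]
  rfl

/-- one layer with angle `0` and the matrix of `exists_had`; `cons_exists` -/
theorem DM.reach_init : D.Reach fun _ => Qb true := by
  obtain ⟨A, hA, h0⟩ := exists_had D.M
  have hV : GOK fun _ : Λ => A := ⟨fun _ _ => measurable_const, fun _ => hA⟩
  obtain ⟨m, f, h⟩ := D.cons_exists (V := fun _ _ => A) 0 fun _ => hV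
  obtain ⟨γ', V', m', f', h1, h2⟩ := D.mh_step h 0 hV
  refine fun ε hε => ⟨γ', V', m', f', 0 + 1, h1, ?_⟩
  have e : ∀ ω, D.M.mat (Qb true) (D.st γ' V' m' f' (0 + 1) ω) = 0 := fun ω => by
    rw [h2]
    exact h0
  simp [DM.err, e, hε.le]

/-- one more layer with angle `0` and the gate `W` (`Function.update`, `cons_ext`, `st_congr`) -/
theorem DM.reach_gate (W : Λ → M2) (Q : Ω → M2) (hW : GOK W) (hQ : MQ Q) (h : D.Reach Q) :
    D.Reach fun ω => cj (W (D.X.lab ω)) (Q ω) := by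
  intro ε hε
  obtain ⟨γ, V, m, f, p, h1, h2⟩ := h ε hε
  obtain ⟨γ', V', m', f', h3, h4⟩ := D.mh_step h1 p hW
  refine ⟨γ', V', m', f', p + 1, h3, le_of_eq_of_le ?_ h2⟩
  simp only [DM.err, h4, mh_cj D.M (hW.2 _)]

open Classical in
/-- `couple`. On `R`: `cg g x b = mat (RZ (g fld)) ∘ cg g (x - fld) b` (`cg_shift`), so the new error
is `‖Q (cg g (x - fld) b st)‖ ≤ ‖Q st‖ + ‖cg .. st - st‖` (`norm_Pj_le`, `rule`). On `A`: `Qb` is
diagonal (`cg_diag`). The new error is at most `(2 + 192 g ^ 2)` times the old one. -/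
theorem DM.reach_cpl (R A : Set Λ) (g : ℝ) (F : Ω → Bool) (Q : Ω → M2) (hR : MeasurableSet R)
    (hA : MeasurableSet A) (hd : Disjoint R A) (hF : Measurable F) (hQ : MQ Q) (h : D.Reach Q)
    (e : ∀ ω, D.X.lab ω ∈ A → Q ω = Qb (F ω)) :
    D.Reach fun ω => if D.X.lab ω ∈ R then cj (RZ (g * D.X.fld A F ω)) (Q ω) else Q ω := by
  intro ε hε
  have c0 : 0 < 2 + 192 * g ^ 2 := by positivity
  obtain ⟨γ, V, m, f, p, h1, h2⟩ := h _ (div_pos hε c0)
  obtain ⟨γ', V', m', f', h3, h4⟩ := D.couple h1 p hR hA hd g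
  refine ⟨γ', V', m', f', p + 4, h3, ?_⟩
  have r1 := D.rule h1 p hA hF g
  have ls := D.L2_st (γ := γ) (m := m) (f := f) h1.ok p
  have i1 := D.integrable_err hQ ls
  set ψ := D.st γ V m f p with hψ
  set b := D.fA A (D.zv γ V m f p) with hb
  set x : Ω → ℝ := fun ω => D.X.S (D.mA A (D.zv γ V m f p)) ω - D.X.fld A F ω with hx
  have mx : AEStronglyMeasurable x P :=
    (Lp.aestronglyMeasurable _).sub (Lp.aestronglyMeasurable _)
  have i2 : Integrable (fun ω => ‖cg D.M g (x ω) b (ψ ω) - ψ ω‖ ^ 2) P := by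
    refine (L2.sub (L2.mat D.M (ls.lin (D.M.cw ((g : ℂ) • b)).toLinearEquiv.toLinearMap (C := 1)
      fun y => by simp) (A := fun ω => RZ (g * x ω)) (fun a c => ?_)
      fun ω => (uni_RZ _).entry_le) ls).integrable_sq
    refine Continuous.comp_aestronglyMeasurable (g := fun t : ℝ => RZ (g * t) a c) ?_ mx
    simp only [RZ, diagonal_apply]
    split_ifs <;> fun_prop
  have r2 : ∫ ω, D.rs A (fun ω => ‖D.M.mat (Qb (F ω)) (ψ ω)‖ ^ 2) ω ∂P ≤ D.err Q ψ := by
    refine integral_mono_of_nonneg (ae_of_all _ fun ω => ?_) i1 (ae_of_all _ fun ω => ?_) <;>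
      simp only [DM.rs] <;> split_ifs with hω
    · positivity
    · exact le_rfl
    · rw [e ω hω]
    · positivity
  have r3 : D.err (fun ω => if D.X.lab ω ∈ R then cj (RZ (g * D.X.fld A F ω)) (Q ω) else Q ω)
      (D.st γ' V' m' f' (p + 4)) ≤
      ∫ ω, (2 * ‖D.M.mat (Q ω) (ψ ω)‖ ^ 2 + 2 * ‖cg D.M g (x ω) b (ψ ω) - ψ ω‖ ^ 2) ∂P := by
    refine integral_mono_of_nonneg (ae_of_all _ fun ω => by positivity)
      ((i1.const_mul 2).add (i2.const_mul 2)) (h4.mono fun ω hω => ?_)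
    have p1 := sq_nonneg ‖D.M.mat (Q ω) (ψ ω)‖
    have p2 := sq_nonneg ‖cg D.M g (x ω) b (ψ ω) - ψ ω‖
    simp only [hω]
    split_ifs with a1 a2
    · rw [show D.X.S (D.mA A (D.zv γ V m f p)) ω = D.X.fld A F ω + x ω by simp only [hx]; ring,
        cg_shift, LinearMap.comp_apply, mh_cj D.M (uni_RZ _)]
      have q1 := norm_Pj_le D.M (hQ.2 ω) (cg D.M g (x ω) b (ψ ω) - ψ ω)
      have q2 := norm_add_le (D.M.mat (Q ω) (ψ ω))
        (D.M.mat (Q ω) (cg D.M g (x ω) b (ψ ω) - ψ ω))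
      rw [← map_add, add_sub_cancel] at q2
      have q3 := pow_le_pow_left₀ (norm_nonneg _) (q2.trans (add_le_add_right q1 _)) 2
      nlinarith [sq_nonneg (‖D.M.mat (Q ω) (ψ ω)‖ - ‖cg D.M g (x ω) b (ψ ω) - ψ ω‖)]
    · rw [e ω a2] at p1 ⊢
      rw [Qb, ← LinearMap.comp_apply, cg_diag, LinearMap.comp_apply, norm_cg]
      rw [Qb] at p1
      linarith
    · linarith
  rw [integral_add (i1.const_mul 2) (i2.const_mul 2), integral_const_mul, integral_const_mul,
    ← DM.err] at r3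
  have r4 := mul_le_mul_of_nonneg_left r2 (sq_nonneg g)
  rw [le_div_iff₀ c0] at h2
  linarith

/-- `‖Q st‖ ^ 2 ≤ 2 ‖Q' st‖ ^ 2 + 8 fro (Q - Q')` (`norm_mat_sq_le`, `norm_st`) -/
theorem DM.reach_lim (Q : Ω → M2) (hQ : MQ Q)
    (h : ∀ δ > 0, ∃ Q', MQ Q' ∧ D.Reach Q' ∧ ∫ ω, fro (Q ω - Q' ω) ∂P ≤ δ) : D.Reach Q := by
  intro ε hε
  obtain ⟨Q', hQ', h1, h2⟩ := h (ε / 16) (by positivity)
  obtain ⟨γ, V, m, f, p, h3, h4⟩ := h1 (ε / 4) (by positivity)
  refine ⟨γ, V, m, f, p, h3, ?_⟩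
  have i1 := D.integrable_err hQ' (D.L2_st (γ := γ) (m := m) (f := f) h3.ok p)
  have i2 : Integrable (fun ω => fro (Q ω - Q' ω)) P :=
    integrable_finsetSum _ fun a _ => integrable_finsetSum _ fun b _ =>
      Integrable.of_bound (((hQ.1 a b).sub (hQ'.1 a b)).norm.pow_const 2).aestronglyMeasurable
        (2 ^ 2) (ae_of_all _ fun ω => by
          rw [norm_pow, norm_norm]
          exact pow_le_pow_left₀ (norm_nonneg _) ((norm_sub_le _ _).trans (by
            linarith [(hQ.2 ω).entry_le a b, (hQ'.2 ω).entry_le a b])) 2)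
  have r : D.err Q (D.st γ V m f p) ≤
      ∫ ω, (2 * ‖D.M.mat (Q' ω) (D.st γ V m f p ω)‖ ^ 2 + 8 * fro (Q ω - Q' ω)) ∂P := by
    refine integral_mono_of_nonneg (ae_of_all _ fun ω => by positivity)
      ((i1.const_mul 2).add (i2.const_mul 8)) (ae_of_all _ fun ω => ?_)
    have q1 := norm_mat_sq_le D.M (Q ω - Q' ω) (D.st γ V m f p ω)
    have q2 := norm_add_le (D.M.mat (Q' ω) (D.st γ V m f p ω))
      (D.M.mat (Q ω - Q' ω) (D.st γ V m f p ω))
    rw [← LinearMap.add_apply, ← mat_add, add_sub_cancel] at q2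
    rw [D.norm_st h3.ok] at q1
    have q3 := pow_le_pow_left₀ (norm_nonneg _) q2 2
    simp only
    nlinarith [sq_nonneg (‖D.M.mat (Q' ω) (D.st γ V m f p ω)‖ -
      ‖D.M.mat (Q ω - Q' ω) (D.st γ V m f p ω)‖)]
  rw [integral_add (i1.const_mul 2) (i2.const_mul 8), integral_const_mul, integral_const_mul,
    ← DM.err] at r
  linarith

theorem DM.rules : Rules D.X D.Reach :=
  ⟨D.reach_init, D.reach_gate, D.reach_cpl, D.reach_lim⟩

/-- `energy`, `isGram` -/
theorem DM.reach_en (F : Ω → Bool) (hF : Measurable F) (h : D.Reach fun ω => Qb (F ω)) :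
    ∀ ε > 0, ∃ v ∈ Q3 ν, D.X.en F - ε ≤ v := by
  intro ε hε
  obtain ⟨γ, V, m, f, p, h1, h2⟩ := h ((ε / 6) ^ 2) (by positivity)
  refine ⟨_, ⟨γ, V, _, p, h1.ok, D.isGram h1, rfl⟩, le_trans ?_ (D.energy h1 p hF)⟩
  linarith [Real.sqrt_le_iff.2 ⟨(by positivity : 0 ≤ ε / 6), h2⟩]

end

end Vale.Agent.P367
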