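import Vale.Agent.P367M.Defs

/-! Existence of the data space. -/

set_option linter.all false

namespace Vale.Agent.P367

open MeasureTheory ProbabilityTheory Filter Topology Finset Vale.Agent.P146 Matrix
open scoped InnerProductSpace

noncomputable section

section aux

variable {Ω : Type} [MeasurableSpace Ω] {Q : Measure Ω} [IsProbabilityMeasure Q]

theorem mi1_int {g : Ω → ℝ} (hg : AEStronglyMeasurable g Q) :
    Integrable (fun ω => Complex.exp (g ω * Complex.I)) Q :=
  Integrable.of_bound (Complex.continuous_exp.comp_aestronglyMeasurable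
    ((Complex.continuous_ofReal.comp_aestronglyMeasurable hg).mul_const _)) 1
    (Eventually.of_forall fun ω => (Complex.norm_exp_ofReal_mul_I _).le)

theorem mi1_cont : Continuous fun g : Lp ℝ 2 Q => ∫ ω, Complex.exp (g ω * Complex.I) ∂Q := by
  refine LipschitzWith.continuous (K := 1) (LipschitzWith.of_dist_le_mul fun g h => ?_)
  rw [dist_eq_norm, dist_eq_norm, NNReal.coe_one, one_mul,
    ← integral_sub (mi1_int (Lp.aestronglyMeasurable g)) (mi1_int (Lp.aestronglyMeasurable h))]
  have h1 : Integrable (fun ω => ‖(g - h) ω‖) Q := ((Lp.memLp (g - h)).integrable one_le_two).norm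
  refine (norm_integral_le_of_norm_le h1 ?_).trans ?_
  · filter_upwards [Lp.coeFn_sub g h] with ω hω
    have e : Complex.exp (g ω * Complex.I) - Complex.exp (h ω * Complex.I) =
        Complex.exp (h ω * Complex.I) * (Complex.exp (Complex.I * (g ω - h ω : ℝ)) - 1) := by
      rw [mul_sub, ← Complex.exp_add, mul_one]
      congr 2
      push_cast
      ring
    rw [e, norm_mul, Complex.norm_exp_ofReal_mul_I, one_mul, hω]
    exact Real.norm_exp_I_mul_ofReal_sub_one_le
  · rw [integral_norm_eq_lintegral_enorm (Lp.aestronglyMeasurable _),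
      ← eLpNorm_one_eq_lintegral_enorm, Lp.norm_def]
    exact ENNReal.toReal_mono (Lp.eLpNorm_ne_top _)
      (eLpNorm_le_eLpNorm_of_exponent_le one_le_two (Lp.aestronglyMeasurable _))

theorem mi1_iso {ι : Type} {X : ι → Ω → ℝ} (hm : ∀ i, Measurable (X i)) (hX : iIndepFun X Q)
    (hl : ∀ i, Q.map (X i) = gaussianReal 0 1) :
    ∃ S : lp (fun _ : ι => ℝ) 2 →ₗᵢ[ℝ] Lp ℝ 2 Q, ∀ f, Q.map (S f) = gaussianReal 0 (‖f‖₊ ^ 2) := by
  classical
  have h2 : ∀ i, MemLp (X i) 2 Q := fun i => by
    have h := memLp_id_gaussianReal' (μ := 0) (v := 1) 2 (by simp)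
    rw [← hl i] at h
    exact (memLp_map_measure_iff h.1 (hm i).aemeasurable).1 h
  have h0 : ∀ i, ∫ ω, X i ω ∂Q = 0 := fun i => by
    have h := integral_id_gaussianReal (μ := 0) (v := 1)
    rwa [← hl i, integral_map (hm i).aemeasurable (by fun_prop)] at h
  have hin : ∀ i j, ⟪(h2 i).toLp, (h2 j).toLp⟫_ℝ = ∫ ω, X i ω * X j ω ∂Q := fun i j => by
    rw [L2.inner_def]
    refine integral_congr_ae ?_
    filter_upwards [(h2 i).coeFn_toLp, (h2 j).coeFn_toLp] with ω a b
    rw [a, b]
    simp [mul_comm]
  have ho : Orthonormal ℝ fun i => (h2 i).toLp := by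
    refine orthonormal_iff_ite.2 fun i j => ?_
    rw [hin]
    split_ifs with h
    · have h3 := variance_id_gaussianReal (μ := 0) (v := 1)
      rw [← hl i, variance_id_map (hm i).aemeasurable, variance_eq_sub (h2 i), h0] at h3
      simpa [← h, sq] using h3
    · rw [(hX.indepFun h).integral_fun_mul_eq_mul_integral (hm i).aestronglyMeasurable
        (hm j).aestronglyMeasurable, h0, zero_mul]
  have hfin : ∀ (s : Finset ι) (c : ι → ℝ),
      ∫ ω, Complex.exp ((∑ i ∈ s, c i • (h2 i).toLp : Lp ℝ 2 Q) ω * Complex.I) ∂Q =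
        Complex.exp (-((‖∑ i ∈ s, c i • (h2 i).toLp‖ ^ 2 / 2 : ℝ) : ℂ)) := fun s c => by
    have e1 : ∀ᵐ ω ∂Q, (∑ i ∈ s, c i • (h2 i).toLp : Lp ℝ 2 Q) ω = ∑ i ∈ s, c i * X i ω := by
      induction s using Finset.induction_on with
      | empty => simpa using Lp.coeFn_zero ℝ 2 Q
      | insert i s hi ih =>
        rw [Finset.sum_insert hi]
        filter_upwards [ih, Lp.coeFn_add (c i • (h2 i).toLp) (∑ i ∈ s, c i • (h2 i).toLp),
          Lp.coeFn_smul (c i) (h2 i).toLp, (h2 i).coeFn_toLp] with ω a1 a2 a3 a4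
        rw [a2, Pi.add_apply, a1, a3, Pi.smul_apply, a4, Finset.sum_insert hi, smul_eq_mul]
    have e2 : ‖∑ i ∈ s, c i • (h2 i).toLp‖ ^ 2 = ∑ i ∈ s, c i ^ 2 := by
      rw [← real_inner_self_eq_norm_sq, ho.inner_sum]
      simp [sq]
    have hc : iIndepFun (fun i ω => c i * X i ω) Q :=
      hX.comp (fun i x => c i * x) fun i => by fun_prop
    have e3 := congrFun (iIndepFun.charFun_map_fun_finsetSum_eq_prod (s := s)
      (X := fun i ω => c i * X i ω) (fun i _ => ((hm i).const_mul _).aemeasurable)
      (hc.restrict s)) 1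
    have e4 : ∀ i, charFun (Q.map fun ω => c i * X i ω) 1 =
        Complex.exp (-((c i ^ 2 / 2 : ℝ) : ℂ)) := fun i => by
      have h3 := charFun_gaussianReal (μ := 0) (v := 1) (c i)
      rw [← hl i, charFun_apply_real, integral_map (hm i).aemeasurable (by fun_prop)] at h3
      rw [charFun_apply_real, integral_map ((hm i).const_mul _).aemeasurable (by fun_prop)]
      simpa using h3
    rw [charFun_apply_real, integral_map (Finset.measurable_fun_sum _ fun i _ =>
      (hm i).const_mul _).aemeasurable (by fun_prop), Finset.prod_apply] at e3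
    simp only [e4, Complex.ofReal_one, one_mul] at e3
    rw [e2, integral_congr_ae (g := fun ω =>
      Complex.exp (((∑ i ∈ s, c i * X i ω : ℝ) : ℂ) * Complex.I)) (e1.mono fun ω h => by
        simp only [h]), e3, ← Complex.exp_sum]
    congr 1
    push_cast
    rw [Finset.sum_div, Finset.sum_neg_distrib]
  refine ⟨ho.orthogonalFamily.linearIsometry, fun f => ?_⟩
  have hall : ∀ f, ∫ ω, Complex.exp (ho.orthogonalFamily.linearIsometry f ω * Complex.I) ∂Q =
      Complex.exp (-((‖ho.orthogonalFamily.linearIsometry f‖ ^ 2 / 2 : ℝ) : ℂ)) := fun f =>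
    (isClosed_eq mi1_cont (g := fun g : Lp ℝ 2 Q =>
      Complex.exp (-((‖g‖ ^ 2 / 2 : ℝ) : ℂ))) (by fun_prop)).mem_of_tendsto
      (ho.orthogonalFamily.hasSum_linearIsometry f) (Eventually.of_forall fun s => hfin s f)
  have := Measure.isProbabilityMeasure_map (μ := Q)
    (Lp.aestronglyMeasurable (ho.orthogonalFamily.linearIsometry f)).aemeasurable
  refine Measure.ext_of_charFun (funext fun t => ?_)
  have h3 := hall (t • f)
  rw [LinearIsometry.norm_map, map_smul, norm_smul, mul_pow, Real.norm_eq_abs, sq_abs] at h3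
  rw [charFun_gaussianReal, charFun_apply_real,
    integral_map (Lp.aestronglyMeasurable _).aemeasurable (by fun_prop)]
  refine Eq.trans (integral_congr_ae ?_) (h3.trans ?_)
  · filter_upwards [Lp.coeFn_smul t (ho.orthogonalFamily.linearIsometry f)] with ω hω
    rw [hω]
    simp
  · congr 1
    push_cast
    ring

theorem mi1_count {H : Type} [NormedAddCommGroup H] [InnerProductSpace ℝ H]
    [TopologicalSpace.SeparableSpace H] {ι : Type} {v : ι → H} (hv : Orthonormal ℝ v) :
    Countable ι := by
  refine Pairwise.countable_of_isOpen_disjoint (s := fun i => Metric.ball (v i) (1 / 2))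
    (fun i j h => Metric.ball_disjoint_ball ?_) (fun _ => Metric.isOpen_ball)
    fun _ => Metric.nonempty_ball.2 (by norm_num)
  have h1 := norm_sub_sq_real (v i) (v j)
  rw [hv.1, hv.1, hv.2 h, ← dist_eq_norm] at h1
  nlinarith [dist_nonneg (x := v i) (y := v j)]

end aux

/-- Existence of the data space. `Ω = Λ × (ℕ → ℝ)`, `P = ν.prod (Measure.infinitePi fun _ =>
gaussianReal 0 1)`. `Lp ℝ 2 P` is separable, so a Hilbert basis (`exists_hilbertBasis`) is indexed
by a countable set `w` (orthonormal vectors are at distance `√2`); take an injection `e : w → ℕ`;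
the coordinates `ω.2 (e i)` are an orthonormal family in `Lp ℝ 2 P`; `S` is the composition of
`b.repr` with the isometry of this family (`Orthonormal.orthogonalFamily`,
`OrthogonalFamily.linearIsometry`). The formula of `Data.char` (with `t • g`) holds for finite
combinations of basis vectors (product measure), both sides are continuous in `g`, so it holds for
all `g`; `gauss` and `ind` follow from uniqueness of characteristic functions
(`Measure.ext_of_charFun` applied to `(P.restrict (lab ⁻¹' s)).map (S f)`). -/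
theorem exists_data (Λ : Type) [MeasurableSpace Λ] [MeasurableSpace.CountablyGenerated Λ]
    (ν : Measure Λ) [IsProbabilityMeasure ν] :
    ∃ (Ω : Type) (_ : MeasurableSpace Ω) (_ : MeasurableSpace.CountablyGenerated Ω)
      (P : Measure Ω) (_ : IsProbabilityMeasure P), Nonempty (Data ν P) := by
  let Q : Measure (ℕ → ℝ) := Measure.infinitePi fun _ => gaussianReal 0 1
  have : Fact ((2 : ENNReal) ≠ ⊤) := ⟨by simp⟩
  obtain ⟨w, b, -⟩ := exists_hilbertBasis ℝ (Lp ℝ 2 (ν.prod Q))
  have := mi1_count b.orthonormal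
  obtain ⟨e, he⟩ := exists_injective_nat w
  obtain ⟨S, hS⟩ := mi1_iso (Q := Q) (X := fun (i : w) ω => ω (e i)) (fun i => by fun_prop)
    ((iIndepFun_infinitePi (X := fun _ x => x) fun _ => measurable_id).precomp he)
    fun i => Measure.infinitePi_map_eval _ _
  have hs : MeasurePreserving Prod.snd (ν.prod Q) Q := measurePreserving_snd
  let T : Lp ℝ 2 (ν.prod Q) →ₗᵢ[ℝ] Lp ℝ 2 (ν.prod Q) :=
    (Lp.compMeasurePreservingₗᵢ ℝ Prod.snd hs).comp (S.comp b.repr.toLinearIsometry)
  have hT : ∀ f, T f =ᵐ[ν.prod Q] S (b.repr f) ∘ Prod.snd := fun f =>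
    Lp.coeFn_compMeasurePreserving _ hs
  refine ⟨Λ × (ℕ → ℝ), inferInstance, inferInstance, ν.prod Q, inferInstance,
    ⟨⟨Prod.fst, T, measurable_fst, measurePreserving_fst.map_eq, fun f => ?_, fun f => ?_⟩⟩⟩
  · rw [Measure.map_congr (hT f), ← AEMeasurable.map_map_of_aemeasurable _ hs.aemeasurable,
      hs.map_eq, hS, LinearIsometryEquiv.nnnorm_map]
    rw [hs.map_eq]
    exact (Lp.aestronglyMeasurable _).aemeasurable
  · exact (indepFun_prod₀ (X := id) aemeasurable_id
      (Lp.aestronglyMeasurable (S (b.repr f))).aemeasurable).congr EventuallyEq.rfl (hT f).symm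

end

end Vale.Agent.P367
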