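import Vale.Agent.P367M.MH
import Vale.Agent.P367M.MI1
import Vale.Agent.P367M.MI2

/-! Part M. -/

set_option linter.all false

namespace Vale.Agent.P367

open MeasureTheory ProbabilityTheory Filter Topology Finset Vale.Agent.P146 Matrix
open scoped InnerProductSpace

noncomputable section

theorem partM_of (hK : ∃ (K : Type) (_ : SeminormedAddCommGroup K) (_ : InnerProductSpace ℂ K)
    (_ : TopologicalSpace.SeparableSpace K),
    Nonempty (P367S.Mdl (lp (fun _ : ℕ => ℂ) 2) K)) : PartM := by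
  intro Λ _ _ ν _
  obtain ⟨K, i1, i2, i3, ⟨M⟩⟩ := hK
  obtain ⟨Ω, j1, j2, P, j3, ⟨X⟩⟩ := exists_data Λ ν
  obtain ⟨J, hJ⟩ := exists_J P K
  let D : DM ν P (lp (fun _ : ℕ => ℂ) 2) K := ⟨M, X, J, hJ⟩
  exact ⟨Ω, j1, P, j3, X, D.Reach, D.rules, D.reach_en⟩

end

end Vale.Agent.P367
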